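import Vale.Agent.P007A.Defs
import Vale.Agent.Lib.PNT

/-! Chebyshev type bounds over prime powers. -/

namespace Vale.Agent.P007A

open Vale.Agent.P007 Matrix MeasureTheory Filter Topology NumberField
open scoped ENNReal nonZeroDivisors Classical

/-- The exponent of a prime power. -/
def chebE (q : ℕ) : ℕ := q.factorization q.minFac

theorem cheb_pp {q : ℕ} (hq : IsPrimePow q) :
    q.minFac.Prime ∧ 1 ≤ chebE q ∧ q.minFac ^ chebE q = q := by
  have h1 := hq.minFac_pow_factorization_eq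
  refine ⟨Nat.minFac_prime hq.ne_one, ?_, h1⟩
  by_contra h
  have h2 : q.factorization q.minFac = 0 := by
    unfold chebE at h
    omega
  rw [h2, pow_zero] at h1
  exact hq.ne_one h1.symm

theorem cheb_B {n : ℕ} {B : ℝ} {r : ℕ → ℝ} (h : Adm n B r) : 0 ≤ B := by
  have h1 := (h.nonneg _).trans (h.pp 2 1 Nat.prime_two le_rfl)
  by_contra hB
  have h2 : B * ((2 : ℕ) : ℝ) ^ 1 / ((2 : ℕ) : ℝ) ^ ((1 + n - 1) / n) < 0 :=
    div_neg_of_neg_of_pos (mul_neg_of_neg_of_pos (not_le.mp hB) (by positivity)) (by positivity)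
  linarith

/-- Splitting a sum over prime powers by the exponent. -/
theorem cheb_fiber {n : ℕ} {S : Finset ℕ} (hS : ∀ q ∈ S, IsPrimePow q) (f : ℕ → ℝ) {M T : ℝ}
    (hM : ∀ k, 1 ≤ k → k ≤ n → ∀ P : Finset ℕ, (∀ p ∈ P, p.Prime ∧ p ^ k ∈ S) →
      ∑ p ∈ P, f (p ^ k) ≤ M)
    (hT : ∑ q ∈ S.filter (fun q => n < chebE q), f q ≤ T) : ∑ q ∈ S, f q ≤ n * M + T := by
  rw [← Finset.sum_filter_add_sum_filter_not S (fun q => n < chebE q), add_comm]
  refine add_le_add ?_ hT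
  have hmap : ∀ q ∈ S.filter (fun q => ¬ n < chebE q), chebE q ∈ Finset.Icc 1 n := by
    intro q hq
    rw [Finset.mem_filter] at hq
    exact Finset.mem_Icc.mpr ⟨(cheb_pp (hS q hq.1)).2.1, not_lt.mp hq.2⟩
  rw [← Finset.sum_fiberwise_of_maps_to hmap]
  have hn : (n : ℝ) * M = ∑ _k ∈ Finset.Icc 1 n, M := by simp
  rw [hn]
  refine Finset.sum_le_sum fun k hk => ?_
  rw [Finset.mem_Icc] at hk
  obtain ⟨Q, hQ⟩ : ∃ Q, Q = (S.filter (fun q => ¬ n < chebE q)).filter (fun q => chebE q = k) :=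
    ⟨_, rfl⟩
  have hQ' : ∀ q ∈ Q, q ∈ S ∧ q.minFac ^ k = q := by
    intro q hq
    rw [hQ, Finset.mem_filter, Finset.mem_filter] at hq
    exact ⟨hq.1.1, by rw [← hq.2]; exact (cheb_pp (hS q hq.1.1)).2.2⟩
  rw [← hQ]
  have e : ∑ p ∈ Q.image Nat.minFac, f (p ^ k) = ∑ q ∈ Q, f q := by
    rw [Finset.sum_image]
    · exact Finset.sum_congr rfl fun q hq => by rw [(hQ' q hq).2]
    · intro q hq q' hq' h
      rw [← (hQ' q hq).2, ← (hQ' q' hq').2, h]
  rw [← e]
  refine hM k hk.1 hk.2 _ fun p hp => ?_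
  obtain ⟨q, hq, rfl⟩ := Finset.mem_image.mp hp
  refine ⟨(cheb_pp (hS q (hQ' q hq).1)).1, ?_⟩
  rw [(hQ' q hq).2]
  exact (hQ' q hq).1

/-- A summable majorant for the large exponents. -/
theorem cheb_maj {n : ℕ} (hn : 1 ≤ n) : ∃ H : ℕ × ℕ → ℝ, Summable H ∧ (∀ x, 0 ≤ H x) ∧
    ∀ p k : ℕ, p.Prime → n < k →
      Real.log ((p ^ k : ℕ) : ℝ) / (p : ℝ) ^ ((k + n - 1) / n) ≤ H (p, k) := by
  have hn0 : (0 : ℝ) < n := by exact_mod_cast hn
  obtain ⟨ρ, hρ⟩ : ∃ ρ : ℝ, ρ = (2 : ℝ) ^ (-(1 / (4 * (n : ℝ)))) := ⟨_, rfl⟩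
  have hρ0 : 0 < ρ := by rw [hρ]; positivity
  have hρ1 : ρ < 1 := by
    rw [hρ]
    exact Real.rpow_lt_one_of_one_lt_of_neg (by norm_num) (neg_lt_zero.mpr (by positivity))
  have s1 : Summable fun p : ℕ => 4 * (p : ℝ) ^ (-(5 / 4 : ℝ)) :=
    (Real.summable_nat_rpow.mpr (by norm_num)).mul_left 4
  have s2 : Summable fun k : ℕ => (k : ℝ) ^ 1 * ρ ^ k :=
    summable_pow_mul_geometric_of_norm_lt_one 1 (by rwa [Real.norm_eq_abs, abs_of_pos hρ0])
  have p1 : ∀ p : ℕ, 0 ≤ 4 * (p : ℝ) ^ (-(5 / 4 : ℝ)) := fun p => by positivity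
  have p2 : ∀ k : ℕ, 0 ≤ (k : ℝ) ^ 1 * ρ ^ k := fun k => by positivity
  have s3 := s1.mul_of_nonneg s2 p1 p2
  refine ⟨_, s3, fun x => mul_nonneg (p1 x.1) (p2 x.2), fun p k hp hk => ?_⟩
  show _ ≤ 4 * (p : ℝ) ^ (-(5 / 4 : ℝ)) * ((k : ℝ) ^ 1 * ρ ^ k)
  obtain ⟨j, hj⟩ : ∃ j, j = (k + n - 1) / n := ⟨_, rfl⟩
  rw [← hj]
  have hj2 : 2 ≤ j := by
    rw [hj, Nat.le_div_iff_mul_le hn]
    omega
  have hjk : k ≤ j * n := by
    have h1 := Nat.div_add_mod (k + n - 1) n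
    have h2 := Nat.mod_lt (k + n - 1) hn
    rw [← hj, mul_comm] at h1
    omega
  have hp2 : (2 : ℝ) ≤ p := by exact_mod_cast hp.two_le
  have hp0 : (0 : ℝ) < p := by linarith
  have hj2' : (2 : ℝ) ≤ j := by exact_mod_cast hj2
  have hjk' : (k : ℝ) ≤ j * n := by exact_mod_cast hjk
  have h1 : Real.log p ≤ 4 * (p : ℝ) ^ (1 / 4 : ℝ) := by
    have := Real.log_le_rpow_div hp0.le (show (0 : ℝ) < 1 / 4 by norm_num)
    linarith
  have h2 : ((p : ℝ) ^ j)⁻¹ ≤ (p : ℝ) ^ (-(3 / 2 : ℝ)) * ρ ^ k := by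
    have a1 : ((p : ℝ) ^ j)⁻¹ = (p : ℝ) ^ (-(3 / 2 : ℝ)) * (p : ℝ) ^ (-((j : ℝ) - 3 / 2)) := by
      rw [← Real.rpow_add hp0, ← Real.rpow_natCast, ← Real.rpow_neg hp0.le]
      congr 1
      ring
    have a2 : ρ ^ k = (2 : ℝ) ^ (-(1 / (4 * (n : ℝ))) * k) := by
      rw [hρ, ← Real.rpow_natCast, ← Real.rpow_mul (by norm_num)]
    rw [a1, a2]
    refine mul_le_mul_of_nonneg_left ?_ (by positivity)
    refine (Real.rpow_le_rpow_of_nonpos (by norm_num) hp2 (by linarith)).trans ?_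
    refine Real.rpow_le_rpow_of_exponent_le (by norm_num) ?_
    have a3 : 1 / (4 * (n : ℝ)) * k ≤ j / 4 := by
      rw [div_mul_eq_mul_div, div_le_div_iff₀ (by positivity) (by norm_num)]
      linarith
    linarith
  have h3 : (p : ℝ) ^ (-(5 / 4 : ℝ)) = (p : ℝ) ^ (1 / 4 : ℝ) * (p : ℝ) ^ (-(3 / 2 : ℝ)) := by
    rw [← Real.rpow_add hp0]
    norm_num
  rw [Nat.cast_pow, Real.log_pow, div_eq_mul_inv]
  calc (k : ℝ) * Real.log p * ((p : ℝ) ^ j)⁻¹
      ≤ (k : ℝ) * (4 * (p : ℝ) ^ (1 / 4 : ℝ)) * ((p : ℝ) ^ (-(3 / 2 : ℝ)) * ρ ^ k) :=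
        mul_le_mul (mul_le_mul_of_nonneg_left h1 (Nat.cast_nonneg k)) h2 (by positivity)
          (by positivity)
    _ = _ := by
        simp only [h3]
        ring

theorem cheb_image {S : Finset ℕ} (hS : ∀ q ∈ S, IsPrimePow q) (H : ℕ × ℕ → ℝ) :
    ∑ q ∈ S, H (q.minFac, chebE q) = ∑ x ∈ S.image (fun q => (q.minFac, chebE q)), H x := by
  rw [Finset.sum_image]
  intro q hq q' hq' h
  simp only [Prod.mk.injEq] at h
  rw [← (cheb_pp (hS q hq)).2.2, ← (cheb_pp (hS q' hq')).2.2, h.1, h.2]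

/-- The contribution of the large exponents. -/
theorem cheb_tail {n : ℕ} (hn : 1 ≤ n) : ∃ G : ℕ → ℝ, (∀ q, 0 ≤ G q) ∧
    (∀ (B : ℝ) (r : ℕ → ℝ), Adm n B r → ∀ q, IsPrimePow q → n < chebE q →
      r q * Real.log q ≤ B * q * G q) ∧
    (∃ C : ℝ, 0 ≤ C ∧ ∀ S : Finset ℕ, (∀ q ∈ S, IsPrimePow q) → ∑ q ∈ S, G q ≤ C) ∧
    ∀ ε > 0, ∃ N : ℕ, ∀ S : Finset ℕ, (∀ q ∈ S, IsPrimePow q ∧ N < q) → ∑ q ∈ S, G q ≤ ε := by
  obtain ⟨H, hs, h0, hH⟩ := cheb_maj hn
  refine ⟨fun q => H (q.minFac, chebE q), fun q => h0 _, ?_, ⟨∑' x, H x, tsum_nonneg h0, ?_⟩, ?_⟩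
  · intro B r h q hq hk
    obtain ⟨hp, h1, he⟩ := cheb_pp hq
    have a1 := h.pp _ _ hp h1
    have a2 := hH _ _ hp hk
    rw [← Nat.cast_pow, he] at a1
    rw [he] at a2
    have hB := cheb_B h
    calc r q * Real.log q
        ≤ B * q / (q.minFac : ℝ) ^ ((chebE q + n - 1) / n) * Real.log q :=
          mul_le_mul_of_nonneg_right a1 (Real.log_natCast_nonneg q)
      _ = B * q * (Real.log q / (q.minFac : ℝ) ^ ((chebE q + n - 1) / n)) := by ring
      _ ≤ _ := mul_le_mul_of_nonneg_left a2 (by positivity)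
  · intro S hS
    rw [cheb_image hS]
    exact hs.sum_le_tsum _ fun x _ => h0 x
  · intro ε hε
    obtain ⟨s, hv⟩ := hs.vanishing (Iio_mem_nhds hε)
    refine ⟨s.sup fun x => x.1 ^ x.2, fun S hS => ?_⟩
    rw [cheb_image fun q hq => (hS q hq).1]
    refine le_of_lt (hv _ ?_)
    rw [Finset.disjoint_left]
    intro x hx hxs
    obtain ⟨q, hq, rfl⟩ := Finset.mem_image.mp hx
    have a1 := Finset.le_sup (f := fun x : ℕ × ℕ => x.1 ^ x.2) hxs
    simp only [(cheb_pp (hS q hq).1).2.2] at a1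
    exact absurd (hS q hq).2 (not_lt.mpr a1)

/-- The bound for small exponents. -/
theorem cheb_small {n : ℕ} {B : ℝ} {r : ℕ → ℝ} (h : Adm n B r) {p k : ℕ} (hp : p.Prime)
    (h1 : 1 ≤ k) (hk : k ≤ n) :
    r (p ^ k) * Real.log ((p ^ k : ℕ) : ℝ) ≤ B * n * ((p : ℝ) ^ k / p) * Real.log p := by
  have a1 := h.pp p k hp h1
  have a2 : (k + n - 1) / n = 1 := by
    apply Nat.div_eq_of_lt_le <;> omega
  rw [a2, pow_one] at a1
  have hB := cheb_B h
  have hl := Real.log_natCast_nonneg p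
  have hk' : (k : ℝ) ≤ n := by exact_mod_cast hk
  rw [Nat.cast_pow, Real.log_pow]
  calc r (p ^ k) * (k * Real.log p) ≤ B * (p : ℝ) ^ k / p * (n * Real.log p) :=
        mul_le_mul a1 (mul_le_mul_of_nonneg_right hk' hl) (by positivity) (by positivity)
    _ = _ := by ring

theorem cheb_sqrt (N : ℕ) :
    ∑ p ∈ (Finset.Ioc 0 N).filter Nat.Prime, Real.log p / √p ≤ 4 * Real.log 4 * √N := by
  induction N using Nat.strong_induction_on with
  | _ N ih =>
    rcases Nat.eq_zero_or_pos N with rfl | hN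
    · simp
    have hl : 0 < Real.log 4 := Real.log_pos (by norm_num)
    have hN' : (0 : ℝ) < N := by exact_mod_cast hN
    have hs : 0 < √(N : ℝ) := Real.sqrt_pos.mpr hN'
    have h1 := ih (N / 4) (by omega)
    have h2 : √((N / 4 : ℕ) : ℝ) ≤ √N / 2 := by
      rw [Real.sqrt_le_left (by positivity), div_pow, Real.sq_sqrt hN'.le]
      have := Nat.cast_div_le (α := ℝ) (m := N) (n := 4)
      norm_num at this ⊢
      exact this
    rw [← Finset.sum_filter_add_sum_filter_not _ (fun p => p ≤ N / 4)]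
    have e : ((Finset.Ioc 0 N).filter Nat.Prime).filter (fun p => p ≤ N / 4) =
        (Finset.Ioc 0 (N / 4)).filter Nat.Prime := by
      ext p
      simp only [Finset.mem_filter, Finset.mem_Ioc]
      constructor
      · rintro ⟨⟨⟨a, -⟩, b⟩, c⟩
        exact ⟨⟨a, c⟩, b⟩
      · rintro ⟨⟨a, c⟩, b⟩
        exact ⟨⟨⟨a, by omega⟩, b⟩, c⟩
    rw [e]
    have h3 : ∑ p ∈ ((Finset.Ioc 0 N).filter Nat.Prime).filter (fun p => ¬ p ≤ N / 4),
        Real.log p / √p ≤ 2 / √N * Chebyshev.theta N := by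
      unfold Chebyshev.theta
      rw [Nat.floor_natCast, Finset.mul_sum]
      refine (Finset.sum_le_sum fun p hp => ?_).trans
        (Finset.sum_le_sum_of_subset_of_nonneg (Finset.filter_subset _ _) fun p _ _ =>
          mul_nonneg (by positivity) (Real.log_natCast_nonneg p))
      have a1 : N < 4 * p := by
        have := (Finset.mem_filter.mp hp).2
        omega
      have a2 : (N : ℝ) ≤ 4 * p := by exact_mod_cast a1.le
      have a3 : √(N : ℝ) ≤ 2 * √p := by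
        rw [Real.sqrt_le_left (by positivity), mul_pow, Real.sq_sqrt (Nat.cast_nonneg p)]
        linarith
      have a4 : 0 < √(p : ℝ) := by linarith
      rw [div_mul_eq_mul_div, div_le_div_iff₀ a4 hs]
      have := mul_le_mul_of_nonneg_left a3 (Real.log_natCast_nonneg p)
      linarith
    have h4 := Chebyshev.theta_le_log4_mul_x hN'.le
    have h5 : 2 / √N * Chebyshev.theta N ≤ 2 * Real.log 4 * √N := by
      calc 2 / √N * Chebyshev.theta N ≤ 2 / √N * (Real.log 4 * (√N * √N)) := by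
            rw [Real.mul_self_sqrt hN'.le]
            exact mul_le_mul_of_nonneg_left h4 (by positivity)
        _ = _ := by field_simp
    have h6 := mul_le_mul_of_nonneg_left h2 (show 0 ≤ 4 * Real.log 4 by positivity)
    linarith

theorem cheb_root {z : ℝ} (hz : 1 ≤ z) {k : ℕ} (hk : 1 ≤ k) : ∃ w : ℝ, 0 < w ∧ w ^ k = z :=
  ⟨z ^ ((k : ℝ)⁻¹), by positivity, Real.rpow_inv_natCast_pow (by linarith) (by omega)⟩

theorem cheb_long {n : ℕ} (hn : 1 ≤ n) : ∃ C : ℝ, 0 < C ∧ ∀ (B : ℝ) (r : ℕ → ℝ), Adm n B r →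
    ∀ z : ℝ, 1 ≤ z → ∑ q ∈ (Finset.Icc 1 ⌊z⌋₊).filter IsPrimePow, r q * Real.log q / √q ≤
      C * B * √z := by
  obtain ⟨G, hG0, hG, ⟨C, hC0, hC⟩, -⟩ := cheb_tail hn
  have hl : 0 < Real.log 4 := Real.log_pos (by norm_num)
  have hn' : (0 : ℝ) < n := by exact_mod_cast hn
  refine ⟨n * (n * (4 * Real.log 4)) + C, by positivity, fun B r h z hz => ?_⟩
  have hB := cheb_B h
  have hz0 : 0 ≤ z := by linarith
  have hS : ∀ q ∈ (Finset.Icc 1 ⌊z⌋₊).filter IsPrimePow, IsPrimePow q := fun q hq =>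
    (Finset.mem_filter.mp hq).2
  have hle : ∀ q ∈ (Finset.Icc 1 ⌊z⌋₊).filter IsPrimePow, (q : ℝ) ≤ z := fun q hq =>
    (Nat.le_floor_iff hz0).mp (Finset.mem_Icc.mp (Finset.mem_filter.mp hq).1).2
  refine (cheb_fiber (n := n) hS (fun q => r q * Real.log q / √q)
    (M := B * n * √z * (4 * Real.log 4)) (T := B * √z * C) ?_ ?_).trans (le_of_eq (by ring))
  · intro k h1 hk P hP
    obtain ⟨w, hw0, hw⟩ := cheb_root hz h1
    have hpw : ∀ p ∈ P, (p : ℝ) ≤ w := fun p hp => by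
      have a1 := hle _ (hP p hp).2
      rw [Nat.cast_pow, ← hw] at a1
      exact le_of_pow_le_pow_left₀ (by omega) hw0.le a1
    have hsw : 0 < √w := Real.sqrt_pos.mpr hw0
    have b1 : ∑ p ∈ P, Real.log p / √p ≤ 4 * Real.log 4 * √w := by
      refine (Finset.sum_le_sum_of_subset_of_nonneg (fun p hp => ?_) fun p _ _ =>
        div_nonneg (Real.log_natCast_nonneg p) (Real.sqrt_nonneg _)).trans
          ((cheb_sqrt ⌊w⌋₊).trans ?_)
      · exact Finset.mem_filter.mpr ⟨Finset.mem_Ioc.mpr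
          ⟨(hP p hp).1.pos, Nat.le_floor (hpw p hp)⟩, (hP p hp).1⟩
      · exact mul_le_mul_of_nonneg_left (Real.sqrt_le_sqrt (Nat.floor_le hw0.le)) (by positivity)
    calc ∑ p ∈ P, r (p ^ k) * Real.log ((p ^ k : ℕ) : ℝ) / √((p ^ k : ℕ) : ℝ)
        ≤ ∑ p ∈ P, B * n * (√z / √w) * (Real.log p / √p) := by
          refine Finset.sum_le_sum fun p hp => ?_
          have hp0 : (0 : ℝ) < p := by exact_mod_cast (hP p hp).1.pos
          have a1 := cheb_small h (hP p hp).1 h1 hk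
          have a2 : 0 < √((p : ℝ) ^ k) := Real.sqrt_pos.mpr (by positivity)
          have a3 : 0 < √(p : ℝ) := Real.sqrt_pos.mpr hp0
          have a4 : √((p : ℝ) ^ k) * √w ≤ √z * √p := by
            rw [← Real.sqrt_mul (by positivity), ← Real.sqrt_mul hz0]
            refine Real.sqrt_le_sqrt ?_
            obtain ⟨j, rfl⟩ : ∃ j, k = j + 1 := ⟨k - 1, by omega⟩
            have := mul_le_mul_of_nonneg_right (pow_le_pow_left₀ hp0.le (hpw p hp) j)
              (mul_pos hp0 hw0).le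
            rw [← hw, pow_succ, pow_succ]
            linarith
          have a5 : (p : ℝ) ^ k / p / √((p : ℝ) ^ k) ≤ √z / √w / √p := by
            have e1 : (p : ℝ) ^ k / p / √((p : ℝ) ^ k) = √((p : ℝ) ^ k) / (√p * √p) := by
              rw [Real.mul_self_sqrt hp0.le, div_right_comm, Real.div_sqrt]
            rw [e1, div_div, div_le_div_iff₀ (by positivity) (by positivity)]
            have := mul_le_mul_of_nonneg_right a4 a3.le
            linarith
          have a6 := mul_le_mul_of_nonneg_left a5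
            (show 0 ≤ B * n * Real.log p from mul_nonneg (by positivity) (Real.log_natCast_nonneg p))
          calc r (p ^ k) * Real.log ((p ^ k : ℕ) : ℝ) / √((p ^ k : ℕ) : ℝ)
              ≤ B * n * ((p : ℝ) ^ k / p) * Real.log p / √((p ^ k : ℕ) : ℝ) :=
                div_le_div_of_nonneg_right a1 (Real.sqrt_nonneg _)
            _ = B * n * Real.log p * ((p : ℝ) ^ k / p / √((p : ℝ) ^ k)) := by
                rw [Nat.cast_pow]
                ring
            _ ≤ _ := a6.trans (le_of_eq (by ring))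
      _ = B * n * (√z / √w) * ∑ p ∈ P, Real.log p / √p := by rw [Finset.mul_sum]
      _ ≤ B * n * (√z / √w) * (4 * Real.log 4 * √w) :=
          mul_le_mul_of_nonneg_left b1 (by positivity)
      _ = _ := by field_simp
  · have b1 := hC (((Finset.Icc 1 ⌊z⌋₊).filter IsPrimePow).filter (fun q => n < chebE q))
      fun q hq => hS q (Finset.mem_filter.mp hq).1
    refine le_trans ?_ (mul_le_mul_of_nonneg_left b1 (by positivity))
    rw [Finset.mul_sum]
    refine Finset.sum_le_sum fun q hq => ?_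
    rw [Finset.mem_filter] at hq
    calc r q * Real.log q / √q ≤ B * q * G q / √q :=
          div_le_div_of_nonneg_right (hG B r h q (hS q hq.1) hq.2) (Real.sqrt_nonneg _)
      _ = B * G q * (q / √q) := by ring
      _ ≤ B * G q * √z := by
          rw [Real.div_sqrt]
          exact mul_le_mul_of_nonneg_left (Real.sqrt_le_sqrt (hle q hq.1))
            (mul_nonneg hB (hG0 q))
      _ = _ := by ring

theorem cheb_theta {η : ℝ} (h0 : 0 < η) (h1 : η ≤ 1) : ∃ W : ℝ, 1 ≤ W ∧ ∀ w : ℝ, W ≤ w →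
    ∀ P : Finset ℕ, (∀ p ∈ P, p.Prime ∧ w < p ∧ (p : ℝ) ≤ (1 + η) * w) →
      ∑ p ∈ P, Real.log p ≤ 2 * η * w := by
  obtain ⟨W, hW⟩ := eventually_atTop.mp (Metric.tendsto_nhds.mp Vale.Agent.Lib.PNT.theta_asymp
    (η / 4) (by positivity))
  refine ⟨max W 1, le_max_right _ _, fun w hw P hP => ?_⟩
  have hw1 : 1 ≤ w := (le_max_right _ _).trans hw
  have hwW : W ≤ w := (le_max_left _ _).trans hw
  have hw0 : 0 < w := by linarith
  have hw2 : w ≤ (1 + η) * w := by nlinarith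
  have a1 := abs_lt.mp (show |Chebyshev.theta w / w - 1| < η / 4 from hW w hwW)
  have a2 := abs_lt.mp (show |Chebyshev.theta ((1 + η) * w) / ((1 + η) * w) - 1| < η / 4 from
    hW _ (hwW.trans hw2))
  have a3 : (1 - η / 4) * w ≤ Chebyshev.theta w := by
    rw [← le_div_iff₀ hw0]
    linarith [a1.1]
  have a4 : Chebyshev.theta ((1 + η) * w) ≤ (1 + η / 4) * ((1 + η) * w) := by
    rw [← div_le_iff₀ (by positivity)]
    linarith [a2.2]
  have a5 : ∑ p ∈ P, Real.log p + Chebyshev.theta w ≤ Chebyshev.theta ((1 + η) * w) := by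
    unfold Chebyshev.theta
    rw [← Finset.sum_union]
    · refine Finset.sum_le_sum_of_subset_of_nonneg (fun p hp => ?_) fun p _ _ =>
        Real.log_natCast_nonneg p
      rcases Finset.mem_union.mp hp with hp | hp
      · exact Finset.mem_filter.mpr ⟨Finset.mem_Ioc.mpr
          ⟨(hP p hp).1.pos, Nat.le_floor (hP p hp).2.2⟩, (hP p hp).1⟩
      · rw [Finset.mem_filter, Finset.mem_Ioc] at hp ⊢
        exact ⟨⟨hp.1.1, hp.1.2.trans (Nat.floor_le_floor hw2)⟩, hp.2⟩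
    · rw [Finset.disjoint_left]
      intro p hp hp'
      have b1 := (Nat.le_floor_iff hw0.le).mp (Finset.mem_Ioc.mp (Finset.mem_filter.mp hp').1).2
      linarith [(hP p hp).2.1]
  have a6 : η * η * w ≤ η * w := mul_le_mul_of_nonneg_right (by nlinarith) hw0.le
  have a7 : 0 ≤ η * w := by positivity
  nlinarith

theorem cheb_short {n : ℕ} (hn : 1 ≤ n) : ∃ C : ℝ, 0 < C ∧ ∀ η : ℝ, 0 < η → η ≤ 1 →
    ∃ z₀ : ℝ, ∀ (B : ℝ) (r : ℕ → ℝ), Adm n B r → ∀ z : ℝ, z₀ ≤ z →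
      ∑ q ∈ (Finset.Ioc ⌊z⌋₊ ⌊(1 + η) * z⌋₊).filter IsPrimePow, r q * Real.log q ≤
        C * B * η * z := by
  obtain ⟨G, hG0, hG, -, hT⟩ := cheb_tail hn
  refine ⟨n * (n * 4) + 2, by positivity, fun η h0 h1 => ?_⟩
  obtain ⟨N, hN⟩ := hT η h0
  obtain ⟨W, hW1, hW⟩ := cheb_theta h0 h1
  refine ⟨max (W ^ n) N, fun B r h z hz => ?_⟩
  have hB := cheb_B h
  have hzW : W ^ n ≤ z := (le_max_left _ _).trans hz
  have hzN : (N : ℝ) ≤ z := (le_max_right _ _).trans hz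
  have hz1 : 1 ≤ z := (one_le_pow₀ hW1).trans hzW
  have hz0 : 0 ≤ z := by linarith
  have hS : ∀ q ∈ (Finset.Ioc ⌊z⌋₊ ⌊(1 + η) * z⌋₊).filter IsPrimePow, IsPrimePow q := fun q hq =>
    (Finset.mem_filter.mp hq).2
  have hle : ∀ q ∈ (Finset.Ioc ⌊z⌋₊ ⌊(1 + η) * z⌋₊).filter IsPrimePow,
      z < q ∧ (q : ℝ) ≤ (1 + η) * z := fun q hq => by
    have a1 := Finset.mem_Ioc.mp (Finset.mem_filter.mp hq).1
    exact ⟨(Nat.floor_lt hz0).mp a1.1, (Nat.le_floor_iff (by positivity)).mp a1.2⟩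
  have h2 : (1 + η) * z ≤ 2 * z := mul_le_mul_of_nonneg_right (by linarith) hz0
  refine (cheb_fiber (n := n) hS (fun q => r q * Real.log q)
    (M := B * n * 4 * η * z) (T := B * (2 * z) * η) ?_ ?_).trans (le_of_eq (by ring))
  · intro k hk1 hk P hP
    obtain ⟨w, hw0, hw⟩ := cheb_root hz1 hk1
    have hWw : W ≤ w := by
      refine le_of_pow_le_pow_left₀ (show k ≠ 0 by omega) hw0.le ?_
      rw [hw]
      exact (pow_le_pow_right₀ hW1 hk).trans hzW
    have hpw : ∀ p ∈ P, p.Prime ∧ w < p ∧ (p : ℝ) ≤ (1 + η) * w := fun p hp => by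
      have a1 := hle _ (hP p hp).2
      rw [Nat.cast_pow, ← hw] at a1
      refine ⟨(hP p hp).1, lt_of_pow_lt_pow_left₀ k (Nat.cast_nonneg p) a1.1, ?_⟩
      refine le_of_pow_le_pow_left₀ (show k ≠ 0 by omega) (by positivity) (a1.2.trans ?_)
      rw [mul_pow]
      exact mul_le_mul_of_nonneg_right (le_self_pow₀ (by linarith) (by omega)) (by positivity)
    have b1 := hW w hWw P hpw
    calc ∑ p ∈ P, r (p ^ k) * Real.log ((p ^ k : ℕ) : ℝ)
        ≤ ∑ p ∈ P, B * n * (2 * z / w) * Real.log p := by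
          refine Finset.sum_le_sum fun p hp => (cheb_small h (hP p hp).1 hk1 hk).trans ?_
          have a1 := (hle _ (hP p hp).2).2
          rw [Nat.cast_pow] at a1
          refine mul_le_mul_of_nonneg_right (mul_le_mul_of_nonneg_left ?_ (by positivity))
            (Real.log_natCast_nonneg p)
          exact div_le_div₀ (by positivity) (a1.trans h2) hw0 (hpw p hp).2.1.le
      _ = B * n * (2 * z / w) * ∑ p ∈ P, Real.log p := by rw [Finset.mul_sum]
      _ ≤ B * n * (2 * z / w) * (2 * η * w) := mul_le_mul_of_nonneg_left b1 (by positivity)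
      _ = _ := by
          field_simp
          norm_num
  · have b1 := hN (((Finset.Ioc ⌊z⌋₊ ⌊(1 + η) * z⌋₊).filter IsPrimePow).filter
      (fun q => n < chebE q)) fun q hq => by
        have a1 := (Finset.mem_filter.mp hq).1
        exact ⟨hS q a1, by exact_mod_cast hzN.trans_lt (hle q a1).1⟩
    refine le_trans ?_ (mul_le_mul_of_nonneg_left b1 (by positivity))
    rw [Finset.mul_sum]
    refine Finset.sum_le_sum fun q hq => ?_
    rw [Finset.mem_filter] at hq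
    exact (hG B r h q (hS q hq.1) hq.2).trans (mul_le_mul_of_nonneg_right
      (mul_le_mul_of_nonneg_left ((hle q hq.1).2.trans h2) hB) (hG0 q))

end Vale.Agent.P007A
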