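import Vale.Agent.P007.Main

/-! Siegel transforms, invertible ideals of an order and the arithmetic functions attached. -/

namespace Vale.Agent.P007A

open Vale.Agent.P007 Matrix MeasureTheory Filter Topology NumberField
open scoped ENNReal nonZeroDivisors Classical

noncomputable section

section Geo

variable {n m : ℕ}

/-- The Siegel transform: the sum of `f` over the nonzero vectors of the lattice. -/
def sg (f : (Fin n → ℝ) → ℝ≥0∞) (x : X n) : ℝ≥0∞ := ∑' v : (lat x \ {0} : Set (Fin n → ℝ)), f v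

/-- The number of nonzero lattice vectors in `B`. -/
def cnt (B : Set (Fin n → ℝ)) (x : X n) : ℝ≥0∞ := sg (B.indicator 1) x

/-- The integral span of the rows of a matrix. -/
def rows (B : Matrix (Fin n) (Fin n) ℝ) : Set (Fin n → ℝ) :=
  {v | ∃ k : Fin n → ℤ, v = (fun i => (k i : ℝ)) ᵥ* B}

/-- The diagonal entries of `tor u`. -/
def ex (u : Fin m → ℝ) : Fin (m + 1) → ℝ :=
  fun j => Real.exp (Fin.snoc (α := fun _ => ℝ) u (-∑ i, u i) j)

/-- The point with signs `s`, absolute product of coordinates `t` and torus coordinate `u`. -/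
def pt (s : Fin (m + 1) → ℤˣ) (t : ℝ) (u : Fin m → ℝ) : Fin (m + 1) → ℝ :=
  fun j => ((s j : ℤ) : ℝ) * t ^ (((m : ℝ) + 1)⁻¹) * ex u j

/-- The integral of `f` over the hypersurface where the absolute product of coordinates is `t`. -/
def Phi (f : (Fin (m + 1) → ℝ) → ℝ≥0∞) (t : ℝ) : ℝ≥0∞ :=
  ∑ s : Fin (m + 1) → ℤˣ, ∫⁻ u : Fin m → ℝ, f (pt s t u)

/-- Multiplicative boxes. -/
def lbox (a : Fin n → ℝ) (ρ : ℝ) : Set (Fin n → ℝ) :=
  {v | ∀ j, a j * Real.exp (-ρ) < |v j| ∧ |v j| < a j * Real.exp ρ}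

/-- Bounded vectors with small product of coordinates. -/
def slab (T ε : ℝ) : Set (Fin n → ℝ) := {v | (∀ j, |v j| < T) ∧ ∏ j, |v j| < ε}

/-- Invariance under the diagonal group. -/
def AInv (μ : Measure (X (m + 1))) : Prop := ∀ u : Fin m → ℝ, μ.map (act (tor u)) = μ

/-- The mean number of nonzero lattice vectors in a set is bounded by `C` times its volume. -/
def SiegelBd (C : ℝ) (μ : Measure (X n)) : Prop :=
  ∀ B : Set (Fin n → ℝ), MeasurableSet B → ∫⁻ x, cnt B x ∂μ ≤ ENNReal.ofReal C * volume B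

end Geo

section Ord

variable {K : Type} [Field K] [NumberField K] {n m : ℕ}

/-- The invertible integral ideals of an order. -/
def Inv (o : Order K n) : Set (Ideal o.O) :=
  {I | ∃ J : FractionalIdeal o.O⁰ K, (I : FractionalIdeal o.O⁰ K) * J = 1}

/-- The index of an ideal. -/
def idx {o : Order K n} (I : Ideal o.O) : ℕ := Nat.card (o.O ⧸ I)

/-- The number of invertible ideals of index `k`. -/
def rO (o : Order K n) (k : ℕ) : ℕ := {I | I ∈ Inv o ∧ idx I = k}.ncard

/-- The square root of the absolute discriminant. -/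
def rtD (o : Order K n) : ℝ := √|(o.disc : ℝ)|

/-- The inverse of an ideal as a subset of the field. -/
def dualI {o : Order K n} (I : Ideal o.O) : Set K := {α | ∀ β ∈ I, α * (β : K) ∈ o.O}

/-- The embedded inverse ideal, scaled coordinatewise by `w`. -/
def latOf {o : Order K n} (σ : Fin n ≃ (K →+* ℝ)) (w : Fin n → ℝ) (I : Ideal o.O) :
    Set (Fin n → ℝ) :=
  {v | ∃ α ∈ dualI I, v = fun j => w j * σ j α}

/-- The unfolding identity with total volume `V`. -/
def Unf (o : Order K (m + 1)) (μ : Measure (X (m + 1))) (V : ℝ) : Prop :=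
  0 < V ∧ ∀ f : (Fin (m + 1) → ℝ) → ℝ≥0∞, Measurable f →
    ENNReal.ofReal V * ∫⁻ x, sg f x ∂μ = ∑' k : ℕ, (rO o k : ℝ≥0∞) * Phi f (k / rtD o)

end Ord

section Arith

/-- The number of prime ideals of norm `p`, for prime `p`. -/
def aF (F : Type) [Field F] (p : ℕ) : ℕ := Nat.card (𝓞 F →+* ZMod p)

/-- The Gaussian weight on the multiplicative group. -/
def gw (y : ℝ) : ℝ := Real.exp (-Real.log y ^ 2)

/-- A smoothed sum over the rational primes. -/
def psm (a : ℕ → ℝ) (z : ℝ) : ℝ := ∑' p : ℕ, if p.Prime then a p * Real.log p * gw (p / z) else 0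

/-- The total mass of the weight. -/
def c1 : ℝ := √Real.pi * Real.exp (1 / 4)

/-- Multiplicative functions that grow like the ideal counting function of an order. -/
structure Adm (n : ℕ) (B : ℝ) (r : ℕ → ℝ) : Prop where
  nonneg : ∀ k, 0 ≤ r k
  one : r 1 = 1
  mul : ∀ a b : ℕ, a.Coprime b → r (a * b) = r a * r b
  pp : ∀ p k : ℕ, p.Prime → 1 ≤ k → r (p ^ k) ≤ B * (p : ℝ) ^ k / (p : ℝ) ^ ((k + n - 1) / n)

/-- The logarithmic mean. -/
def lm (r : ℕ → ℝ) (y : ℝ) : ℝ := ∑ k ∈ Finset.Icc 1 ⌊y⌋₊, r k / k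

end Arith

end

end Vale.Agent.P007A
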