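import Vale.Agent.P007A.Lat

/-! Mahler's compactness criterion. -/

namespace Vale.Agent.P007A

open Vale.Agent.P007 Matrix MeasureTheory Filter Topology NumberField
open scoped ENNReal nonZeroDivisors Classical

variable {n m : ℕ}

theorem minkowski_box (x : X (m + 1)) {a : Fin (m + 1) → ℝ} (ha : ∀ j, 0 < a j)
    (h1 : 1 ≤ ∏ j, a j) : ∃ v ∈ lat x, v ≠ 0 ∧ ∀ j, |v j| ≤ a j := by
  obtain ⟨g, rfl⟩ := mk_open.surjective x
  have hli : LinearIndependent ℝ fun i => g.1 i :=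
    Matrix.linearIndependent_rows_of_det_ne_zero (by rw [g.2]; exact one_ne_zero)
  let b := basisOfPiSpaceOfLinearIndependent hli
  have hb : (b : Fin (m + 1) → Fin (m + 1) → ℝ) = fun i => g.1 i :=
    coe_basisOfPiSpaceOfLinearIndependent hli
  have hF := ZSpan.isAddFundamentalDomain' b (volume : Measure (Fin (m + 1) → ℝ))
  have hV : volume (ZSpan.fundamentalDomain b) = 1 := by
    rw [ZSpan.volume_fundamentalDomain, hb]
    have : (Matrix.of fun i => g.1 i) = g.1 := rfl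
    rw [this, g.2]
    simp
  have : Countable (Submodule.span ℤ (Set.range b)).toAddSubgroup :=
    inferInstanceAs (Countable (Submodule.span ℤ (Set.range b)))
  have : DiscreteTopology (Submodule.span ℤ (Set.range b)).toAddSubgroup :=
    inferInstanceAs (DiscreteTopology (Submodule.span ℤ (Set.range b)))
  obtain ⟨v, hv0, hv⟩ := exists_ne_zero_mem_lattice_of_measure_mul_two_pow_le_measure
    (s := Set.pi Set.univ fun j => Set.Icc (-a j) (a j)) hF
    (fun v hv j _ => by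
      have := hv j (Set.mem_univ j)
      exact ⟨by simpa using this.2, by simpa [neg_le] using this.1⟩)
    (convex_pi fun j _ => convex_Icc _ _) (isCompact_univ_pi fun j => isCompact_Icc) (by
      rw [hV, one_mul, volume_pi_pi]
      simp only [Real.volume_Icc, Module.finrank_pi, Fintype.card_fin]
      rw [← ENNReal.ofReal_prod_of_nonneg fun j _ => by linarith [ha j]]
      have e : ∏ j, (a j - -a j) = 2 ^ (m + 1) * ∏ j, a j := by
        have : ∀ j, a j - -a j = 2 * a j := fun j => by ring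
        simp only [this]
        rw [Finset.prod_mul_distrib]
        simp
      rw [e]
      have e2 : (2 : ℝ≥0∞) ^ (m + 1) = ENNReal.ofReal (2 ^ (m + 1)) := by
        rw [ENNReal.ofReal_pow (by norm_num)]
        simp
      rw [e2]
      exact ENNReal.ofReal_le_ofReal (le_mul_of_one_le_right (by positivity) h1))
  refine ⟨v, ?_, fun h => hv0 (Subtype.ext h), fun j => abs_le.2 (hv j (Set.mem_univ j))⟩
  obtain ⟨c, hc⟩ := (Submodule.mem_span_range_iff_exists_fun ℤ).1 v.2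
  refine mem_lat.2 ⟨c, ?_⟩
  rw [← hc, hb]
  funext j
  simp [vecMul, dotProduct, Finset.sum_apply]

theorem mah_step {ε : ℝ} (hε : 0 < ε) (x : X (m + 1))
    (hx : ∀ v ∈ lat x, v ≠ 0 → ε ≤ ‖v‖) (W : Submodule ℝ (Fin (m + 1) → ℝ)) (hW : W < ⊤) :
    ∃ w ∈ lat x, w ∉ W ∧
      ∀ j, |w j| ≤ max (ε / (2 * (m + 1))) ((ε / (2 * (m + 1)))⁻¹ ^ m) := by
  set δ : ℝ := ε / (2 * (m + 1)) with hδ
  have hδ0 : 0 < δ := by positivity
  obtain ⟨φ, hφ0, hφ⟩ := W.exists_le_ker_of_lt_top hW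
  let c : Fin (m + 1) → ℝ := fun i => φ fun j => if i = j then 1 else 0
  have hc : ∀ w, φ w = ∑ i, w i * c i := fun w => by
    rw [LinearMap.pi_apply_eq_sum_univ]
    rfl
  obtain ⟨j0, -, hj0⟩ := Finset.exists_max_image Finset.univ (fun i => |c i|) Finset.univ_nonempty
  have hc0 : 0 < |c j0| := by
    refine lt_of_not_ge fun h => hφ0 (LinearMap.ext fun w => ?_)
    rw [hc]
    refine Finset.sum_eq_zero fun i _ => ?_
    rw [abs_nonpos_iff.1 ((hj0 i (Finset.mem_univ i)).trans h), mul_zero]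
  obtain ⟨w, hw, hw0, hwa⟩ := minkowski_box x (a := Function.update (fun _ => δ) j0 (δ⁻¹ ^ m))
    (fun j => by
      by_cases h : j = j0
      · subst h
        rw [Function.update_self]
        positivity
      · rwa [Function.update_of_ne h])
    (by
      rw [Finset.prod_update_of_mem (Finset.mem_univ _), Finset.prod_const,
        Finset.card_sdiff_of_subset (Finset.subset_univ _)]
      simp [hδ0.ne'])
  have h1 : ∀ j, j ≠ j0 → |w j| ≤ δ := fun j h => by
    have := hwa j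
    rwa [Function.update_of_ne h] at this
  refine ⟨w, hw, fun hWw => ?_, fun j => ?_⟩
  · have h2 : ∑ i, w i * c i = 0 := (hc w).symm.trans (hφ hWw)
    rw [Fin.sum_univ_succAbove _ j0] at h2
    have h3 : |w j0| * |c j0| ≤ m * δ * |c j0| := by
      rw [← abs_mul, eq_neg_of_add_eq_zero_left h2, abs_neg]
      refine (Finset.abs_sum_le_sum_abs _ _).trans ?_
      refine (Finset.sum_le_card_nsmul _ _ (δ * |c j0|) fun i _ => ?_).trans (by simp [mul_assoc])
      rw [abs_mul]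
      exact mul_le_mul (h1 _ (Fin.succAbove_ne j0 i)) (hj0 _ (Finset.mem_univ _)) (abs_nonneg _)
        hδ0.le
    have h4 : |w j0| ≤ m * δ := le_of_mul_le_mul_right h3 hc0
    have h5 : ‖w‖ ≤ (m + 1) * δ := by
      refine (pi_norm_le_iff_of_nonneg (by positivity)).2 fun j => ?_
      have hm : (0 : ℝ) ≤ m * δ := by positivity
      by_cases h : j = j0
      · rw [h, Real.norm_eq_abs]
        linarith
      · rw [Real.norm_eq_abs]
        linarith [h1 j h]
    have h6 : ((m : ℝ) + 1) * δ = ε / 2 := by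
      rw [hδ]
      field_simp
    linarith [hx w hw hw0]
  · by_cases h : j = j0
    · have := hwa j0
      rw [Function.update_self] at this
      rw [h]
      exact this.trans (le_max_right _ _)
    · exact (h1 j h).trans (le_max_left _ _)

theorem mah_indep {ε : ℝ} (hε : 0 < ε) (x : X (m + 1))
    (hx : ∀ v ∈ lat x, v ≠ 0 → ε ≤ ‖v‖) (k : ℕ) (hk : k ≤ m + 1) :
    ∃ v : Fin k → Fin (m + 1) → ℝ, LinearIndependent ℝ v ∧ (∀ i, v i ∈ lat x) ∧
      ∀ i j, |v i j| ≤ max (ε / (2 * (m + 1))) ((ε / (2 * (m + 1)))⁻¹ ^ m) := by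
  induction k with
  | zero => exact ⟨fun i => i.elim0, linearIndependent_empty_type, fun i => i.elim0, fun i => i.elim0⟩
  | succ k ih =>
    obtain ⟨v, h1, h2, h3⟩ := ih (by omega)
    have hW : Submodule.span ℝ (Set.range v) < ⊤ := by
      refine Submodule.lt_top_of_finrank_lt_finrank ?_
      have := finrank_range_le_card (R := ℝ) v
      simp only [Fintype.card_fin, Set.finrank] at this
      simp only [Module.finrank_pi, Fintype.card_fin]
      omega
    obtain ⟨w, hw, hwW, hwb⟩ := mah_step hε x hx _ hW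
    refine ⟨Fin.cons w v, h1.finCons hwW, fun i => ?_, fun i => ?_⟩
    · refine Fin.cases ?_ (fun i => ?_) i
      · exact hw
      · exact h2 i
    · refine Fin.cases ?_ (fun i => ?_) i
      · exact hwb
      · exact h3 i

theorem mah_mul_of_rows {A B : Matrix (Fin n) (Fin n) ℤ} {D : ℤ} (hD : 0 < D)
    (hA : ∃ M : Matrix (Fin n) (Fin n) ℤ, M * A = D • 1)
    (hB : ∃ M : Matrix (Fin n) (Fin n) ℤ, M * B = D • 1)
    (h : ∀ k : Fin n → ℤ, (∀ i, k i ∈ Set.Ico 0 D) → (∃ l, k = l ᵥ* B) → ∃ l, k = l ᵥ* A) :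
    ∃ P : Matrix (Fin n) (Fin n) ℤ, B = P * A := by
  obtain ⟨M, hM⟩ := hA
  obtain ⟨N, hN⟩ := hB
  have h1 : ∀ i, ∃ l, B i = l ᵥ* A := fun i => by
    obtain ⟨l, hl⟩ := h (fun j => B i j % D)
      (fun j => ⟨Int.emod_nonneg _ hD.ne', Int.emod_lt_of_pos _ hD⟩)
      ⟨Pi.single i 1 - (fun j => B i j / D) ᵥ* N, by
        rw [sub_vecMul, vecMul_vecMul, hN, vecMul_smul, vecMul_one, single_one_vecMul]
        funext j
        simp [Int.emod_def, Matrix.row]⟩
    refine ⟨l + (fun j => B i j / D) ᵥ* M, ?_⟩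
    rw [add_vecMul, vecMul_vecMul, hM, vecMul_smul, vecMul_one, ← hl]
    funext j
    simp [Int.emod_def]
  choose l hl using h1
  refine ⟨Matrix.of l, ?_⟩
  ext i j
  rw [hl i]
  simp [vecMul, dotProduct, Matrix.mul_apply]

theorem mah_finite (n : ℕ) {D : ℤ} (hD : 0 < D) : ∃ R : ℝ, ∀ A : Matrix (Fin n) (Fin n) ℤ,
    (∃ M : Matrix (Fin n) (Fin n) ℤ, M * A = D • 1) →
      ∃ P Q B : Matrix (Fin n) (Fin n) ℤ, B = P * A ∧ A = Q * B ∧ ∀ i j, |(B i j : ℝ)| ≤ R := by
  let f : Matrix (Fin n) (Fin n) ℤ → Set (Fin n → ℤ) := fun A =>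
    {k | (∀ i, k i ∈ Set.Ico 0 D) ∧ ∃ l, k = l ᵥ* A}
  let S : Set (Matrix (Fin n) (Fin n) ℤ) := {A | ∃ M : Matrix (Fin n) (Fin n) ℤ, M * A = D • 1}
  have hf : (f '' S).Finite := by
    have hb : (Set.pi Set.univ fun _ : Fin n => Set.Ico 0 D).Finite :=
      Set.Finite.pi fun _ => Set.finite_Ico _ _
    refine hb.finite_subsets.subset ?_
    rintro _ ⟨A, -, rfl⟩ k hk i -
    exact hk.1 i
  obtain ⟨T, hTS, hT, hTf⟩ := hf.exists_subset_finite_image_eq (f := f) (s := S) subset_rfl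
  obtain ⟨R, hR⟩ := (hT.image fun B => ∑ i, ∑ j, |(B i j : ℝ)|).bddAbove
  refine ⟨R, fun A hA => ?_⟩
  have hA' : f A ∈ f '' T := hTf ▸ Set.mem_image_of_mem f hA
  obtain ⟨B, hB, hBA⟩ := hA'
  obtain ⟨P, hP⟩ := mah_mul_of_rows hD hA (hTS hB) fun k h1 h2 =>
    (hBA ▸ (⟨h1, h2⟩ : k ∈ f B) : k ∈ f A).2
  obtain ⟨Q, hQ⟩ := mah_mul_of_rows hD (hTS hB) hA fun k h1 h2 =>
    (hBA ▸ (⟨h1, h2⟩ : k ∈ f A) : k ∈ f B).2
  refine ⟨P, Q, B, hP, hQ, fun i j => le_trans ?_ (hR ⟨B, hB, rfl⟩)⟩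
  refine le_trans ?_ (Finset.single_le_sum (f := fun i => ∑ j, |(B i j : ℝ)|)
    (fun i _ => Finset.sum_nonneg fun j _ => abs_nonneg _) (Finset.mem_univ i))
  exact Finset.single_le_sum (f := fun j => |(B i j : ℝ)|) (fun j _ => abs_nonneg _)
    (Finset.mem_univ j)

theorem mah_sign {B : Matrix (Fin (m + 1)) (Fin (m + 1)) ℝ} {x : X (m + 1)} (h : lat x = rows B)
    {R : ℝ} (hR : ∀ i j, |B i j| ≤ R) : ∃ g : G (m + 1), mk g = x ∧ ∀ i j, |g.1 i j| ≤ R := by
  rcases (abs_eq zero_le_one).1 (abs_det_of_rows h) with h1 | h1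
  · exact ⟨⟨B, h1⟩, lat_inj ((lat_mk _).trans h.symm), hR⟩
  · let D : Matrix (Fin (m + 1)) (Fin (m + 1)) ℤ := diagonal (Function.update 1 0 (-1))
    have hD : D.det = -1 := by
      rw [det_diagonal, Finset.prod_update_of_mem (Finset.mem_univ _)]
      simp
    have hD2 : D * D = 1 := by
      rw [diagonal_mul_diagonal, ← diagonal_one]
      congr 1
      funext i
      by_cases hi : i = 0
      · simp [hi]
      · simp [Function.update_of_ne hi]
    have h2 : (D.map (Int.castRingHom ℝ) * B).det = 1 := by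
      rw [det_mul, lat_det_map, hD, h1]
      simp
    have h3 : B = D.map (Int.castRingHom ℝ) * (D.map (Int.castRingHom ℝ) * B) := by
      rw [← mul_assoc, ← Matrix.map_mul, hD2]
      simp
    refine ⟨⟨_, h2⟩, lat_inj ((lat_mk _).trans (((lat_rows_mul D B).antisymm ?_).trans h.symm)),
      fun i j => ?_⟩
    · conv_lhs => rw [h3]
      exact lat_rows_mul D _
    · change |(D.map (Int.castRingHom ℝ) * B) i j| ≤ R
      rw [diagonal_map (map_zero _), diagonal_mul, abs_mul]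
      by_cases hi : i = 0
      · simpa [hi] using hR 0 j
      · simpa [Function.update_of_ne hi] using hR i j

theorem mahler_basis (n : ℕ) {ε : ℝ} (hε : 0 < ε) : ∃ R : ℝ, ∀ x : X n,
    (∀ v ∈ lat x, v ≠ 0 → ε ≤ ‖v‖) → ∃ g : G n, mk g = x ∧ ∀ i j, |g.1 i j| ≤ R := by
  rcases n with _ | m
  · refine ⟨0, fun x _ => ?_⟩
    obtain ⟨g, rfl⟩ := mk_open.surjective x
    exact ⟨g, rfl, fun i => i.elim0⟩
  set r : ℝ := max (ε / (2 * (m + 1))) ((ε / (2 * (m + 1)))⁻¹ ^ m) with hr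
  set N : ℕ := ⌈(m + 1).factorial • r ^ (m + 1)⌉₊ with hN
  obtain ⟨R, hR⟩ := mah_finite (m + 1) (D := (N.factorial : ℤ))
    (by exact_mod_cast N.factorial_pos)
  refine ⟨(m + 1) * (R * r), fun x hx => ?_⟩
  obtain ⟨v, h1, h2, h3⟩ := mah_indep hε x hx (m + 1) le_rfl
  obtain ⟨g, rfl⟩ := mk_open.surjective x
  choose k hk using fun i => mem_lat.1 (h2 i)
  have hH : Matrix.of v = (Matrix.of k).map (Int.castRingHom ℝ) * g.1 := by
    ext i j
    rw [of_apply, hk i]
    simp [vecMul, dotProduct, Matrix.mul_apply]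
  generalize Matrix.of k = M at hH
  have hd : (Matrix.of v).det = (M.det : ℝ) := by rw [hH, det_mul, lat_det_map, g.2, mul_one]
  have hd0 : (Matrix.of v).det ≠ 0 :=
    ((Matrix.isUnit_iff_isUnit_det _).1 (Matrix.linearIndependent_rows_iff_isUnit.1 h1)).ne_zero
  have hM0 : M.det ≠ 0 := fun h => hd0 (by rw [hd, h, Int.cast_zero])
  have hd1 : |(M.det : ℝ)| ≤ N := by
    have := Matrix.det_le (A := Matrix.of v) (abv := AbsoluteValue.abs) (x := r) h3
    rw [hd, Fintype.card_fin] at this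
    exact this.trans (Nat.le_ceil _)
  have hd2 : M.det ∣ (N.factorial : ℤ) := by
    rw [← Int.natAbs_dvd, Int.natCast_dvd_natCast]
    refine Nat.dvd_factorial (Int.natAbs_pos.2 hM0) ?_
    have : |M.det| ≤ (N : ℤ) := by exact_mod_cast hd1
    rw [Int.abs_eq_natAbs] at this
    exact_mod_cast this
  obtain ⟨e, he⟩ := hd2
  obtain ⟨P, Q, B, hP, hQ, hB⟩ := hR M.adjugate
    ⟨e • M, by rw [smul_mul, mul_adjugate, smul_smul, he, mul_comm]⟩
  have hMr : (M.det : ℝ) ≠ 0 := by exact_mod_cast hM0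
  have hg : g.1 = (M.det : ℝ)⁻¹ • (M.adjugate.map (Int.castRingHom ℝ) * Matrix.of v) := by
    have e1 : (M.det • (1 : Matrix (Fin (m + 1)) (Fin (m + 1)) ℤ)).map (Int.castRingHom ℝ) =
        (M.det : ℝ) • (1 : Matrix (Fin (m + 1)) (Fin (m + 1)) ℝ) := by
      ext i j
      by_cases hij : i = j
      · rw [hij, map_apply, Matrix.smul_apply, Matrix.smul_apply, one_apply_eq, one_apply_eq]
        simp
      · rw [map_apply, Matrix.smul_apply, Matrix.smul_apply, one_apply_ne hij, one_apply_ne hij]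
        simp
    rw [hH, ← mul_assoc, ← Matrix.map_mul, adjugate_mul, e1, Matrix.smul_mul, smul_smul,
      inv_mul_cancel₀ hMr, one_smul, one_mul]
  refine mah_sign (B := (M.det : ℝ)⁻¹ • (B.map (Int.castRingHom ℝ) * Matrix.of v)) ?_ ?_
  · rw [lat_mk]
    refine Set.Subset.antisymm ?_ ?_
    · have e1 : g.1 = Q.map (Int.castRingHom ℝ) *
          ((M.det : ℝ)⁻¹ • (B.map (Int.castRingHom ℝ) * Matrix.of v)) := by
        rw [Matrix.mul_smul, ← mul_assoc, ← Matrix.map_mul, ← hQ, ← hg]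
      conv_lhs => rw [e1]
      exact lat_rows_mul _ _
    · have e1 : (M.det : ℝ)⁻¹ • (B.map (Int.castRingHom ℝ) * Matrix.of v) =
          P.map (Int.castRingHom ℝ) * g.1 := by
        rw [hg, Matrix.mul_smul, ← mul_assoc, ← Matrix.map_mul, ← hP]
      rw [e1]
      exact lat_rows_mul _ _
  · intro i j
    have h4 : |(M.det : ℝ)⁻¹| ≤ 1 := by
      rw [abs_inv]
      refine inv_le_one_of_one_le₀ ?_
      exact_mod_cast Int.one_le_abs hM0
    have h5 : |(B.map (Int.castRingHom ℝ) * Matrix.of v) i j| ≤ (m + 1) * (R * r) := by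
      rw [Matrix.mul_apply]
      refine (Finset.abs_sum_le_sum_abs _ _).trans ?_
      refine (Finset.sum_le_card_nsmul _ _ (R * r) fun l _ => ?_).trans (by simp)
      rw [abs_mul]
      exact mul_le_mul (hB i l) (h3 l j) (abs_nonneg _) ((abs_nonneg _).trans (hB i l))
    rw [Matrix.smul_apply, smul_eq_mul, abs_mul]
    exact (mul_le_of_le_one_left (abs_nonneg _) h4).trans h5

theorem isCompact_bdd (n : ℕ) (R : ℝ) : IsCompact {g : G n | ∀ i j, |g.1 i j| ≤ R} := by
  have h : IsCompact (Set.pi Set.univ fun _ : Fin n =>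
      Set.pi Set.univ fun _ : Fin n => Set.Icc (-R) R) :=
    isCompact_univ_pi fun _ => isCompact_univ_pi fun _ => isCompact_Icc
  have h2 := (Matrix.SpecialLinearGroup.isClosedEmbedding_val (n := Fin n)
    (R := ℝ)).isCompact_preimage h
  refine (congrArg IsCompact (Set.ext fun g => ?_)).mp h2
  exact ⟨fun hg i j => abs_le.2 (hg i (Set.mem_univ _) j (Set.mem_univ _)),
    fun hg i _ j _ => abs_le.1 (hg i j)⟩

theorem mahler (n : ℕ) (ε : ℝ) (hε : 0 < ε) :
    IsCompact {x : X n | ∀ v ∈ lat x, v ≠ 0 → ∃ j, ε ≤ |v j|} := by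
  obtain ⟨R, hR⟩ := mahler_basis n hε
  refine ((isCompact_bdd n R).image mk_open.continuous).of_isClosed_subset ?_ fun x hx => ?_
  · rw [← mk_open.isQuotientMap.isClosed_preimage]
    have e : (mk : G n → X n) ⁻¹' {x : X n | ∀ v ∈ lat x, v ≠ 0 → ∃ j, ε ≤ |v j|} =
        ⋂ k : Fin n → ℤ, ⋂ _ : k ≠ 0, ⋃ j,
          {g : G n | ε ≤ |((fun i => (k i : ℝ)) ᵥ* g.1) j|} := by
      ext g
      simp only [Set.mem_preimage, Set.mem_setOf_eq, Set.mem_iInter, Set.mem_iUnion]
      constructor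
      · intro h k hk
        refine h _ (mem_lat.2 ⟨k, rfl⟩) fun h0 => hk ?_
        have h2 : g.1 * (g⁻¹).1 = 1 := by
          rw [← Matrix.SpecialLinearGroup.coe_mul, mul_inv_cancel]
          rfl
        have h3 := congrArg (· ᵥ* (g⁻¹).1) h0
        simp only [vecMul_vecMul, h2, vecMul_one, zero_vecMul] at h3
        funext i
        have h4 : (k i : ℝ) = 0 := congrFun h3 i
        exact_mod_cast h4
      · intro h v hv h0
        obtain ⟨k, rfl⟩ := mem_lat.1 hv
        refine h k fun hk => h0 ?_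
        subst hk
        funext j
        simp [vecMul, dotProduct]
    rw [e]
    refine isClosed_iInter fun k => isClosed_iInter fun _ => isClosed_iUnion_of_finite fun j => ?_
    refine isClosed_le continuous_const (Continuous.abs ?_)
    exact (continuous_apply j).comp (continuous_const.matrix_vecMul
      Matrix.SpecialLinearGroup.isClosedEmbedding_val.continuous)
  · obtain ⟨g, hg, h⟩ := hR x fun v hv h0 => by
      obtain ⟨j, hj⟩ := hx v hv h0
      exact hj.trans (norm_le_pi_norm v j)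
    exact ⟨g, h, hg⟩

theorem mink (x : X n) [NeZero n] (r : Fin n → ℝ) (hr : ∀ j, 0 < r j) (h : 1 < ∏ j, r j) :
    ∃ v ∈ lat x, v ≠ 0 ∧ ∀ j, |v j| < r j := by
  obtain ⟨m, rfl⟩ := Nat.exists_eq_succ_of_ne_zero (NeZero.ne n)
  have h0 : 0 < (∏ j, r j)⁻¹ := inv_pos.2 (zero_lt_one.trans h)
  have h1 : (∏ j, r j)⁻¹ ^ (((m : ℝ) + 1)⁻¹) < 1 :=
    Real.rpow_lt_one h0.le (inv_lt_one_of_one_lt₀ h) (by positivity)
  have h2 : 0 < (∏ j, r j)⁻¹ ^ (((m : ℝ) + 1)⁻¹) := Real.rpow_pos_of_pos h0 _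
  obtain ⟨v, hv, hv0, hvr⟩ := minkowski_box x
    (a := fun j => r j * (∏ j, r j)⁻¹ ^ (((m : ℝ) + 1)⁻¹)) (fun j => mul_pos (hr j) h2) (by
      rw [Finset.prod_mul_distrib, Finset.prod_const, Finset.card_univ, Fintype.card_fin,
        lat_rpow_pow h0.le, mul_inv_cancel₀ (zero_lt_one.trans h).ne'])
  exact ⟨v, hv, hv0, fun j => (hvr j).trans_lt (mul_lt_of_lt_one_right (hr j) h1)⟩

end Vale.Agent.P007A
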