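import Vale.Agent.P007A.Unf
import Vale.Agent.P007A.Mahler

/-! The density of invertible ideals is bounded by the volume of the packet. -/

namespace Vale.Agent.P007A

open Vale.Agent.P007 Matrix MeasureTheory Filter Topology NumberField
open scoped ENNReal nonZeroDivisors Classical

variable {n m : ℕ}

theorem dens (m : ℕ) : ∃ C : ℝ, 0 < C ∧ ∀ (K : Type) [Field K] [NumberField K]
    (o : Order K (m + 1)) (σ : Fin (m + 1) ≃ (K →+* ℝ)) (μ : Measure (X (m + 1))) (V : ℝ),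
    IsPacketMeasure o σ μ → Unf o μ V →
      ∀ᶠ Y : ℝ in atTop, ∑ k ∈ Finset.Icc 1 ⌊Y⌋₊, (rO o k : ℝ) ≤ C * (V / rtD o) * Y := by
  obtain ⟨c, hc, hPhi⟩ := Phi_ball_ge m
  refine ⟨4 ^ (m + 1) / c ^ 2, by positivity, ?_⟩
  intro K _ _ o σ μ V hμ hU
  have hx : 0 < rtD o := lt_of_lt_of_le one_pos (one_le_rtD o)
  obtain ⟨R, hR⟩ := mahler_basis (m + 1) (inv_pos.2 hx)
  set B : ℝ := ((m + 1 : ℕ) : ℝ) * |R| + 1 with hB
  have hB0 : 0 < B := by positivity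
  filter_upwards [eventually_ge_atTop (c * rtD o * B ^ (m + 1))] with Y hY
  have hY0 : 0 < Y := lt_of_lt_of_le (by positivity) hY
  have hq : 0 < Y / (c * rtD o) := by positivity
  obtain ⟨T, hT0, hT⟩ : ∃ T : ℝ, 0 < T ∧ T ^ (m + 1) = Y / (c * rtD o) :=
    ⟨(Y / (c * rtD o)) ^ (((m + 1 : ℕ) : ℝ)⁻¹), Real.rpow_pos_of_pos hq _,
      Real.rpow_inv_natCast_pow hq.le (Nat.succ_ne_zero m)⟩
  have hBT : B ≤ T := by
    refine le_of_pow_le_pow_left₀ (Nat.succ_ne_zero m) hT0.le ?_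
    show B ^ (m + 1) ≤ T ^ (m + 1)
    rw [hT, le_div_iff₀ (by positivity)]
    linarith [mul_comm (c * rtD o) (B ^ (m + 1))]
  have hmeas : MeasurableSet (Metric.ball (0 : Fin (m + 1) → ℝ) T) := Metric.isOpen_ball.measurableSet
  have hup : ∫⁻ x, cnt (Metric.ball 0 T) x ∂μ ≤ ENNReal.ofReal ((4 * T) ^ (m + 1)) := by
    refine pm_le hμ (measurable_cnt hmeas) fun y hy => ?_
    obtain ⟨g, rfl, hg⟩ := hR y fun v hv h0 => packet_lb hy hv h0
    refine (cnt_ball_le g (fun i j => (hg i j).trans (le_abs_self R)) hT0.le).trans ?_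
    refine ENNReal.ofReal_le_ofReal (pow_le_pow_left₀ (by positivity) ?_ _)
    linarith
  have hunf := hU.2 ((Metric.ball (0 : Fin (m + 1) → ℝ) T).indicator 1)
    (measurable_one.indicator hmeas)
  have hlow : ENNReal.ofReal (c * ∑ k ∈ Finset.Icc 1 ⌊Y⌋₊, (rO o k : ℝ)) ≤
      ∑' k : ℕ, (rO o k : ℝ≥0∞) *
        Phi ((Metric.ball (0 : Fin (m + 1) → ℝ) T).indicator 1) (k / rtD o) := by
    refine le_trans ?_ (ENNReal.sum_le_tsum (Finset.Icc 1 ⌊Y⌋₊))
    rw [Finset.mul_sum, ENNReal.ofReal_sum_of_nonneg fun k _ => by positivity]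
    refine Finset.sum_le_sum fun k hk => ?_
    rw [mul_comm, ENNReal.ofReal_mul (Nat.cast_nonneg _), ENNReal.ofReal_natCast]
    obtain ⟨hk1, hk2⟩ := Finset.mem_Icc.1 hk
    have hk0 : (0 : ℝ) < k := Nat.cast_pos.2 hk1
    have hkY : (k : ℝ) ≤ Y := (Nat.cast_le.2 hk2).trans (Nat.floor_le hY0.le)
    refine mul_le_mul_right (hPhi T _ hT0 (div_pos hk0 hx) ?_) _
    rw [hT]
    have : c * (Y / (c * rtD o)) = Y / rtD o := by field_simp
    rw [this]
    exact div_le_div_of_nonneg_right hkY hx.le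
  have hfin : ENNReal.ofReal (c * ∑ k ∈ Finset.Icc 1 ⌊Y⌋₊, (rO o k : ℝ)) ≤
      ENNReal.ofReal (V * (4 * T) ^ (m + 1)) := by
    rw [ENNReal.ofReal_mul hU.1.le]
    exact hlow.trans (hunf.symm.le.trans (mul_le_mul_right hup _))
  have hV := hU.1
  have h2 := (ENNReal.ofReal_le_ofReal_iff (by positivity)).1 hfin
  rw [mul_pow, hT] at h2
  have h3 : 4 ^ (m + 1) / c ^ 2 * (V / rtD o) * Y =
      V * (4 ^ (m + 1) * (Y / (c * rtD o))) / c := by field_simp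
  rw [h3, le_div_iff₀ hc]
  linarith

end Vale.Agent.P007A
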