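import Vale.Agent.P007A.Defs

/-! Measurable fundamental domains. -/

namespace Vale.Agent.P007A

open Vale.Agent.P007 Matrix MeasureTheory Filter Topology NumberField
open scoped ENNReal nonZeroDivisors Classical

variable {n m : ℕ}

theorem exists_fd {Y Z : Type*} [TopologicalSpace Y] [SecondCountableTopology Y]
    [MeasurableSpace Y] [BorelSpace Y] (π : Y → Z) (hloc : ∀ y, ∃ U ∈ 𝓝 y, Set.InjOn π U)
    (hsat : ∀ U, IsOpen U → IsOpen (π ⁻¹' (π '' U))) :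
    ∃ D : Set Y, MeasurableSet D ∧ Set.BijOn π D (Set.range π) := by
  rcases isEmpty_or_nonempty Y with hY | hY
  · refine ⟨∅, MeasurableSet.empty, ?_⟩
    rw [Set.range_eq_empty]
    exact Set.bijOn_empty π
  have h1 : ∀ y, ∃ U : Set Y, IsOpen U ∧ y ∈ U ∧ Set.InjOn π U := by
    intro y
    obtain ⟨U, hU, hi⟩ := hloc y
    exact ⟨interior U, isOpen_interior, mem_interior_iff_mem_nhds.2 hU, hi.mono interior_subset⟩
  choose V hVo hVm hVi using h1
  obtain ⟨s, hsc, hs⟩ := TopologicalSpace.countable_cover_nhds (f := V)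
    fun y => (hVo y).mem_nhds (hVm y)
  have hsn : s.Nonempty := by
    obtain ⟨y⟩ := hY
    have : y ∈ ⋃ x ∈ s, V x := hs ▸ Set.mem_univ y
    obtain ⟨x, hx, -⟩ := Set.mem_iUnion₂.1 this
    exact ⟨x, hx⟩
  obtain ⟨e, he⟩ := hsc.exists_eq_range hsn
  have hcov : ∀ y, ∃ k, y ∈ V (e k) := by
    intro y
    have : y ∈ ⋃ x ∈ s, V x := hs ▸ Set.mem_univ y
    obtain ⟨x, hx, hy⟩ := Set.mem_iUnion₂.1 this
    rw [he] at hx
    obtain ⟨k, rfl⟩ := hx
    exact ⟨k, hy⟩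
  set S : ℕ → Set Y := fun k => π ⁻¹' (π '' V (e k)) with hS
  have hSm : ∀ k, MeasurableSet (S k) := fun k => (hsat _ (hVo _)).measurableSet
  have hSc : ∀ y, ∃ k, y ∈ S k := fun y => (hcov y).imp fun k hk => ⟨y, hk, rfl⟩
  have hSπ : ∀ k y y', π y = π y' → y ∈ S k → y' ∈ S k := by
    intro k y y' h hy
    show π y' ∈ π '' V (e k)
    rw [← h]
    exact hy
  refine ⟨⋃ k, V (e k) ∩ ⋂ j ∈ Set.Iio k, (S j)ᶜ, ?_, ?_, ?_, ?_⟩
  · exact MeasurableSet.iUnion fun k => (hVo _).measurableSet.inter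
      (MeasurableSet.biInter (Set.to_countable _) fun j _ => (hSm j).compl)
  · exact fun y _ => ⟨y, rfl⟩
  · intro y hy y' hy' h
    obtain ⟨k, hk, hk2⟩ := Set.mem_iUnion.1 hy
    obtain ⟨l, hl, hl2⟩ := Set.mem_iUnion.1 hy'
    rw [Set.mem_iInter₂] at hk2 hl2
    rcases lt_trichotomy k l with hkl | rfl | hkl
    · exact absurd (hSπ k y y' h ⟨y, hk, rfl⟩) (hl2 k hkl)
    · exact hVi _ hk hl h
    · exact absurd (hSπ l y' y h.symm ⟨y', hl, rfl⟩) (hk2 l hkl)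
  · rintro _ ⟨y, rfl⟩
    obtain ⟨y', hy', h⟩ := Nat.find_spec (hSc y)
    refine ⟨y', Set.mem_iUnion.2 ⟨_, hy', Set.mem_iInter₂.2 fun j hj hm => ?_⟩, h⟩
    exact Nat.find_min (hSc y) hj (hSπ j y' y h hm)

end Vale.Agent.P007A
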