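import Vale.Agent.P007A.Mahler

/-! The Siegel transform: measurability, Minkowski, counting. -/

namespace Vale.Agent.P007A

open Vale.Agent.P007 Matrix MeasureTheory Filter Topology NumberField
open scoped ENNReal nonZeroDivisors Classical

variable {n m : ℕ}

theorem measurable_of_mk {β : Type*} [MeasurableSpace β] {F : X n → β}
    (h : @Measurable _ _ (borel (G n)) _ fun g => F (mk g)) : Measurable F := by
  haveI : PolishSpace (Matrix (Fin n) (Fin n) ℝ) :=
    inferInstanceAs (PolishSpace (Fin n → Fin n → ℝ))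
  haveI : PolishSpace (G n) := Matrix.SpecialLinearGroup.isClosedEmbedding_val.polishSpace
  have e : MeasurableSpace.map (mk : G n → X n) (borel (G n)) = borel (X n) :=
    mk_open.continuous.map_borel_eq mk_open.surjective
  intro s hs
  change @MeasurableSet _ (borel (X n)) (F ⁻¹' s)
  rw [← e]
  exact h hs

theorem sg_vecMul_inj (g : G n) : Function.Injective fun v : Fin n → ℝ => v ᵥ* g.1 :=
  Matrix.vecMul_injective_iff_isUnit.2
    ((Matrix.isUnit_iff_isUnit_det _).2 (by rw [g.2]; exact isUnit_one))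

theorem sg_cast_inj : Function.Injective fun (k : Fin n → ℤ) (i : Fin n) => (k i : ℝ) :=
  fun _ _ h => funext fun i => Int.cast_injective (congrFun h i)

theorem sg_mk (f : (Fin n → ℝ) → ℝ≥0∞) (g : G n) :
    sg f (mk g) = ∑' k : {k : Fin n → ℤ // k ≠ 0}, f ((fun i => (k.1 i : ℝ)) ᵥ* g.1) := by
  have h0 : (fun i => (((0 : Fin n → ℤ) i : ℤ) : ℝ)) ᵥ* g.1 = 0 := by
    have : (fun i => (((0 : Fin n → ℤ) i : ℤ) : ℝ)) = 0 := funext fun i => by simp
    rw [this, Matrix.zero_vecMul]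
  let φ : {k : Fin n → ℤ // k ≠ 0} → (lat (mk g) \ {0} : Set (Fin n → ℝ)) := fun k =>
    ⟨(fun i => (k.1 i : ℝ)) ᵥ* g.1, mem_lat.2 ⟨k.1, rfl⟩, fun h =>
      k.2 (sg_cast_inj (sg_vecMul_inj g ((Set.mem_singleton_iff.1 h).trans h0.symm)))⟩
  have hφ : Function.Bijective φ := by
    refine ⟨fun k l h => Subtype.ext (sg_cast_inj (sg_vecMul_inj g (congrArg Subtype.val h))), ?_⟩
    rintro ⟨v, hv, hv0⟩
    obtain ⟨k, rfl⟩ := mem_lat.1 hv
    refine ⟨⟨k, ?_⟩, rfl⟩
    rintro rfl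
    exact hv0 h0
  exact ((Equiv.ofBijective φ hφ).tsum_eq fun v => f v).symm

theorem sg_act (f : (Fin n → ℝ) → ℝ≥0∞) (a : G n) (x : X n) :
    sg f (act a x) = sg (fun v => f (v ᵥ* a.1)) x := by
  obtain ⟨g, rfl⟩ := mk_open.surjective x
  rw [act_mk, sg_mk, sg_mk]
  refine tsum_congr fun k => ?_
  rw [Matrix.vecMul_vecMul]
  rfl

theorem sg_mono {f f' : (Fin n → ℝ) → ℝ≥0∞} (h : ∀ v, v ≠ 0 → f v ≤ f' v) (x : X n) :
    sg f x ≤ sg f' x := ENNReal.tsum_le_tsum fun v => h v v.2.2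

theorem measurable_sg {f : (Fin n → ℝ) → ℝ≥0∞} (hf : Measurable f) : Measurable (sg f) := by
  refine measurable_of_mk ?_
  letI : MeasurableSpace (G n) := borel (G n)
  haveI : BorelSpace (G n) := ⟨rfl⟩
  simp only [sg_mk]
  refine Measurable.ennreal_tsum fun k => hf.comp (Continuous.measurable ?_)
  exact continuous_const.matrix_vecMul continuous_subtype_val

theorem measurable_cnt {B : Set (Fin n → ℝ)} (hB : MeasurableSet B) : Measurable (cnt B) :=
  measurable_sg (measurable_one.indicator hB)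

theorem cnt_mono {B B' : Set (Fin n → ℝ)} (h : B \ {0} ⊆ B') (x : X n) :
    cnt B x ≤ cnt B' x := by
  refine sg_mono (fun v hv => ?_) x
  by_cases hB : v ∈ B
  · rw [Set.indicator_of_mem hB, Set.indicator_of_mem (h ⟨hB, hv⟩)]
  · rw [Set.indicator_of_notMem hB]; exact zero_le

theorem one_le_cnt {B : Set (Fin n → ℝ)} {x : X n} {v : Fin n → ℝ} (hv : v ∈ lat x)
    (h0 : v ≠ 0) (hB : v ∈ B) : 1 ≤ cnt B x := by
  refine le_trans ?_ (ENNReal.le_tsum (⟨v, hv, h0⟩ : (lat x \ {0} : Set (Fin n → ℝ))))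
  rw [Set.indicator_of_mem hB]
  exact le_rfl

theorem measure_le_cnt (μ : Measure (X n)) {B : Set (Fin n → ℝ)} (hB : MeasurableSet B) :
    μ {x | ∃ v ∈ lat x, v ≠ 0 ∧ v ∈ B} ≤ ∫⁻ x, cnt B x ∂μ := by
  have h := mul_meas_ge_le_lintegral (μ := μ) (measurable_cnt hB) 1
  rw [one_mul] at h
  refine le_trans (measure_mono ?_) h
  rintro x ⟨v, hv, h0, hB⟩
  exact one_le_cnt hv h0 hB

theorem minkowski (x : X (m + 1)) : ∃ v ∈ lat x, v ≠ 0 ∧ ‖v‖ ≤ 1 := by
  obtain ⟨v, hv, h0, h⟩ := minkowski_box x (a := fun _ => 1) (fun _ => one_pos) (by simp)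
  exact ⟨v, hv, h0, (pi_norm_le_iff_of_nonneg zero_le_one).2 h⟩

/-- unit cubes -/
def sgCube (k : Fin n → ℤ) : Set (Fin n → ℝ) := Set.univ.pi fun i => Set.Ico (k i : ℝ) (k i + 1)

theorem sgCube_meas (k : Fin n → ℤ) : MeasurableSet (sgCube k) :=
  MeasurableSet.univ_pi fun _ => measurableSet_Ico

theorem sgCube_vol (k : Fin n → ℤ) : volume (sgCube k) = 1 := by
  rw [sgCube, Real.volume_pi_Ico]
  simp

theorem sgCube_eq {k l : Fin n → ℤ} {x : Fin n → ℝ} (hk : x ∈ sgCube k) (hl : x ∈ sgCube l) :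
    k = l := by
  funext i
  rw [← Int.floor_eq_iff.2 (hk i trivial), ← Int.floor_eq_iff.2 (hl i trivial)]

theorem sg_vol_pre (g : G n) (s : Set (Fin n → ℝ)) :
    volume ((fun v => v ᵥ* g.1) ⁻¹' s) = volume s := by
  have hd : LinearMap.det (Matrix.toLin' g.1ᵀ) = 1 := by
    rw [LinearMap.det_toLin', Matrix.det_transpose, g.2]
  have e : (fun v => v ᵥ* g.1) = Matrix.toLin' g.1ᵀ := by
    funext v
    rw [Matrix.toLin'_apply, Matrix.mulVec_transpose]
  rw [e, Measure.addHaar_preimage_linearMap _ (by rw [hd]; exact one_ne_zero), hd]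
  simp

theorem sgCube_norm (g : G n) {R : ℝ} (hg : ∀ i j, |g.1 i j| ≤ R) (hR : 0 ≤ (n : ℝ) * R)
    {k : Fin n → ℤ} {x : Fin n → ℝ} (hx : x ∈ sgCube k) :
    ‖(x - fun i => (k i : ℝ)) ᵥ* g.1‖ ≤ n * R := by
  refine (pi_norm_le_iff_of_nonneg hR).2 fun j => ?_
  rw [Real.norm_eq_abs, Matrix.vecMul, dotProduct]
  refine (Finset.abs_sum_le_sum_abs _ _).trans ?_
  have : ∀ i, |(x - fun i => (k i : ℝ)) i * g.1 i j| ≤ R := fun i => by
    have h1 := (hx i trivial).1
    have h2 := (hx i trivial).2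
    have h3 : |(x - fun i => (k i : ℝ)) i| ≤ 1 := by
      rw [Pi.sub_apply, abs_le]; constructor <;> linarith
    rw [abs_mul]
    exact (mul_le_of_le_one_left (abs_nonneg _) h3).trans (hg i j)
  refine (Finset.sum_le_sum fun i _ => this i).trans ?_
  simp

theorem cnt_ball_le (g : G n) {R T : ℝ} (hg : ∀ i j, |g.1 i j| ≤ R) (hT : 0 ≤ T) :
    cnt (Metric.ball 0 T) (mk g) ≤ ENNReal.ofReal ((2 * (T + n * R)) ^ n) := by
  have hR : 0 ≤ (n : ℝ) * R := by
    rcases Nat.eq_zero_or_pos n with h | h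
    · simp [h]
    · exact mul_nonneg (Nat.cast_nonneg _) ((abs_nonneg _).trans (hg ⟨0, h⟩ ⟨0, h⟩))
  let A : {k : Fin n → ℤ // k ≠ 0} → Set (Fin n → ℝ) := fun k =>
    if (fun i => (k.1 i : ℝ)) ᵥ* g.1 ∈ Metric.ball (0 : Fin n → ℝ) T then sgCube k.1 else ∅
  have hA : ∀ k, A k ⊆ sgCube k.1 := fun k => by
    simp only [A]
    split_ifs
    · exact subset_rfl
    · exact Set.empty_subset _
  have hm : ∀ k, MeasurableSet (A k) := fun k => by
    simp only [A]
    split_ifs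
    · exact sgCube_meas _
    · exact MeasurableSet.empty
  have hd : Pairwise (Function.onFun Disjoint A) := fun k l hkl =>
    Set.disjoint_left.2 fun x hk hl => hkl (Subtype.ext (sgCube_eq (hA k hk) (hA l hl)))
  have h1 : cnt (Metric.ball 0 T) (mk g) = volume (⋃ k, A k) := by
    rw [measure_iUnion hd hm, cnt, sg_mk]
    refine tsum_congr fun k => ?_
    simp only [A]
    split_ifs with h
    · rw [Set.indicator_of_mem h, sgCube_vol]; rfl
    · rw [Set.indicator_of_notMem h, measure_empty]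
  have h2 : (⋃ k, A k) ⊆ (fun v => v ᵥ* g.1) ⁻¹' Metric.closedBall 0 (T + n * R) := by
    refine Set.iUnion_subset fun k x hx => ?_
    have hx' := hA k hx
    simp only [A] at hx
    split_ifs at hx with h
    · rw [Set.mem_preimage, mem_closedBall_zero_iff]
      rw [mem_ball_zero_iff] at h
      have e : x ᵥ* g.1 = (fun i => (k.1 i : ℝ)) ᵥ* g.1 + (x - fun i => (k.1 i : ℝ)) ᵥ* g.1 := by
        rw [← Matrix.add_vecMul, add_sub_cancel]
      rw [e]
      exact (norm_add_le _ _).trans (add_le_add h.le (sgCube_norm g hg hR hx'))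
    · exact hx.elim
  rw [h1]
  refine (measure_mono h2).trans ?_
  rw [sg_vol_pre, Real.volume_pi_closedBall _ (add_nonneg hT hR), Fintype.card_fin]

end Vale.Agent.P007A
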