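import Vale.Agent.P007A.Pk
import Vale.Agent.P007A.Sg
import Vale.Agent.P007A.FD

/-! Existence of packet measures. -/

namespace Vale.Agent.P007A

open Vale.Agent.P007 Matrix MeasureTheory Filter Topology NumberField
open scoped ENNReal nonZeroDivisors Classical

variable {K : Type} [Field K] [NumberField K] {n m : ℕ}

theorem ex_fin_ideals (o : Order K n) (x : ℝ) :
    {I : Ideal o.O | I ∈ Inv o ∧ (idx I : ℝ) ≤ x}.Finite := by
  refine ((Finset.range (⌊x⌋₊ + 1)).finite_toSet.biUnion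
    fun k _ => finite_Inv_idx o k).subset ?_
  rintro I ⟨hI, hx⟩
  simp only [Set.mem_iUnion]
  exact ⟨idx I, by simpa [Nat.lt_succ_iff] using Nat.le_floor hx, hI, rfl⟩

theorem ex_fin_set (o : Order K (m + 1)) (σ : Fin (m + 1) ≃ (K →+* ℝ)) :
    ∃ S : Set (X (m + 1)), S.Finite ∧ S ⊆ packet o σ ∧
      ∀ y ∈ packet o σ, ∃ x ∈ S, ∃ u, act (tor u) x = y := by
  have hx : 0 < rtD o := lt_of_lt_of_le one_pos (one_le_rtD o)
  let L : (Fin (m + 1) → ℤˣ) × Ideal o.O → Set (Fin (m + 1) → ℝ) :=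
    fun p => latOf σ (pt p.1 (idx p.2 / rtD o) 0) p.2
  let A : Set ((Fin (m + 1) → ℤˣ) × Ideal o.O) :=
    Set.univ ×ˢ {I : Ideal o.O | I ∈ Inv o ∧ (idx I : ℝ) ≤ rtD o}
  have hA : A.Finite := Set.finite_univ.prod (ex_fin_ideals o _)
  refine ⟨packet o σ ∩ lat ⁻¹' (L '' A), ?_, Set.inter_subset_left, ?_⟩
  · exact ((hA.image L).preimage fun _ _ _ _ h => lat_inj h).subset Set.inter_subset_right
  intro y hy
  obtain ⟨w, hw, h0, h1⟩ := minkowski y
  obtain ⟨I, hI, hp, hl⟩ := pk2 hy hw h0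
  have hi : 0 < (idx I : ℝ) := Nat.cast_pos.2 (Nat.pos_of_ne_zero (idx_ne_zero (Inv.ne_bot hI)))
  have ht : 0 < (idx I : ℝ) / rtD o := div_pos hi hx
  have hle : ∏ j, |w j| ≤ 1 :=
    Finset.prod_le_one (fun j _ => abs_nonneg _) fun j _ => (norm_le_pi_norm w j).trans h1
  obtain ⟨s, u, hs⟩ := exists_pt (w := w) (by rw [hp]; exact ht)
  rw [hp] at hs hle
  obtain ⟨y0, hy0, hl0⟩ := pk1 σ hI (prod_pt s ht.le (0 : Fin m → ℝ))
  refine ⟨y0, ⟨hy0, (s, I), ⟨Set.mem_univ _, hI, (div_le_one hx).1 hle⟩, hl0.symm⟩, u, ?_⟩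
  apply lat_inj
  rw [lat_tor, hl0, ← latOf_mul, pt_mul_ex, zero_add, ← hs, hl]

theorem ex_sat (x : X (m + 1)) (U : Set (Fin m → ℝ)) (hU : IsOpen U) :
    IsOpen ((fun u : Fin m → ℝ => act (tor u) x) ⁻¹' ((fun u => act (tor u) x) '' U)) := by
  rw [isOpen_iff_mem_nhds]
  rintro v ⟨u, hu, huv⟩
  have hc : Continuous fun w : Fin m → ℝ => u + (w - v) := by fun_prop
  have h1 : (fun w : Fin m → ℝ => u + (w - v)) ⁻¹' U ∈ 𝓝 v :=
    (hU.preimage hc).mem_nhds (by simpa using hu)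
  filter_upwards [h1] with w hw
  refine ⟨u + (w - v), hw, ?_⟩
  have huv' : act (tor u) x = act (tor v) x := huv
  show act (tor (u + (w - v))) x = act (tor w) x
  rw [act_tor_add, huv', ← act_tor_add, add_sub_cancel]

/-- The orbit relation of the diagonal group. -/
def exOrb (m : ℕ) : Setoid (X (m + 1)) where
  r x y := ∃ u, act (tor u) x = y
  iseqv :=
    { refl := fun x => ⟨0, by rw [tor_zero, act_one]⟩
      symm := by
        rintro x y ⟨u, rfl⟩
        exact ⟨-u, by rw [← act_tor_add, add_neg_cancel, tor_zero, act_one]⟩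
      trans := by
        rintro x y z ⟨u, rfl⟩ ⟨v, rfl⟩
        exact ⟨u + v, act_tor_add u v x⟩ }

theorem exists_pm (o : Order K (m + 1)) (σ : Fin (m + 1) ≃ (K →+* ℝ)) :
    ∃ μ, IsPacketMeasure o σ μ := by
  obtain ⟨S, hS, hSp, hcov⟩ := ex_fin_set o σ
  let rep : X (m + 1) → X (m + 1) := fun x => (Quotient.mk (exOrb m) x).out
  have hrep : ∀ x, (exOrb m).r (rep x) x := fun x => Quotient.mk_out (s := exOrb m) x
  choose D hD using fun x : X (m + 1) =>
    exists_fd (fun u : Fin m → ℝ => act (tor u) x) (orb_locally_inj x) (ex_sat x)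
  refine ⟨_, hS.toFinset.image rep, D, ?_, ?_, fun x _ => hD x, rfl⟩
  · ext y
    simp only [Set.mem_iUnion, Finset.mem_image, Set.Finite.mem_toFinset, Set.mem_range]
    constructor
    · intro hy
      obtain ⟨x, hx, hxy⟩ := hcov y hy
      exact ⟨rep x, ⟨x, hx, rfl⟩, (exOrb m).trans (hrep x) hxy⟩
    · rintro ⟨_, ⟨x, hx, rfl⟩, u, rfl⟩
      obtain ⟨v, hv⟩ := (exOrb m).symm (hrep x)
      rw [← hv]
      exact packet_act (packet_act (hSp hx) v) u
  · simp only [Finset.mem_image]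
    rintro _ ⟨x, -, rfl⟩ _ ⟨y, -, rfl⟩ h
    have h1 : (exOrb m).r x y :=
      (exOrb m).trans ((exOrb m).symm (hrep x)) ((exOrb m).trans h (hrep y))
    show (Quotient.mk (exOrb m) x).out = (Quotient.mk (exOrb m) y).out
    rw [Quotient.sound (s := exOrb m) h1]

end Vale.Agent.P007A
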