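import Vale.Agent.P007A.Cheb

/-! Upper bounds of Hall and Tenenbaum type. -/

namespace Vale.Agent.P007A

open Vale.Agent.P007 Matrix MeasureTheory Filter Topology NumberField
open scoped ENNReal nonZeroDivisors Classical

theorem ht_key {r : ℕ → ℝ} (h0 : ∀ k, 0 ≤ r k)
    (hmul : ∀ a b : ℕ, a.Coprime b → r (a * b) = r a * r b) (S : Finset ℕ) (N : ℕ)
    (hS : ∀ k ∈ S, 1 ≤ k ∧ k ≤ N) (w : ℕ → ℝ) (hw : ∀ k, 0 ≤ w k) :
    ∑ k ∈ S, w k * (r k * Real.log k) ≤ ∑ m ∈ Finset.Icc 1 N, r m *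
      ∑ q ∈ (Finset.Icc 1 N).filter (fun q => IsPrimePow q ∧ m * q ∈ S),
        w (m * q) * (r q * Real.log q) := by
  have hF : ∀ x : ℕ × ℕ, 0 ≤ r x.1 * (w (x.1 * x.2) * (r x.2 * Real.log x.2)) := fun x =>
    mul_nonneg (h0 _) (mul_nonneg (hw _) (mul_nonneg (h0 _) (Real.log_natCast_nonneg _)))
  have e1 : ∑ m ∈ Finset.Icc 1 N, r m *
      ∑ q ∈ (Finset.Icc 1 N).filter (fun q => IsPrimePow q ∧ m * q ∈ S),
        w (m * q) * (r q * Real.log q) =
      ∑ x ∈ (Finset.Icc 1 N ×ˢ Finset.Icc 1 N).filter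
        (fun x => IsPrimePow x.2 ∧ x.1 * x.2 ∈ S),
        r x.1 * (w (x.1 * x.2) * (r x.2 * Real.log x.2)) := by
    rw [Finset.sum_filter, Finset.sum_product]
    simp only [Finset.mul_sum, Finset.sum_filter, mul_ite, mul_zero]
  rw [e1, ← Finset.sum_fiberwise_of_maps_to (t := S) (g := fun x : ℕ × ℕ => x.1 * x.2)
    fun x hx => (Finset.mem_filter.1 hx).2.2]
  refine Finset.sum_le_sum fun k hk => ?_
  obtain ⟨hk1, hkN⟩ := hS k hk
  have hk0 : k ≠ 0 := by omega
  have hv : ∀ p ∈ k.primeFactors, 0 < k.factorization p := fun p hp =>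
    (Nat.prime_of_mem_primeFactors hp).factorization_pos_of_dvd hk0 (Nat.dvd_of_mem_primeFactors hp)
  have hinj : Set.InjOn (fun p => (k / p ^ k.factorization p, p ^ k.factorization p))
      (k.primeFactors : Set ℕ) := by
    intro p hp p' hp' h
    have h2 : p ^ k.factorization p = p' ^ k.factorization p' := congrArg Prod.snd h
    have h3 : p ∣ p' ^ k.factorization p' := h2 ▸ dvd_pow_self p (hv p hp).ne'
    exact (Nat.prime_dvd_prime_iff_eq (Nat.prime_of_mem_primeFactors hp)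
      (Nat.prime_of_mem_primeFactors hp')).1 ((Nat.prime_of_mem_primeFactors hp).dvd_of_dvd_pow h3)
  have hm : ∀ p, k / p ^ k.factorization p * p ^ k.factorization p = k := fun p =>
    Nat.div_mul_cancel (Nat.ordProj_dvd k p)
  calc w k * (r k * Real.log k)
      = ∑ p ∈ k.primeFactors, r (k / p ^ k.factorization p) *
          (w (k / p ^ k.factorization p * p ^ k.factorization p) *
            (r (p ^ k.factorization p) * Real.log (p ^ k.factorization p : ℕ))) := by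
        rw [Real.log_nat_eq_sum_factorization, Finsupp.sum, Finset.mul_sum, Finset.mul_sum]
        refine Finset.sum_congr rfl fun p hp => ?_
        have hc := (Nat.coprime_ordCompl (Nat.prime_of_mem_primeFactors hp) hk0).symm.pow_right
          (k.factorization p)
        have := hmul _ _ hc
        rw [hm] at this
        rw [hm, this, Nat.cast_pow, Real.log_pow]
        ring
    _ = ∑ x ∈ k.primeFactors.image
          (fun p => (k / p ^ k.factorization p, p ^ k.factorization p)),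
          r x.1 * (w (x.1 * x.2) * (r x.2 * Real.log x.2)) := by
        rw [Finset.sum_image hinj]
    _ ≤ _ := by
        refine Finset.sum_le_sum_of_subset_of_nonneg (fun x hx => ?_) fun x _ _ => hF x
        obtain ⟨p, hp, rfl⟩ := Finset.mem_image.1 hx
        have hpp := Nat.prime_of_mem_primeFactors hp
        simp only [Finset.mem_filter, Finset.mem_product, Finset.mem_Icc, hm]
        exact ⟨⟨⟨⟨Nat.ordCompl_pos p hk0, (Nat.div_le_self _ _).trans hkN⟩,
          Nat.ordProj_pos k p, (Nat.ordProj_le p hk0).trans hkN⟩,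
          hpp.isPrimePow.pow (hv p hp).ne', hk⟩, trivial⟩

theorem ht_lm_nonneg {r : ℕ → ℝ} (h0 : ∀ k, 0 ≤ r k) (y : ℝ) : 0 ≤ lm r y :=
  Finset.sum_nonneg fun k _ => div_nonneg (h0 k) (Nat.cast_nonneg k)

theorem ht_long {n : ℕ} (hn : 1 ≤ n) (B : ℝ) : ∃ C : ℝ, 0 < C ∧ ∀ r : ℕ → ℝ, Adm n B r →
    ∀ y : ℝ, 2 ≤ y →
      ∑ k ∈ Finset.Icc 1 ⌊y⌋₊, r k / √k ≤ C * √y * lm r y / Real.log y := by
  obtain ⟨C, hC, hch⟩ := cheb_long hn
  refine ⟨C * |B| + 2, by positivity, fun r hr y hy => ?_⟩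
  have hy0 : 0 < y := by linarith
  have hmem : ∀ k ∈ Finset.Icc 1 ⌊y⌋₊, (1 : ℝ) ≤ k ∧ (k : ℝ) ≤ y := fun k hk =>
    ⟨by exact_mod_cast (Finset.mem_Icc.1 hk).1, (Nat.le_floor_iff hy0.le).1 (Finset.mem_Icc.1 hk).2⟩
  have h1 := ht_key hr.nonneg hr.mul (Finset.Icc 1 ⌊y⌋₊) ⌊y⌋₊ (fun k hk => Finset.mem_Icc.1 hk)
    (fun k => (√k)⁻¹) fun k => by positivity
  have h2 : ∀ m ∈ Finset.Icc 1 ⌊y⌋₊, r m *
      ∑ q ∈ (Finset.Icc 1 ⌊y⌋₊).filter (fun q => IsPrimePow q ∧ m * q ∈ Finset.Icc 1 ⌊y⌋₊),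
        (√(m * q : ℕ))⁻¹ * (r q * Real.log q) ≤ C * |B| * √y * (r m / m) := by
    intro m hm
    obtain ⟨hm1, hmy⟩ := hmem m hm
    have hm0 : (0 : ℝ) < m := by linarith
    have a1 := hch B r hr (y / m) ((one_le_div hm0).2 hmy)
    have a2 : ∑ q ∈ (Finset.Icc 1 ⌊y⌋₊).filter (fun q => IsPrimePow q ∧ m * q ∈ Finset.Icc 1 ⌊y⌋₊),
        (√(m * q : ℕ))⁻¹ * (r q * Real.log q) ≤
        ∑ q ∈ (Finset.Icc 1 ⌊y / m⌋₊).filter IsPrimePow, (√m)⁻¹ * (r q * Real.log q / √q) := by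
      refine le_trans (le_of_eq (Finset.sum_congr rfl fun q _ => ?_))
        (Finset.sum_le_sum_of_subset_of_nonneg (fun q hq => ?_) fun q _ _ => ?_)
      · rw [Nat.cast_mul, Real.sqrt_mul hm0.le]
        ring
      · obtain ⟨hq1, hq2, hq3⟩ := Finset.mem_filter.1 hq
        refine Finset.mem_filter.2 ⟨Finset.mem_Icc.2 ⟨(Finset.mem_Icc.1 hq1).1, ?_⟩, hq2⟩
        rw [Nat.le_floor_iff (by positivity), le_div_iff₀ hm0, mul_comm]
        exact_mod_cast (hmem _ hq3).2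
      · have := hr.nonneg q
        have := Real.log_natCast_nonneg q
        positivity
    rw [← Finset.mul_sum] at a2
    have a3 : C * B * √(y / m) ≤ C * |B| * √(y / m) := by gcongr; exact le_abs_self B
    have a4 : (√m)⁻¹ * (C * |B| * √(y / m)) = C * |B| * √y / m := by
      have := Real.sqrt_pos.2 hm0
      rw [Real.sqrt_div hy0.le]
      field_simp
      rw [Real.sq_sqrt hm0.le, mul_comm]
    calc _ ≤ r m * ((√m)⁻¹ * (C * |B| * √(y / m))) :=
          mul_le_mul_of_nonneg_left (a2.trans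
            (mul_le_mul_of_nonneg_left (a1.trans a3) (by positivity))) (hr.nonneg m)
      _ = _ := by rw [a4]; ring
  have h3 : ∀ k ∈ Finset.Icc 1 ⌊y⌋₊, r k / √k * Real.log y ≤
      (√k)⁻¹ * (r k * Real.log k) + 2 * √y * (r k / k) := by
    intro k hk
    obtain ⟨hk1, hky⟩ := hmem k hk
    have hk0 : (0 : ℝ) < k := by linarith
    have hs := Real.sqrt_pos.2 hk0
    have a1 : Real.log (y / k) ≤ 2 * (√y / √k) := by
      have := Real.log_le_sub_one_of_pos (Real.sqrt_pos.2 (div_pos hy0 hk0))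
      rw [Real.log_sqrt (div_pos hy0 hk0).le, Real.sqrt_div hy0.le] at this
      linarith
    rw [Real.log_div hy0.ne' hk0.ne'] at a1
    have a2 : 2 * √y * (r k / k) = r k / √k * (2 * (√y / √k)) := by
      field_simp
      rw [Real.sq_sqrt hk0.le]
    have a3 : (√k)⁻¹ * (r k * Real.log k) = r k / √k * Real.log k := by ring
    rw [a2, a3, ← mul_add]
    exact mul_le_mul_of_nonneg_left (by linarith) (div_nonneg (hr.nonneg k) hs.le)
  rw [le_div_iff₀ (Real.log_pos (by linarith)), Finset.sum_mul]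
  refine (Finset.sum_le_sum h3).trans ?_
  rw [Finset.sum_add_distrib, ← Finset.mul_sum]
  have h4 := h1.trans (Finset.sum_le_sum h2)
  rw [← Finset.mul_sum] at h4
  rw [lm]
  linarith
theorem ht_short {n : ℕ} (hn : 1 ≤ n) (B : ℝ) : ∃ C : ℝ, 0 < C ∧ ∀ η : ℝ, 0 < η → η ≤ 1 →
    ∃ y₀ : ℝ, ∀ r : ℕ → ℝ, Adm n B r → ∀ y : ℝ, y₀ ≤ y →
      ∑ k ∈ Finset.Ioc ⌊y⌋₊ ⌊(1 + η) * y⌋₊, r k ≤ C * η * y * lm r (2 * y) / Real.log y := by
  obtain ⟨C₁, hC₁, hch⟩ := cheb_long hn
  obtain ⟨C₂, hC₂, hsh⟩ := cheb_short hn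
  obtain ⟨C₃, hC₃, hlong⟩ := ht_long hn B
  refine ⟨C₂ * |B| + 1, by positivity, fun η hη hη1 => ?_⟩
  obtain ⟨z₀, hz₀⟩ := hsh η hη hη1
  obtain ⟨z, hz1, hz⟩ : ∃ z : ℝ, 1 ≤ z ∧ z₀ ≤ z := ⟨max 1 z₀, le_max_left _ _, le_max_right _ _⟩
  obtain ⟨A, hA⟩ : ∃ A : ℝ, A = C₁ * |B| * (2 * z) := ⟨_, rfl⟩
  have hA0 : 0 ≤ A := by rw [hA]; positivity
  refine ⟨max 2 (Real.exp (2 * A * C₃ / η)), fun r hr y hy => ?_⟩
  have hy2 : 2 ≤ y := (le_max_left _ _).trans hy
  have hy0 : 0 < y := by linarith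
  have hS : ∀ k ∈ Finset.Ioc ⌊y⌋₊ ⌊(1 + η) * y⌋₊, y < k ∧ (k : ℝ) ≤ (1 + η) * y := fun k hk =>
    ⟨(Nat.floor_lt hy0.le).1 (Finset.mem_Ioc.1 hk).1,
      (Nat.le_floor_iff (by positivity)).1 (Finset.mem_Ioc.1 hk).2⟩
  have h1 := ht_key hr.nonneg hr.mul (Finset.Ioc ⌊y⌋₊ ⌊(1 + η) * y⌋₊) ⌊2 * y⌋₊
    (fun k hk => ⟨Nat.succ_le_of_lt ((Nat.zero_le _).trans_lt (Finset.mem_Ioc.1 hk).1),
      (Finset.mem_Ioc.1 hk).2.trans (Nat.floor_le_floor (by nlinarith))⟩)
    (fun _ => 1) fun _ => zero_le_one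
  simp only [one_mul] at h1
  have hnn : ∀ q : ℕ, 0 ≤ r q * Real.log q := fun q =>
    mul_nonneg (hr.nonneg q) (Real.log_natCast_nonneg q)
  have h2 : ∀ m ∈ Finset.Icc 1 ⌊2 * y⌋₊, r m * ∑ q ∈ (Finset.Icc 1 ⌊2 * y⌋₊).filter
      (fun q => IsPrimePow q ∧ m * q ∈ Finset.Ioc ⌊y⌋₊ ⌊(1 + η) * y⌋₊), r q * Real.log q ≤
      C₂ * |B| * η * y * (r m / m) + A * √(2 * y) * (r m / √m) := by
    intro m hm
    have hm1 : (1 : ℝ) ≤ m := by exact_mod_cast (Finset.mem_Icc.1 hm).1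
    have hm2 : (m : ℝ) ≤ 2 * y := (Nat.le_floor_iff (by positivity)).1 (Finset.mem_Icc.1 hm).2
    have hm0 : (0 : ℝ) < m := by linarith
    have hrm := hr.nonneg m
    have hq : ∀ q ∈ (Finset.Icc 1 ⌊2 * y⌋₊).filter
        (fun q => IsPrimePow q ∧ m * q ∈ Finset.Ioc ⌊y⌋₊ ⌊(1 + η) * y⌋₊),
        y / m < q ∧ (q : ℝ) ≤ (1 + η) * (y / m) := by
      intro q hq
      have := hS _ (Finset.mem_filter.1 hq).2.2
      rw [Nat.cast_mul, mul_comm (m : ℝ)] at this
      rw [div_lt_iff₀ hm0, ← mul_div_assoc, le_div_iff₀ hm0]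
      exact this
    rcases le_total z (y / m) with h | h
    · have a1 := hz₀ B r hr (y / m) (hz.trans h)
      have a2 : C₂ * B * η * (y / m) ≤ C₂ * |B| * η * (y / m) := by gcongr; exact le_abs_self B
      refine le_add_of_le_of_nonneg ?_ (by positivity)
      calc _ ≤ r m * (C₂ * |B| * η * (y / m)) := by
            refine mul_le_mul_of_nonneg_left (le_trans ?_ (a1.trans a2)) hrm
            refine Finset.sum_le_sum_of_subset_of_nonneg (fun q hq' => ?_) fun q _ _ => hnn q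
            exact Finset.mem_filter.2 ⟨Finset.mem_Ioc.2 ⟨(Nat.floor_lt (by positivity)).2
              (hq q hq').1, Nat.le_floor (hq q hq').2⟩, (Finset.mem_filter.1 hq').2.1⟩
        _ = _ := by ring
    · have a1 := hch B r hr (2 * z) (by linarith)
      have a2 : C₁ * B * √(2 * z) ≤ C₁ * |B| * √(2 * z) := by gcongr; exact le_abs_self B
      have a3 : ∑ q ∈ (Finset.Icc 1 ⌊2 * z⌋₊).filter IsPrimePow, r q * Real.log q ≤ A := by
        calc _ ≤ ∑ q ∈ (Finset.Icc 1 ⌊2 * z⌋₊).filter IsPrimePow,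
              r q * Real.log q / √q * √(2 * z) := by
              refine Finset.sum_le_sum fun q hq' => ?_
              have b := Finset.mem_Icc.1 (Finset.mem_filter.1 hq').1
              have b1 : (0 : ℝ) < q := by exact_mod_cast b.1
              have b2 : (q : ℝ) ≤ 2 * z := (Nat.le_floor_iff (by positivity)).1 b.2
              rw [div_mul_eq_mul_div, le_div_iff₀ (Real.sqrt_pos.2 b1)]
              exact mul_le_mul_of_nonneg_left (Real.sqrt_le_sqrt b2) (hnn q)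
          _ ≤ C₁ * |B| * √(2 * z) * √(2 * z) := by
              rw [← Finset.sum_mul]
              exact mul_le_mul_of_nonneg_right (a1.trans a2) (Real.sqrt_nonneg _)
          _ = A := by rw [mul_assoc, Real.mul_self_sqrt (by positivity), hA]
      refine le_add_of_nonneg_of_le (by positivity) ?_
      calc _ ≤ r m * A := by
            refine mul_le_mul_of_nonneg_left (le_trans ?_ a3) hrm
            refine Finset.sum_le_sum_of_subset_of_nonneg (fun q hq' => ?_) fun q _ _ => hnn q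
            have b := Finset.mem_filter.1 hq'
            refine Finset.mem_filter.2 ⟨Finset.mem_Icc.2 ⟨(Finset.mem_Icc.1 b.1).1,
              Nat.le_floor ((hq q hq').2.trans ?_)⟩, b.2.1⟩
            exact mul_le_mul (by linarith) h (by positivity) (by norm_num)
        _ = A * √m * (r m / √m) := by
            have := Real.sqrt_pos.2 hm0
            field_simp
        _ ≤ _ := by gcongr
  have h3 := h1.trans (Finset.sum_le_sum h2)
  rw [Finset.sum_add_distrib, ← Finset.mul_sum, ← Finset.mul_sum] at h3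
  have h4 := hlong r hr (2 * y) (by linarith)
  have hl := ht_lm_nonneg hr.nonneg (2 * y)
  have hlog : 0 < Real.log (2 * y) := Real.log_pos (by linarith)
  have h5 : 2 * A * C₃ / η ≤ Real.log (2 * y) :=
    (Real.le_log_iff_exp_le (by positivity)).2 (((le_max_right _ _).trans hy).trans (by linarith))
  have h6 : A * √(2 * y) * (C₃ * √(2 * y) * lm r (2 * y) / Real.log (2 * y)) ≤
      η * y * lm r (2 * y) := by
    have e : A * √(2 * y) * (C₃ * √(2 * y) * lm r (2 * y) / Real.log (2 * y)) =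
        2 * A * C₃ / Real.log (2 * y) * y * lm r (2 * y) := by
      field_simp
      rw [Real.sq_sqrt (by positivity)]
      ring
    rw [e]
    gcongr
    rw [div_le_iff₀ hlog]
    rw [div_le_iff₀ hη] at h5
    linarith
  have h7 := (mul_le_mul_of_nonneg_left h4 (by positivity : 0 ≤ A * √(2 * y))).trans h6
  rw [le_div_iff₀ (Real.log_pos (by linarith)), Finset.sum_mul]
  refine (Finset.sum_le_sum fun k hk => mul_le_mul_of_nonneg_left
    (Real.log_le_log hy0 (hS k hk).1.le) (hr.nonneg k)).trans (h3.trans ?_)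
  rw [lm] at h7 ⊢
  linarith

end Vale.Agent.P007A
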