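import Vale.Agent.P007A.HaarA
import Vale.Agent.P007A.Sg
import Vale.Agent.P007A.FD

/-! Existence of the invariant probability measure. -/

namespace Vale.Agent.P007A

open Vale.Agent.P007 Matrix MeasureTheory Filter Topology NumberField
open scoped ENNReal nonZeroDivisors Classical

variable {n m : ℕ}

theorem haar_mp_left {A : Matrix (Fin n) (Fin n) ℝ} (h : |A.det| = 1) :
    MeasurePreserving (fun (B : Fin n → Fin n → ℝ) => fun i j => (A * Matrix.of B) i j)
      volume volume := by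
  let T : (Fin n → Fin n → ℝ) →ₗ[ℝ] (Fin n → Fin n → ℝ) :=
    { toFun := fun B i j => B j i
      map_add' := fun _ _ => rfl
      map_smul' := fun _ _ => rfl }
  have hT : MeasurePreserving T volume volume := by
    refine haara_mp volume T ?_
    have h1 : LinearMap.det T * LinearMap.det T = 1 := by
      rw [← LinearMap.det_comp, show T ∘ₗ T = LinearMap.id from rfl, LinearMap.det_id]
    rcases mul_self_eq_one_iff.1 h1 with h2 | h2 <;> rw [h2] <;> simp
  have h1 := hT.comp ((haara_mp_right (m := n) (N := Aᵀ) (by rw [det_transpose, h])).comp hT)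
  have h2 : (fun (B : Fin n → Fin n → ℝ) => fun i j => (A * Matrix.of B) i j) =
      T ∘ (fun (B : Fin n → Fin n → ℝ) i => B i ᵥ* Aᵀ) ∘ T := by
    funext B i j
    show ∑ k, A i k * B k j = ∑ k, B k j * A i k
    exact Finset.sum_congr rfl fun k _ => mul_comm _ _
  rw [h2]
  exact h1

theorem haar_scale {B : Matrix (Fin (m + 1)) (Fin (m + 1)) ℝ} (h : 0 < B.det) :
    ((B.det ^ (-((m : ℝ) + 1)⁻¹)) • B).det = 1 := by
  rw [det_smul, Fintype.card_fin, ← Real.rpow_natCast, ← Real.rpow_mul h.le]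
  have h1 : -((m : ℝ) + 1)⁻¹ * ((m + 1 : ℕ) : ℝ) = -1 := by
    push_cast
    field_simp
  rw [h1, Real.rpow_neg_one, inv_mul_cancel₀ h.ne']

/-- The projection from matrices of positive determinant to the special linear group. -/
noncomputable def haarPi (B : Fin (m + 1) → Fin (m + 1) → ℝ) : G (m + 1) :=
  if h : 0 < (Matrix.of B).det then
    ⟨((Matrix.of B).det ^ (-((m : ℝ) + 1)⁻¹)) • Matrix.of B, haar_scale h⟩ else 1

theorem haarPi_val {B : Fin (m + 1) → Fin (m + 1) → ℝ} (h : 0 < (Matrix.of B).det) :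
    (haarPi B).1 = ((Matrix.of B).det ^ (-((m : ℝ) + 1)⁻¹)) • Matrix.of B :=
  congrArg (fun g : G (m + 1) => g.1) (dif_pos h : haarPi B = _)

theorem haar_coe_mul (a b : G n) : (a * b).1 = a.1 * b.1 := rfl

theorem haar_coe_one : (1 : G n).1 = 1 := rfl

theorem haar_cont_det : Continuous fun B : Fin n → Fin n → ℝ => (Matrix.of B).det :=
  Continuous.matrix_det continuous_id

theorem haarPi_meas : @Measurable _ _ _ (borel (G (m + 1))) (haarPi (m := m)) := by
  borelize (G (m + 1))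
  have hU : IsOpen {B : Fin (m + 1) → Fin (m + 1) → ℝ | 0 < (Matrix.of B).det} :=
    isOpen_lt continuous_const haar_cont_det
  rw [← Set.piecewise_same {B : Fin (m + 1) → Fin (m + 1) → ℝ | 0 < (Matrix.of B).det} haarPi]
  refine ContinuousOn.measurable_piecewise ?_ ?_ hU.measurableSet
  · refine (Topology.IsInducing.subtypeVal.continuousOn_iff).2 ?_
    refine ContinuousOn.congr (f := fun B : Fin (m + 1) → Fin (m + 1) → ℝ =>
      ((Matrix.of B).det ^ (-((m : ℝ) + 1)⁻¹)) • Matrix.of B) ?_ fun B hB => haarPi_val hB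
    exact (haar_cont_det.continuousOn.rpow_const fun B hB => Or.inl (ne_of_gt hB)).smul
      continuousOn_id
  · exact (continuousOn_const (c := 1)).congr fun B hB => dif_neg hB

/-- Left multiplication. -/
def haarL (A : Matrix (Fin n) (Fin n) ℝ) (B : Fin n → Fin n → ℝ) : Fin n → Fin n → ℝ :=
  fun i j => (A * Matrix.of B) i j

/-- Right multiplication. -/
def haarR (A : Matrix (Fin n) (Fin n) ℝ) (B : Fin n → Fin n → ℝ) : Fin n → Fin n → ℝ :=
  fun i => B i ᵥ* A

theorem haarL_of (A : Matrix (Fin n) (Fin n) ℝ) (B : Fin n → Fin n → ℝ) :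
    Matrix.of (haarL A B) = A * Matrix.of B := rfl

theorem haarR_of (A : Matrix (Fin n) (Fin n) ℝ) (B : Fin n → Fin n → ℝ) :
    Matrix.of (haarR A B) = Matrix.of B * A := rfl

theorem haarL_det (a : G n) (B : Fin n → Fin n → ℝ) :
    (Matrix.of (haarL a.1 B)).det = (Matrix.of B).det := by
  rw [haarL_of, det_mul, a.2, one_mul]

theorem haarR_det (a : G n) (B : Fin n → Fin n → ℝ) :
    (Matrix.of (haarR a.1 B)).det = (Matrix.of B).det := by
  rw [haarR_of, det_mul, a.2, mul_one]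

theorem haarL_mul (A A' : Matrix (Fin n) (Fin n) ℝ) (B : Fin n → Fin n → ℝ) :
    haarL A (haarL A' B) = haarL (A * A') B := by
  apply Matrix.of.injective
  rw [haarL_of, haarL_of, haarL_of, Matrix.mul_assoc]

theorem haarL_one (B : Fin n → Fin n → ℝ) : haarL 1 B = B := by
  apply Matrix.of.injective
  rw [haarL_of, Matrix.one_mul]

theorem haarL_mp (a : G n) : MeasurePreserving (haarL a.1) volume volume :=
  haar_mp_left (by rw [a.2, abs_one])

theorem haarR_mp (a : G n) : MeasurePreserving (haarR a.1) volume volume :=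
  haara_mp_right (by rw [a.2, abs_one])

theorem haarPi_L (a : G (m + 1)) {B : Fin (m + 1) → Fin (m + 1) → ℝ}
    (h : 0 < (Matrix.of B).det) : haarPi (haarL a.1 B) = a * haarPi B := by
  apply Subtype.ext
  rw [haarPi_val (by rwa [haarL_det]), haarL_det, haarL_of, haar_coe_mul,
    haarPi_val h, Matrix.mul_smul]

theorem haarPi_R (a : G (m + 1)) {B : Fin (m + 1) → Fin (m + 1) → ℝ}
    (h : 0 < (Matrix.of B).det) : haarPi (haarR a.1 B) = haarPi B * a := by
  apply Subtype.ext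
  rw [haarPi_val (by rwa [haarR_det]), haarR_det, haarR_of, haar_coe_mul,
    haarPi_val h, Matrix.smul_mul]

theorem haar_mk_eq {g h : G n} : mk g = mk h ↔ ∃ γ : Gam n, γ.1 * h = g := Quotient.eq

theorem haar_countable : Countable (Gam n) := by
  have : Countable (SpecialLinearGroup (Fin n) ℤ) :=
    inferInstanceAs (Countable {A : Fin n → Fin n → ℤ // (Matrix.of A).det = 1})
  exact (Set.countable_range _).to_subtype

/-- The cone over a subset of the group. -/
def haarCone (D : Set (G (m + 1))) : Set (Fin (m + 1) → Fin (m + 1) → ℝ) :=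
  {B | (0 < (Matrix.of B).det ∧ (Matrix.of B).det ≤ 1) ∧ haarPi B ∈ D}

theorem haarCone_meas {D : Set (G (m + 1))} (hD : @MeasurableSet _ (borel _) D) :
    MeasurableSet (haarCone D) :=
  (haar_cont_det.measurable measurableSet_Ioc).inter (haarPi_meas hD)

theorem haar_key {D : Set (G (m + 1))} (hD : @MeasurableSet _ (borel _) D) (hi : Set.InjOn mk D)
    {E : Set (Fin (m + 1) → Fin (m + 1) → ℝ)} (hE : MeasurableSet E)
    (h : ∀ B ∈ haarCone D, ∃ γ : Gam (m + 1), haarL γ.1.1 B ∈ E) :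
    volume (haarCone D) ≤ volume E := by
  have := haar_countable (n := m + 1)
  have hC := haarCone_meas hD
  have h1 : haarCone D ⊆ ⋃ γ : Gam (m + 1), haarCone D ∩ haarL γ.1.1 ⁻¹' E := fun B hB => by
    obtain ⟨γ, hγ⟩ := h B hB
    exact Set.mem_iUnion.2 ⟨γ, hB, hγ⟩
  have h2 : ∀ γ : Gam (m + 1), volume (haarCone D ∩ haarL γ.1.1 ⁻¹' E) =
      volume (haarL (γ.1⁻¹).1 ⁻¹' haarCone D ∩ E) := by
    intro γ
    rw [← (haarL_mp γ.1⁻¹).measure_preimage
      (hC.inter ((haarL_mp γ.1).measurable hE)).nullMeasurableSet, Set.preimage_inter]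
    congr 2
    ext B
    rw [Set.mem_preimage, Set.mem_preimage, haarL_mul, ← haar_coe_mul,
      mul_inv_cancel, haar_coe_one, haarL_one]
  refine (measure_mono h1).trans ((measure_iUnion_le _).trans ?_)
  simp only [h2]
  rw [← measure_iUnion]
  · exact measure_mono (Set.iUnion_subset fun _ => Set.inter_subset_right)
  · intro γ γ' hne
    refine Set.disjoint_left.2 fun B hB hB' => hne ?_
    have hd : 0 < (Matrix.of B).det := by
      have := hB.1.1.1
      rwa [haarL_det] at this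
    have e1 : γ.1⁻¹ * haarPi B ∈ D := haarPi_L γ.1⁻¹ hd ▸ hB.1.2
    have e2 : γ'.1⁻¹ * haarPi B ∈ D := haarPi_L γ'.1⁻¹ hd ▸ hB'.1.2
    have e3 := hi e1 e2 ((haar_mk_eq.2 ⟨γ⁻¹, rfl⟩).trans (haar_mk_eq.2 ⟨γ'⁻¹, rfl⟩).symm)
    exact Subtype.ext (inv_injective (mul_right_cancel e3))
  · exact fun γ => ((haarL_mp γ.1⁻¹).measurable hC).inter hE

theorem haar_cover {D : Set (G (m + 1))} (hs : Set.SurjOn mk D (Set.range mk))
    {B : Fin (m + 1) → Fin (m + 1) → ℝ} (h0 : 0 < (Matrix.of B).det)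
    (h1 : (Matrix.of B).det ≤ 1) : ∃ γ : Gam (m + 1), haarL γ.1.1 B ∈ haarCone D ∧
      mk (haarPi (haarL γ.1.1 B)) = mk (haarPi B) := by
  obtain ⟨d, hd, hdB⟩ := hs ⟨haarPi B, rfl⟩
  obtain ⟨γ, hγ⟩ := haar_mk_eq.1 hdB
  refine ⟨γ, ⟨by rw [haarL_det]; exact ⟨h0, h1⟩, ?_⟩, ?_⟩
  · rw [haarPi_L _ h0, hγ]; exact hd
  · rw [haarPi_L _ h0, hγ]; exact hdB

theorem haar_indep {D D' : Set (G (m + 1))} (hD : @MeasurableSet _ (borel _) D)
    (hD' : @MeasurableSet _ (borel _) D') (hi : Set.InjOn mk D)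
    (hs : Set.SurjOn mk D' (Set.range mk)) {S : Set (X (m + 1))} (hS : MeasurableSet S) :
    volume (haarCone (D ∩ mk ⁻¹' S)) ≤ volume (haarCone (D' ∩ mk ⁻¹' S)) := by
  borelize (G (m + 1))
  have hm : MeasurableSet (mk ⁻¹' S : Set (G (m + 1))) := mk_open.continuous.measurable hS
  refine haar_key (hD.inter hm) (hi.mono Set.inter_subset_left) (haarCone_meas (hD'.inter hm))
    fun B hB => ?_
  obtain ⟨γ, h1, h2⟩ := haar_cover hs hB.1.1 hB.1.2
  exact ⟨γ, h1.1, h1.2, by rw [Set.mem_preimage, h2]; exact hB.2.2⟩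

theorem haar_fin {D : Set (G (m + 1))} (hD : @MeasurableSet _ (borel _) D)
    (hi : Set.InjOn mk D) : volume (haarCone D) ≠ ∞ := by
  obtain ⟨Ω, hΩ, hfin, horb⟩ := exists_omega (m + 1)
  obtain ⟨J, hJ⟩ : ∃ J : Matrix (Fin (m + 1)) (Fin (m + 1)) ℤ,
    J = diagonal (Fin.cons (-1) fun _ => 1) := ⟨_, rfl⟩
  have hJd : J.det = -1 := by
    rw [hJ, det_diagonal, Fin.prod_univ_succ]
    simp
  have hJ2 : J * J = 1 := by
    rw [hJ, diagonal_mul_diagonal, ← diagonal_one]
    congr 1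
    funext i
    refine Fin.cases ?_ (fun i => ?_) i <;> simp
  have hmp : MeasurePreserving (haarL (J.map (Int.castRingHom ℝ))) volume volume :=
    haar_mp_left (haara_abs_det (by rw [hJd]; exact isUnit_one.neg))
  refine ne_top_of_le_ne_top ?_ (haar_key hD hi (hΩ.union (hmp.measurable hΩ)) fun B hB => ?_)
  · refine ne_top_of_le_ne_top ?_ (measure_union_le _ _)
    rw [hmp.measure_preimage hΩ.nullMeasurableSet]
    exact ENNReal.add_ne_top.2 ⟨hfin, hfin⟩
  · obtain ⟨M, hM, hMB⟩ := horb (Matrix.of B) hB.1.1.ne' (by rw [abs_of_pos hB.1.1]; exact hB.1.2)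
    rcases Int.isUnit_iff.1 hM with h | h
    · exact ⟨⟨_, ⟨M, h⟩, rfl⟩, Or.inl hMB⟩
    · refine ⟨⟨_, ⟨J * M, by rw [det_mul, hJd, h]; norm_num⟩, rfl⟩, Or.inr ?_⟩
      show haarL _ (haarL ((J * M).map (Int.castRingHom ℝ)) B) ∈ Ω
      rw [haarL_mul, ← Matrix.map_mul, ← Matrix.mul_assoc, hJ2, Matrix.one_mul]
      exact hMB

theorem haar_ne_zero {D : Set (G (m + 1))} (hD : @MeasurableSet _ (borel _) D)
    (hs : Set.SurjOn mk D (Set.range mk)) : volume (haarCone D) ≠ 0 := by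
  have := haar_countable (n := m + 1)
  intro h0
  have hU : IsOpen ((fun B : Fin (m + 1) → Fin (m + 1) → ℝ => (Matrix.of B).det) ⁻¹'
      Set.Ioo 0 1) := isOpen_Ioo.preimage haar_cont_det
  have hne : ((fun B : Fin (m + 1) → Fin (m + 1) → ℝ => (Matrix.of B).det) ⁻¹'
      Set.Ioo 0 1).Nonempty := by
    refine ⟨fun i j => (diagonal (Fin.cons (1 / 2) fun _ => 1) : Matrix _ _ ℝ) i j, ?_⟩
    show (diagonal (Fin.cons (1 / 2) fun _ => 1) : Matrix (Fin (m + 1)) (Fin (m + 1)) ℝ).det ∈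
      Set.Ioo (0 : ℝ) 1
    rw [det_diagonal, Fin.prod_univ_succ]
    norm_num
  refine (hU.measure_pos volume hne).ne' (measure_mono_null
    (t := ⋃ γ : Gam (m + 1), haarL γ.1.1 ⁻¹' haarCone D) (fun B hB => ?_)
    (measure_iUnion_null fun γ => ?_))
  · obtain ⟨γ, h1, -⟩ := haar_cover hs hB.1 hB.2.le
    exact Set.mem_iUnion.2 ⟨γ, h1⟩
  · rw [(haarL_mp γ.1).measure_preimage (haarCone_meas hD).nullMeasurableSet, h0]

theorem exists_haar (m : ℕ) : ∃ ν : Measure (X (m + 1)), IsHaarProb ν := by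
  borelize (G (m + 1))
  obtain ⟨D, hD, hb⟩ := exists_fd (mk : G (m + 1) → X (m + 1)) mk_locally_inj
    fun U hU => (mk_open.isOpenMap U hU).preimage mk_open.continuous
  have hmk : Measurable (mk : G (m + 1) → X (m + 1)) := mk_open.continuous.measurable
  have hπ : Measurable fun B => mk (haarPi (m := m) B) := hmk.comp haarPi_meas
  obtain ⟨ν, hν⟩ : ∃ ν : Measure (X (m + 1)),
    ν = (volume.restrict (haarCone D)).map fun B => mk (haarPi B) := ⟨_, rfl⟩
  have h1 : ∀ S, MeasurableSet S → ν S = volume (haarCone (D ∩ mk ⁻¹' S)) := by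
    intro S hS
    rw [hν, Measure.map_apply hπ hS, Measure.restrict_apply (hπ hS)]
    congr 1
    ext B
    exact ⟨fun h => ⟨h.2.1, h.2.2, h.1⟩, fun h => ⟨h.2.2, h.1, h.2.1⟩⟩
  have h2 : ν Set.univ = volume (haarCone D) := by
    rw [h1 _ MeasurableSet.univ, Set.preimage_univ, Set.inter_univ]
  have h3 : ∀ a : G (m + 1), ν.map (act a) = ν := by
    intro a
    ext S hS
    have hD' : MeasurableSet ((fun g => g * a⁻¹) ⁻¹' D) :=
      (continuous_id.mul continuous_const).measurable hD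
    have hi' : Set.InjOn mk ((fun g => g * a⁻¹) ⁻¹' D) := fun g hg g' hg' h =>
      mul_right_cancel (hb.injOn hg hg' (congrArg (act a⁻¹) h))
    have hs' : Set.SurjOn mk ((fun g => g * a⁻¹) ⁻¹' D) (Set.range mk) := by
      rintro _ ⟨g, rfl⟩
      obtain ⟨d, hd, h⟩ := hb.surjOn ⟨g * a⁻¹, rfl⟩
      refine ⟨d * a, ?_, ?_⟩
      · show d * a * a⁻¹ ∈ D
        rwa [mul_inv_cancel_right]
      · have h4 := congrArg (act a) h
        rwa [act_mk, act_mk, inv_mul_cancel_right] at h4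
    have hS' : MeasurableSet (act a ⁻¹' S) := (act_cont a).measurable hS
    rw [Measure.map_apply (act_cont a).measurable hS, h1 _ hS', h1 _ hS,
      le_antisymm (haar_indep hD hD' hb.injOn hs' hS) (haar_indep hD' hD hi' hb.surjOn hS),
      ← (haarR_mp a).measure_preimage (haarCone_meas (hD'.inter (hmk hS))).nullMeasurableSet]
    congr 1
    ext B
    show _ ↔ (0 < (Matrix.of (haarR a.1 B)).det ∧ (Matrix.of (haarR a.1 B)).det ≤ 1) ∧
      haarPi (haarR a.1 B) * a⁻¹ ∈ D ∧ mk (haarPi (haarR a.1 B)) ∈ S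
    rw [haarR_det]
    refine and_congr_right fun h => ?_
    rw [haarPi_R a h.1, mul_inv_cancel_right]
    exact Iff.rfl
  refine ⟨(ν Set.univ)⁻¹ • ν, ⟨?_⟩, fun a => ?_⟩
  · rw [Measure.smul_apply, smul_eq_mul, h2]
    exact ENNReal.inv_mul_cancel (haar_ne_zero hD hb.surjOn) (haar_fin hD hb.injOn)
  · rw [Measure.map_smul, h3]

end Vale.Agent.P007A
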