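import Vale.Agent.P007A.Mahler

/-! A set of finite volume that meets all integral orbits of matrices. -/

namespace Vale.Agent.P007A

open Vale.Agent.P007 Matrix MeasureTheory Filter Topology NumberField
open scoped ENNReal nonZeroDivisors Classical

variable {n m : ℕ}

theorem haara_mp {E : Type*} [NormedAddCommGroup E] [NormedSpace ℝ E] [FiniteDimensional ℝ E]
    [MeasurableSpace E] [BorelSpace E] (μ : Measure E) [μ.IsAddHaarMeasure] (f : E →ₗ[ℝ] E)
    (h : |LinearMap.det f| = 1) : MeasurePreserving f μ μ := by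
  refine ⟨f.continuous_of_finiteDimensional.measurable, ?_⟩
  have h0 : LinearMap.det f ≠ 0 := by
    intro h0
    rw [h0, abs_zero] at h
    exact zero_ne_one h
  rw [Measure.map_linearMap_addHaar_eq_smul_addHaar μ h0, abs_inv, h, inv_one, ENNReal.ofReal_one,
    one_smul]

theorem haara_mp_vecMul {N : Matrix (Fin n) (Fin n) ℝ} (h : |N.det| = 1) :
    MeasurePreserving (fun r : Fin n → ℝ => r ᵥ* N) volume volume := by
  have h1 := haara_mp volume (Matrix.toLin' Nᵀ) (by rw [LinearMap.det_toLin', det_transpose, h])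
  have h2 : (fun r : Fin n → ℝ => r ᵥ* N) = Matrix.toLin' Nᵀ := by
    funext r
    rw [Matrix.toLin'_apply, mulVec_transpose]
  rw [h2]
  exact h1

theorem haara_mp_right {N : Matrix (Fin n) (Fin n) ℝ} (h : |N.det| = 1) :
    MeasurePreserving (fun (B : Fin m → Fin n → ℝ) i => B i ᵥ* N) volume volume :=
  volume_preserving_pi fun _ => haara_mp_vecMul h

/-- A measurable family of matrices of determinant of absolute value one that move `v` to `e₀`. -/
theorem haara_house (n : ℕ) : ∃ N : (Fin (n + 2) → ℝ) → Matrix (Fin (n + 2)) (Fin (n + 2)) ℝ,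
    (∀ i j, Measurable fun v => N v i j) ∧
      ∀ v, v ≠ 0 → v ᵥ* N v = Pi.single 0 1 ∧ |(N v).det| = 1 := by
  let s : (Fin (n + 2) → ℝ) → ℝ := fun v => √(v ⬝ᵥ v)
  let w : (Fin (n + 2) → ℝ) → Fin (n + 2) → ℝ := fun v => v - s v • Pi.single 0 1
  let d : (Fin (n + 2) → ℝ) → Fin (n + 2) → ℝ := fun v =>
    Fin.cons (s v)⁻¹ (Fin.cons (s v) fun _ => 1)
  have hs : Measurable s := (continuous_id.dotProduct continuous_id).sqrt.measurable
  have hw : Continuous w := continuous_id.sub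
    ((continuous_id.dotProduct continuous_id).sqrt.smul continuous_const)
  refine ⟨fun v => (1 + vecMulVec (-(2 / (w v ⬝ᵥ w v)) • w v) (w v)) * diagonal (d v),
    fun i j => ?_, fun v hv => ?_⟩
  · simp only [mul_diagonal, Matrix.add_apply, vecMulVec_apply, Pi.smul_apply, smul_eq_mul]
    have h1 : ∀ i, Measurable fun v => w v i := fun i =>
      ((continuous_apply i).comp hw).measurable
    have h2 : Measurable fun v => w v ⬝ᵥ w v := (hw.dotProduct hw).measurable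
    have h3 : Measurable fun v => d v j := by
      refine Fin.cases ?_ (fun j => Fin.cases ?_ (fun j => ?_) j) j
      · exact hs.inv
      · exact hs
      · exact measurable_const
    exact (measurable_const.add (((measurable_const.div h2).neg.mul (h1 i)).mul (h1 j))).mul h3
  · have h0 : 0 < v ⬝ᵥ v := lt_of_le_of_ne (Finset.sum_nonneg fun i _ => mul_self_nonneg _)
      fun h => hv (dotProduct_self_eq_zero.1 h.symm)
    have hs0 : 0 < s v := Real.sqrt_pos.2 h0
    have hs2 : s v * s v = v ⬝ᵥ v := Real.mul_self_sqrt h0.le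
    have hww : w v ⬝ᵥ w v = 2 * (v ⬝ᵥ w v) := by
      simp only [w, sub_dotProduct, dotProduct_sub, smul_dotProduct, dotProduct_smul,
        single_dotProduct, dotProduct_single, smul_eq_mul, Pi.single_eq_same, Pi.sub_apply,
        Pi.smul_apply]
      linarith
    constructor
    · have h1 : v ᵥ* (1 + vecMulVec (-(2 / (w v ⬝ᵥ w v)) • w v) (w v)) = s v • Pi.single 0 1 := by
        rw [vecMul_add, vecMul_one, vecMul_vecMulVec, dotProduct_smul, smul_eq_mul]
        by_cases h : w v ⬝ᵥ w v = 0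
        · have h2 : w v = 0 := dotProduct_self_eq_zero.1 h
          rw [h2, smul_zero, add_zero]
          exact sub_eq_zero.1 h2
        · have h2 : -(2 / (w v ⬝ᵥ w v)) * (v ⬝ᵥ w v) = -1 := by
            field_simp
            linarith
          rw [h2, neg_one_smul]
          simp [w]
      rw [← vecMul_vecMul, h1]
      funext j
      rw [vecMul_diagonal]
      refine Fin.cases ?_ (fun j => ?_) j
      · simp [d, hs0.ne']
      · simp
    · rw [det_mul, det_diagonal, vecMulVec_eq Unit, det_one_add_replicateCol_mul_replicateRow,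
        dotProduct_smul, smul_eq_mul, Fin.prod_univ_succ, Fin.prod_univ_succ]
      have h1 : d v 0 * (d v (Fin.succ 0) * ∏ i : Fin n, d v i.succ.succ) = 1 := by
        simp only [d, Fin.cons_zero, Fin.cons_succ, Finset.prod_const_one, mul_one]
        exact inv_mul_cancel₀ hs0.ne'
      rw [h1, mul_one]
      by_cases h : w v ⬝ᵥ w v = 0
      · rw [h]; simp
      · rw [neg_mul, div_mul_cancel₀ _ h]; norm_num

/-- Every nonzero integral vector is a multiple of the first row of a unimodular matrix. -/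
theorem haara_prim {k : Fin (n + 1) → ℤ} (hk : k ≠ 0) :
    ∃ M : Matrix (Fin (n + 1)) (Fin (n + 1)) ℤ, IsUnit M.det ∧ ∃ g : ℤ, k = g • M 0 := by
  obtain ⟨r, snf⟩ := Submodule.smithNormalForm (Pi.basisFun ℤ (Fin (n + 1)))
    (Submodule.span ℤ {k})
  have hne : Nonempty (Fin r) := by
    by_contra h
    rw [not_nonempty_iff] at h
    have h1 := snf.bN.sum_repr ⟨k, Submodule.mem_span_singleton_self k⟩
    rw [Finset.sum_of_isEmpty] at h1
    exact hk (congrArg Subtype.val h1).symm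
  obtain ⟨i⟩ := hne
  obtain ⟨t, ht⟩ := Submodule.mem_span_singleton.1 (snf.bN i).2
  have ht0 : t ≠ 0 := by
    rintro rfl
    rw [zero_smul] at ht
    exact snf.bN.ne_zero i (Subtype.ext ht.symm)
  refine ⟨Matrix.of (snf.bM.reindex (Equiv.swap 0 (snf.f i))), ?_, snf.bM.repr k (snf.f i), ?_⟩
  · rw [← Pi.basisFun_det_apply]
    exact Module.Basis.isUnit_det _ _
  · have h1 : Matrix.of (snf.bM.reindex (Equiv.swap 0 (snf.f i))) 0 = snf.bM (snf.f i) := by
      show snf.bM.reindex (Equiv.swap 0 (snf.f i)) 0 = _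
      rw [Module.Basis.reindex_apply, Equiv.symm_swap, Equiv.swap_apply_left]
    rw [h1]
    conv_lhs => rw [← snf.bM.sum_repr k]
    refine Finset.sum_eq_single _ (fun j _ hj => ?_) (by simp)
    have h2 := congrArg (fun x => snf.bM.repr x j) (ht.trans (snf.snf i))
    simp only [map_smul, Finsupp.smul_apply, smul_eq_mul, Module.Basis.repr_self,
      Finsupp.single_eq_of_ne hj, mul_zero] at h2
    rw [(mul_eq_zero.1 h2).resolve_left ht0, zero_smul]

/-- A unimodular change of basis makes the first row short. -/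
theorem haara_short (B : Matrix (Fin (n + 1)) (Fin (n + 1)) ℝ) (h0 : B.det ≠ 0)
    (h1 : |B.det| ≤ 1) : ∃ M : Matrix (Fin (n + 1)) (Fin (n + 1)) ℤ, IsUnit M.det ∧
      ‖(M.map (Int.castRingHom ℝ) * B) 0‖ ≤ 1 := by
  have hd : 0 < |B.det| := abs_pos.2 h0
  obtain ⟨x, hx⟩ := exists_lat (B := B * diagonal (Fin.cons |B.det|⁻¹ fun _ => 1)) (by
    rw [det_mul, det_diagonal, Fin.prod_univ_succ]
    simp only [Fin.cons_zero, Fin.cons_succ, Finset.prod_const_one, mul_one]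
    rw [abs_mul, abs_inv, abs_abs, mul_inv_cancel₀ hd.ne'])
  obtain ⟨v, hv, hv0, hv1⟩ := minkowski_box x (a := fun _ => 1) (fun _ => one_pos) (by simp)
  rw [hx] at hv
  obtain ⟨k, rfl⟩ := hv
  have hk : k ≠ 0 := by
    rintro rfl
    apply hv0
    have : (fun i : Fin (n + 1) => (((0 : Fin (n + 1) → ℤ) i : ℤ) : ℝ)) = 0 := by
      funext i; simp
    rw [this, zero_vecMul]
  have h2 : ‖(fun i => (k i : ℝ)) ᵥ* B‖ ≤ 1 := by
    refine (pi_norm_le_iff_of_nonneg zero_le_one).2 fun j => ?_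
    have h3 := hv1 j
    rw [← vecMul_vecMul, vecMul_diagonal] at h3
    rw [Real.norm_eq_abs]
    revert h3
    refine Fin.cases (fun h3 => ?_) (fun j h3 => ?_) j
    · rw [Fin.cons_zero, abs_mul, abs_inv, abs_abs, ← div_eq_mul_inv, div_le_iff₀ hd] at h3
      linarith
    · simpa using h3
  obtain ⟨M, hM, g, hg⟩ := haara_prim hk
  refine ⟨M, hM, ?_⟩
  have hg0 : g ≠ 0 := by
    rintro rfl
    exact hk (by rw [hg, zero_smul])
  have h3 : (fun i => (k i : ℝ)) ᵥ* B = (g : ℝ) • (M.map (Int.castRingHom ℝ) * B) 0 := by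
    have h4 : (fun i => (k i : ℝ)) = (g : ℝ) • M.map (Int.castRingHom ℝ) 0 := by
      funext i
      rw [hg]
      simp
    rw [h4, smul_vecMul]
    rfl
  rw [h3, norm_smul, Real.norm_eq_abs] at h2
  have h4 : (1 : ℝ) ≤ |(g : ℝ)| := by exact_mod_cast Int.one_le_abs hg0
  nlinarith [norm_nonneg ((M.map (Int.castRingHom ℝ) * B) 0)]

theorem haara_det_row {R : Type*} [CommRing R] (A : Matrix (Fin (n + 1)) (Fin (n + 1)) R)
    (h : A 0 = Pi.single 0 1) : A.det = (A.submatrix Fin.succ Fin.succ).det := by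
  rw [det_succ_row_zero, Fin.sum_univ_succ, h]
  simp

theorem haara_abs_det {M : Matrix (Fin n) (Fin n) ℤ} (h : IsUnit M.det) :
    |(M.map (Int.castRingHom ℝ)).det| = 1 := by
  have h1 : (M.map (Int.castRingHom ℝ)).det = (M.det : ℝ) :=
    (RingHom.map_det (Int.castRingHom ℝ) M).symm
  rw [h1]
  rcases Int.isUnit_iff.1 h with h | h <;> rw [h] <;> simp

theorem haara_vol {Ω : Set (Fin (n + 1) → Fin (n + 1) → ℝ)} (hΩ : MeasurableSet Ω) :
    MeasurableSet {R : Fin (n + 1) → Fin (n + 2) → ℝ |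
      (∀ i, R i 0 ∈ Set.Ico (0 : ℝ) 1) ∧ (fun i k => R i (Fin.succ k)) ∈ Ω} ∧
    volume {R : Fin (n + 1) → Fin (n + 2) → ℝ |
      (∀ i, R i 0 ∈ Set.Ico (0 : ℝ) 1) ∧ (fun i k => R i (Fin.succ k)) ∈ Ω} = volume Ω := by
  have h1 := (volume_measurePreserving_arrowProdEquivProdArrow ℝ (Fin (n + 1) → ℝ)
    (Fin (n + 1))).comp (volume_preserving_pi (ι := Fin (n + 1)) fun _ =>
      volume_preserving_piFinSuccAbove (fun _ : Fin (n + 2) => ℝ) 0)
  have h2 : MeasurableSet ((Set.univ.pi fun _ : Fin (n + 1) => Set.Ico (0 : ℝ) 1) ×ˢ Ω) :=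
    (MeasurableSet.univ_pi fun _ => measurableSet_Ico).prod hΩ
  have h3 : {R : Fin (n + 1) → Fin (n + 2) → ℝ |
      (∀ i, R i 0 ∈ Set.Ico (0 : ℝ) 1) ∧ (fun i k => R i (Fin.succ k)) ∈ Ω} =
      (MeasurableEquiv.arrowProdEquivProdArrow ℝ (Fin (n + 1) → ℝ) (Fin (n + 1)) ∘
        fun (a : Fin (n + 1) → Fin (n + 2) → ℝ) i =>
          MeasurableEquiv.piFinSuccAbove (fun _ : Fin (n + 2) => ℝ) 0 (a i)) ⁻¹'
        ((Set.univ.pi fun _ : Fin (n + 1) => Set.Ico (0 : ℝ) 1) ×ˢ Ω) := by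
    ext R
    exact and_congr ⟨fun h i _ => h i, fun h i => h i trivial⟩ Iff.rfl
  rw [h3]
  refine ⟨h1.measurable h2, ?_⟩
  rw [h1.measure_preimage h2.nullMeasurableSet, Measure.volume_eq_prod, Measure.prod_prod,
    volume_pi_pi]
  simp

theorem haara_step (n : ℕ) (Ω : Set (Fin (n + 1) → Fin (n + 1) → ℝ)) (hΩ : MeasurableSet Ω)
    (hfin : volume Ω ≠ ∞)
    (horb : ∀ B : Matrix (Fin (n + 1)) (Fin (n + 1)) ℝ, B.det ≠ 0 → |B.det| ≤ 1 →
      ∃ M : Matrix (Fin (n + 1)) (Fin (n + 1)) ℤ, IsUnit M.det ∧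
        (fun i j => (M.map (Int.castRingHom ℝ) * B) i j) ∈ Ω) :
    ∃ Ω : Set (Fin (n + 2) → Fin (n + 2) → ℝ), MeasurableSet Ω ∧ volume Ω ≠ ∞ ∧
    ∀ B : Matrix (Fin (n + 2)) (Fin (n + 2)) ℝ, B.det ≠ 0 → |B.det| ≤ 1 →
      ∃ M : Matrix (Fin (n + 2)) (Fin (n + 2)) ℤ, IsUnit M.det ∧
        (fun i j => (M.map (Int.castRingHom ℝ) * B) i j) ∈ Ω := by
  obtain ⟨N, hNm, hN⟩ := haara_house n
  obtain ⟨hPm, hPv⟩ := haara_vol hΩ
  obtain ⟨P, hP⟩ : ∃ P : Set (Fin (n + 1) → Fin (n + 2) → ℝ), P = {R |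
      (∀ i, R i 0 ∈ Set.Ico (0 : ℝ) 1) ∧ (fun i k => R i (Fin.succ k)) ∈ Ω} := ⟨_, rfl⟩
  rw [← hP] at hPm hPv
  obtain ⟨S, hS⟩ : ∃ S : Set ((Fin (n + 2) → ℝ) × (Fin (n + 1) → Fin (n + 2) → ℝ)),
      S = {p | p.1 ∈ Metric.closedBall 0 1 \ {0} ∧ (fun i => p.2 i ᵥ* N p.1) ∈ P} := ⟨_, rfl⟩
  have hb : MeasurableSet (Metric.closedBall (0 : Fin (n + 2) → ℝ) 1 \ {0}) :=
    measurableSet_closedBall.diff (measurableSet_singleton _)
  have hSm : MeasurableSet S := by
    rw [hS]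
    have h2 : Measurable fun (p : (Fin (n + 2) → ℝ) × (Fin (n + 1) → Fin (n + 2) → ℝ)) i =>
        p.2 i ᵥ* N p.1 := by
      refine measurable_pi_lambda _ fun i => measurable_pi_lambda _ fun j => ?_
      have h3 : ∀ k, Measurable fun (p : (Fin (n + 2) → ℝ) × (Fin (n + 1) → Fin (n + 2) → ℝ)) =>
          p.2 i k := fun k => by fun_prop
      exact Finset.measurable_sum (f := fun k
        (p : (Fin (n + 2) → ℝ) × (Fin (n + 1) → Fin (n + 2) → ℝ)) => p.2 i k * N p.1 k j)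
        Finset.univ
        fun k _ =>
        (h3 k).mul ((hNm k j).comp measurable_fst)
    exact (measurable_fst hb).inter (h2 hPm)
  have he := volume_preserving_piFinSuccAbove (fun _ : Fin (n + 2) => Fin (n + 2) → ℝ) 0
  refine ⟨_, he.measurable hSm, ?_, fun B h0 h1 => ?_⟩
  · rw [he.measure_preimage hSm.nullMeasurableSet, Measure.volume_eq_prod, Measure.prod_apply hSm]
    have h2 : ∀ v, volume (Prod.mk v ⁻¹' S) =
        (Metric.closedBall (0 : Fin (n + 2) → ℝ) 1 \ {0}).indicator (fun _ => volume Ω) v := by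
      intro v
      by_cases hv : v ∈ Metric.closedBall (0 : Fin (n + 2) → ℝ) 1 \ {0}
      · rw [Set.indicator_of_mem hv, ← hPv,
          ← (haara_mp_right (m := n + 1) (hN v hv.2).2).measure_preimage hPm.nullMeasurableSet, hS]
        congr 1
        ext R
        exact ⟨fun h => h.2, fun h => ⟨hv, h⟩⟩
      · rw [Set.indicator_of_notMem hv, hS]
        have : Prod.mk v ⁻¹' {p : (Fin (n + 2) → ℝ) × (Fin (n + 1) → Fin (n + 2) → ℝ) |
            p.1 ∈ Metric.closedBall 0 1 \ {0} ∧ (fun i => p.2 i ᵥ* N p.1) ∈ P} = ∅ :=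
          Set.eq_empty_of_forall_notMem fun R h => hv h.1
        rw [this, measure_empty]
    simp only [h2]
    rw [lintegral_indicator_const hb]
    exact ENNReal.mul_ne_top hfin
      (measure_ne_top_of_subset Set.sdiff_subset measure_closedBall_lt_top.ne)
  · obtain ⟨M₀, hM₀, hv⟩ := haara_short B h0 h1
    obtain ⟨B₁, hB₁⟩ : ∃ B₁, B₁ = M₀.map (Int.castRingHom ℝ) * B := ⟨_, rfl⟩
    rw [← hB₁] at hv
    have hd₁ : |B₁.det| = |B.det| := by rw [hB₁, det_mul, abs_mul, haara_abs_det hM₀, one_mul]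
    have hv0 : B₁ 0 ≠ 0 := by
      intro h
      rw [det_eq_zero_of_row_eq_zero 0 (congrFun h), abs_zero] at hd₁
      exact h0 (abs_eq_zero.1 hd₁.symm)
    obtain ⟨B₂, hB₂⟩ : ∃ B₂, B₂ = B₁ * N (B₁ 0) := ⟨_, rfl⟩
    have hrow : B₂ 0 = Pi.single 0 1 := by rw [hB₂]; exact (hN _ hv0).1
    have hd₂ : |(B₂.submatrix Fin.succ Fin.succ).det| = |B.det| := by
      rw [← haara_det_row B₂ hrow, hB₂, det_mul, abs_mul, (hN _ hv0).2, mul_one, hd₁]
    obtain ⟨M', hM', hY⟩ := horb (B₂.submatrix Fin.succ Fin.succ)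
      (fun h => by rw [h, abs_zero] at hd₂; exact h0 (abs_eq_zero.1 hd₂.symm)) (hd₂ ▸ h1)
    obtain ⟨c, hc⟩ : ∃ c : Fin (n + 1) → ℝ, c = fun i => ∑ k, (M' i k : ℝ) * B₂ k.succ 0 :=
      ⟨_, rfl⟩
    obtain ⟨M₁, hM₁⟩ : ∃ M₁ : Matrix (Fin (n + 2)) (Fin (n + 2)) ℤ, M₁ =
      Matrix.of (Fin.cons (Pi.single 0 1) fun i => Fin.cons (-⌊c i⌋) (M' i)) := ⟨_, rfl⟩
    have hr : M₁ 0 = Pi.single 0 1 := by rw [hM₁]; rfl
    have hsub : M₁.submatrix Fin.succ Fin.succ = M' := by rw [hM₁]; rfl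
    refine ⟨M₁ * M₀, ?_, ?_⟩
    · rw [det_mul, haara_det_row M₁ hr, hsub]
      exact hM'.mul hM₀
    · rw [Matrix.map_mul, Matrix.mul_assoc, ← hB₁]
      have h3 : (M₁.map (Int.castRingHom ℝ) * B₁) 0 = B₁ 0 := by
        funext j
        simp [mul_apply, hr, Fin.sum_univ_succ]
      have h4 : ∀ (i : Fin (n + 1)) (j : Fin (n + 2)),
          ((M₁.map (Int.castRingHom ℝ) * B₁) i.succ ᵥ* N (B₁ 0)) j =
            -(⌊c i⌋ : ℝ) * B₂ 0 j + ∑ k, (M' i k : ℝ) * B₂ k.succ j := by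
        intro i j
        have h5 : ((M₁.map (Int.castRingHom ℝ) * B₁) i.succ ᵥ* N (B₁ 0)) j =
            (M₁.map (Int.castRingHom ℝ) * B₁ * N (B₁ 0)) i.succ j := rfl
        rw [h5, Matrix.mul_assoc, ← hB₂, mul_apply, Fin.sum_univ_succ, hM₁]
        simp
      rw [hS, hP]
      show (M₁.map (Int.castRingHom ℝ) * B₁) 0 ∈ Metric.closedBall 0 1 \ {0} ∧
        (∀ i : Fin (n + 1), ((M₁.map (Int.castRingHom ℝ) * B₁) i.succ ᵥ*
          N ((M₁.map (Int.castRingHom ℝ) * B₁) 0)) 0 ∈ Set.Ico (0 : ℝ) 1) ∧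
        (fun (i k : Fin (n + 1)) => ((M₁.map (Int.castRingHom ℝ) * B₁) i.succ ᵥ*
          N ((M₁.map (Int.castRingHom ℝ) * B₁) 0)) k.succ) ∈ Ω
      rw [h3]
      refine ⟨⟨mem_closedBall_zero_iff.2 hv, hv0⟩, fun i => ?_, ?_⟩
      · rw [h4, hrow, Pi.single_eq_same, mul_one, show ∑ k, (M' i k : ℝ) * B₂ k.succ 0 = c i by
          rw [hc], neg_add_eq_sub]
        exact ⟨Int.fract_nonneg _, Int.fract_lt_one _⟩
      · have h5 : (fun (i k : Fin (n + 1)) =>
            ((M₁.map (Int.castRingHom ℝ) * B₁) i.succ ᵥ* N (B₁ 0)) k.succ) =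
            fun i j => (M'.map (Int.castRingHom ℝ) * B₂.submatrix Fin.succ Fin.succ) i j := by
          funext i k
          rw [h4, hrow]
          simp [mul_apply]
        rw [h5]
        exact hY

theorem exists_omega (n : ℕ) : ∃ Ω : Set (Fin n → Fin n → ℝ), MeasurableSet Ω ∧ volume Ω ≠ ∞ ∧
    ∀ B : Matrix (Fin n) (Fin n) ℝ, B.det ≠ 0 → |B.det| ≤ 1 →
      ∃ M : Matrix (Fin n) (Fin n) ℤ, IsUnit M.det ∧
        (fun i j => (M.map (Int.castRingHom ℝ) * B) i j) ∈ Ω := by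
  rcases n with _ | n
  · refine ⟨Set.univ, MeasurableSet.univ, ?_, fun B _ _ => ⟨1, by simp, trivial⟩⟩
    rw [← Set.pi_univ Set.univ, volume_pi_pi]
    simp
  induction n with
  | zero =>
    refine ⟨Metric.closedBall 0 1, measurableSet_closedBall, measure_closedBall_lt_top.ne,
      fun B _ h1 => ⟨1, by simp, ?_⟩⟩
    rw [mem_closedBall_zero_iff]
    refine (pi_norm_le_iff_of_nonneg zero_le_one).2 fun i =>
      (pi_norm_le_iff_of_nonneg zero_le_one).2 fun j => ?_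
    rw [Matrix.map_one _ (map_zero _) (map_one _), Matrix.one_mul, Fin.fin_one_eq_zero i,
      Fin.fin_one_eq_zero j, Real.norm_eq_abs]
    rwa [det_fin_one] at h1
  | succ n ih =>
    obtain ⟨Ω, h1, h2, h3⟩ := ih
    exact haara_step n Ω h1 h2 h3

end Vale.Agent.P007A
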