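import Vale.Agent.P007A.Ord

/-! Invertible ideals of an order. -/

namespace Vale.Agent.P007A

open Vale.Agent.P007 Matrix MeasureTheory Filter Topology NumberField
open scoped ENNReal nonZeroDivisors Classical

variable {K : Type} [Field K] [NumberField K] {n m : ℕ} {o : Order K n}

theorem Inv.ne_bot {I : Ideal o.O} (hI : I ∈ Inv o) : I ≠ ⊥ := by
  rintro rfl
  have := isFrac o
  obtain ⟨J, hJ⟩ := hI
  rw [FractionalIdeal.coeIdeal_bot, zero_mul] at hJ
  exact zero_ne_one hJ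
theorem top_mem_Inv : (⊤ : Ideal o.O) ∈ Inv o :=
  ⟨1, by simp⟩
theorem span_mem_Inv {α : o.O} (h : α ≠ 0) : Ideal.span {α} ∈ Inv o := by
  have := isFrac o
  refine ⟨FractionalIdeal.spanSingleton _ (α : K)⁻¹, ?_⟩
  rw [FractionalIdeal.coeIdeal_span_singleton, FractionalIdeal.spanSingleton_mul_spanSingleton]
  exact (congrArg _ (mul_inv_cancel₀ fun h0 : (α : K) = 0 => h (Subtype.ext h0))).trans
    FractionalIdeal.spanSingleton_one
theorem mul_mem_Inv {I J : Ideal o.O} : I * J ∈ Inv o ↔ I ∈ Inv o ∧ J ∈ Inv o := by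
  constructor
  · rintro ⟨L, hL⟩
    rw [FractionalIdeal.coeIdeal_mul] at hL
    exact ⟨⟨J * L, by rw [← mul_assoc, hL]⟩, I * L, by rw [mul_left_comm, ← mul_assoc, hL]⟩
  · rintro ⟨⟨L, hL⟩, L', hL'⟩
    exact ⟨L * L', by rw [FractionalIdeal.coeIdeal_mul, mul_mul_mul_comm, hL, hL', one_mul]⟩
theorem Inv.cancel {I J J' : Ideal o.O} (hI : I ∈ Inv o) (h : I * J = I * J') : J = J' := by
  have := isFrac o
  obtain ⟨L, hL⟩ := hI
  have h1 := congrArg (fun A : Ideal o.O => L * (A : FractionalIdeal o.O⁰ K)) h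
  rw [mul_comm] at hL
  simp only [FractionalIdeal.coeIdeal_mul, ← mul_assoc, hL, one_mul] at h1
  exact FractionalIdeal.coeIdeal_injective h1
theorem invI_mem_inv {I : Ideal o.O} {J : FractionalIdeal o.O⁰ K}
    (h : (I : FractionalIdeal o.O⁰ K) * J = 1) (α : K) : α ∈ J ↔ α ∈ dualI I := by
  constructor
  · intro hα β hβ
    have h1 := FractionalIdeal.mul_mem_mul ((FractionalIdeal.mem_coeIdeal o.O⁰).2 ⟨β, hβ, rfl⟩) hα
    rw [h] at h1
    obtain ⟨y, hy⟩ := (FractionalIdeal.mem_one_iff _).1 h1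
    rw [mul_comm]
    exact (show (y : K) = β * α from hy) ▸ y.2
  · intro hα
    have h1 : (1 : K) ∈ (I : FractionalIdeal o.O⁰ K) * J := h ▸ FractionalIdeal.one_mem_one _
    rw [← mul_one α]
    refine FractionalIdeal.mul_induction_on (C := fun x => α * x ∈ J) h1 (fun i hi j hj => ?_)
      fun x y hx hy => mul_add α x y ▸ (J : Submodule o.O K).add_mem hx hy
    obtain ⟨β, hβ, rfl⟩ := (FractionalIdeal.mem_coeIdeal o.O⁰).1 hi
    rw [← mul_assoc]
    exact (J : Submodule o.O K).smul_mem ⟨_, hα β hβ⟩ hj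

/-- the unit is a sum of products of elements of an invertible ideal and of its dual. -/
theorem invI_one {I : Ideal o.O} (hI : I ∈ Inv o) (C : K → Prop)
    (hm : ∀ β ∈ I, ∀ γ ∈ dualI I, C (γ * β)) (ha : ∀ x y, C x → C y → C (x + y)) : C 1 := by
  obtain ⟨J, h⟩ := hI
  have h1 : (1 : K) ∈ (I : FractionalIdeal o.O⁰ K) * J := h ▸ FractionalIdeal.one_mem_one _
  refine FractionalIdeal.mul_induction_on h1 (fun i hi j hj => ?_) ha
  obtain ⟨β, hβ, rfl⟩ := (FractionalIdeal.mem_coeIdeal o.O⁰).1 hi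
  rw [mul_comm]
  exact hm β hβ j ((invI_mem_inv h j).1 hj)

theorem Inv.proper {I : Ideal o.O} (hI : I ∈ Inv o) {β : K}
    (h : ∀ γ ∈ I, ∃ δ ∈ I, β * (γ : K) = (δ : o.O)) : β ∈ o.O := by
  rw [← mul_one β]
  refine invI_one hI (fun x => β * x ∈ o.O) (fun γ hγ ε hε => ?_)
    fun x y hx hy => mul_add β x y ▸ o.O.add_mem hx hy
  obtain ⟨δ, hδ, e⟩ := h γ hγ
  rw [mul_left_comm, e]
  exact hε δ hδ
theorem Inv.mem_inv {I : Ideal o.O} {J : FractionalIdeal o.O⁰ K}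
    (h : (I : FractionalIdeal o.O⁰ K) * J = 1) (α : K) : α ∈ J ↔ α ∈ dualI I :=
  invI_mem_inv h α
theorem invI_cast_ne {N : ℕ} (hN : N ≠ 0) : (N : o.O) ≠ 0 := Nat.cast_ne_zero.2 hN

theorem invI_finite {N : ℕ} (hN : N ≠ 0) : {M : Ideal o.O | (N : o.O) ∈ M}.Finite := by
  refine ((N ^ n).divisors.finite_toSet.biUnion fun k hk =>
    finite_idx o (Nat.pos_of_mem_divisors hk).ne').subset fun M hM => ?_
  refine Set.mem_biUnion (Nat.mem_divisors.2 ⟨?_, pow_ne_zero _ hN⟩) rfl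
  rw [← idx_span_nat (o := o) N]
  exact idx_dvd ((Ideal.span_singleton_le_iff_mem M).2 hM)

/-- a local generator together with a dual element. -/
theorem invI_gen {I : Ideal o.O} (hI : I ∈ Inv o) {N : ℕ} (hN : N ≠ 0) :
    ∃ α ∈ I, ∃ β ∈ dualI I, ∃ c : o.O, β * α + N * c = 1 := by
  let T := ((invI_finite (o := o) hN).subset
    (t := {M : Ideal o.O | M.IsMaximal ∧ (N : o.O) ∈ M})
    fun _ h => h.2).toFinset
  have hT : ∀ M, M ∈ T ↔ M.IsMaximal ∧ (N : o.O) ∈ M := fun M => Set.Finite.mem_toFinset _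
  have h1 : ∀ M ∈ T, ∃ a ∈ I, ∃ b ∈ dualI I, ∃ y : o.O, (y : K) = b * a ∧ y ∉ M := by
    intro M hM
    by_contra hn
    push Not at hn
    obtain ⟨y, hy, e⟩ := invI_one hI (fun x => ∃ y ∈ M, (y : K) = x)
      (fun a ha b hb => ⟨⟨_, hb a ha⟩, hn a ha b hb _ rfl, rfl⟩)
      fun _ _ ⟨y, hy, e⟩ ⟨z, hz, e'⟩ => ⟨y + z, M.add_mem hy hz, e ▸ e' ▸ rfl⟩
    obtain rfl : y = 1 := Subtype.ext e
    exact ((hT M).1 hM).1.ne_top ((Ideal.eq_top_iff_one M).2 hy)
  have h2 : ∀ M ∈ T, ∃ u ∉ M, ∀ M' ∈ T, M' ≠ M → u ∈ M' := by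
    intro M hM
    have h3 : ∀ M' ∈ T.erase M, ∃ v ∈ M', v ∉ M := fun M' hM' =>
      SetLike.not_le_iff_exists.1 fun h => Finset.ne_of_mem_erase hM'
        (((hT M').1 (Finset.mem_of_mem_erase hM')).1.eq_of_le ((hT M).1 hM).1.ne_top h)
    choose! v hv hv' using h3
    refine ⟨∏ M' ∈ T.erase M, v M', fun h => ?_, fun M' hM' hne => ?_⟩
    · have := ((hT M).1 hM).1.isPrime
      obtain ⟨M', h4, h5⟩ := Ideal.IsPrime.prod_mem_iff.1 h
      exact hv' M' h4 h5
    · have h4 := Finset.mem_erase.2 ⟨hne, hM'⟩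
      exact Ideal.mem_of_dvd _ (Finset.dvd_prod_of_mem v h4) (hv M' h4)
  choose! a ha b hb y hy hy' using h1
  choose! u hu hu' using h2
  refine ⟨∑ M ∈ T, u M * a M, I.sum_mem fun M hM => I.mul_mem_left _ (ha M hM), ?_⟩
  let A : Ideal o.O :=
    { carrier := {x | ∃ β ∈ dualI I, ∃ c : o.O, β * (∑ M ∈ T, u M * a M : o.O) + N * c = (x : K)}
      add_mem' := by
        rintro x x' ⟨β, hβ, c, e⟩ ⟨β', hβ', c', e'⟩
        refine ⟨β + β', fun γ hγ => add_mul β β' γ ▸ o.O.add_mem (hβ γ hγ) (hβ' γ hγ), c + c', ?_⟩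
        rw [Subring.coe_add, Subring.coe_add, ← e, ← e']
        ring
      zero_mem' := ⟨0, fun γ _ => by simp, 0, by simp⟩
      smul_mem' := by
        rintro r x ⟨β, hβ, c, e⟩
        refine ⟨r * β, fun γ hγ => mul_assoc (r : K) β γ ▸ o.O.mul_mem r.2 (hβ γ hγ), r * c, ?_⟩
        rw [smul_eq_mul, Subring.coe_mul, Subring.coe_mul, ← e]
        ring }
  by_contra hn
  obtain ⟨M, hM, hAM⟩ := Ideal.exists_le_maximal A fun h => hn ((Ideal.eq_top_iff_one A).1 h)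
  have hMT : M ∈ T := (hT M).2 ⟨hM, hAM ⟨0, fun γ _ => by simp, 1, by simp⟩⟩
  let z : Ideal o.O → o.O := fun M' => if h : M' ∈ T then ⟨_, hb M hMT _ (ha M' h)⟩ else 0
  have hz : ∀ M' ∈ T, (z M' : K) = b M * a M' := fun M' h => by simp only [z, dif_pos h]
  have h3 : ∑ M' ∈ T, u M' * z M' ∈ M := by
    refine hAM ⟨b M, hb M hMT, 0, ?_⟩
    push_cast
    rw [mul_zero, add_zero, Finset.mul_sum]
    exact Finset.sum_congr rfl fun M' h => by rw [hz M' h, mul_left_comm]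
  rw [← Finset.add_sum_erase _ _ hMT, Ideal.add_mem_iff_left _ (M.sum_mem fun M' h =>
    M.mul_mem_right _ (hu' M' (Finset.mem_of_mem_erase h) M hMT (Finset.ne_of_mem_erase h).symm))]
    at h3
  rcases hM.isPrime.mem_or_mem h3 with h | h
  · exact hu M hMT h
  · exact hy' M hMT ((Subtype.ext ((hz M hMT).trans (hy M hMT).symm) : z M = y M) ▸ h)

theorem invI_decomp {I : Ideal o.O} {α c : o.O} {β : K} {N : ℕ} (hβ : β ∈ dualI I)
    (e : β * α + N * c = 1) {γ : o.O} (hγ : γ ∈ I) : γ = α * ⟨_, hβ γ hγ⟩ + N * (c * γ) := by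
  refine Subtype.ext ?_
  push_cast
  linear_combination (-γ : K) * e

theorem Inv.exists_gen {I : Ideal o.O} (hI : I ∈ Inv o) {N : ℕ} (hN : N ≠ 0) :
    ∃ α ∈ I, Ideal.span {α} ⊔ Ideal.span {(N : o.O)} * I = I := by
  obtain ⟨α, hα, β, hβ, c, e⟩ := invI_gen hI hN
  refine ⟨α, hα, le_antisymm (sup_le ((Ideal.span_singleton_le_iff_mem I).2 hα) Ideal.mul_le_right)
    fun γ hγ => ?_⟩
  rw [invI_decomp hβ e hγ]
  exact Submodule.add_mem_sup (Ideal.mul_mem_right _ _ (Ideal.mem_span_singleton_self α))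
    (Ideal.mul_mem_mul (Ideal.mem_span_singleton_self _) (I.mul_mem_left c hγ))
theorem invI_idx_mul {I J : Ideal o.O} (hI : I ∈ Inv o) (hJ : J ≠ ⊥) :
    idx (I * J) = idx J * idx I := by
  obtain ⟨α, hα, β, hβ, c, e⟩ := invI_gen hI (idx_ne_zero hJ)
  have h1 : (I * J).toAddSubgroup.comap (AddMonoidHom.mulLeft α) = J.toAddSubgroup := by
    ext x
    refine ⟨fun h => ?_, fun h => Ideal.mul_mem_mul hα h⟩
    have h2 : ∃ y ∈ J, (y : K) = β * (α * x : o.O) :=
      Submodule.mul_induction_on (C := fun w : o.O => ∃ y ∈ J, (y : K) = β * w) h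
        (fun i hi j hj => ⟨⟨_, hβ i hi⟩ * j, J.mul_mem_left _ hj, mul_assoc _ _ _⟩)
        fun w w' ⟨y, hy, e⟩ ⟨z, hz, e'⟩ => ⟨y + z, J.add_mem hy hz, by
          rw [Subring.coe_add, Subring.coe_add, e, e', mul_add]⟩
    obtain ⟨y, hy, e'⟩ := h2
    have h3 : x = y + idx J * (c * x) := by
      refine Subtype.ext ?_
      push_cast at e' ⊢
      linear_combination (-x : K) * e - e'
    rw [h3]
    exact J.add_mem hy (J.mul_mem_right _ (idx_mem J))
  have h2 : (AddMonoidHom.mulLeft α).range ⊔ (I * J).toAddSubgroup = I.toAddSubgroup := by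
    refine le_antisymm (sup_le ?_ Ideal.mul_le_left) fun γ hγ => ?_
    · rintro _ ⟨x, rfl⟩
      exact I.mul_mem_right x hα
    · rw [invI_decomp hβ e hγ]
      exact AddSubgroup.add_mem_sup ⟨_, rfl⟩
        (mul_comm (c * γ) _ ▸ Ideal.mul_mem_mul (I.mul_mem_left c hγ) (idx_mem J))
  rw [idx_eq_index, idx_eq_index, idx_eq_index, ← h1, AddSubgroup.index_comap,
    ← AddSubgroup.relIndex_sup_right, h2]
  exact (AddSubgroup.relIndex_mul_index Ideal.mul_le_left).symm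

theorem Inv.exists_basis {I : Ideal o.O} (hI : I ∈ Inv o) : ∃ e : Fin n → K,
    (∀ α, α ∈ dualI I ↔ ∃ k : Fin n → ℤ, α = ∑ i, (k i : K) * e i) ∧
      |Algebra.discr ℚ e| * (idx I : ℚ) ^ 2 = |o.disc| := by
  have := isFrac o
  have := free_O o
  have := finite_O o
  obtain ⟨J, hJ⟩ := id hI
  have hN := idx_ne_zero (Inv.ne_bot hI)
  have hN' : (idx I : K) ≠ 0 := Nat.cast_ne_zero.2 hN
  obtain ⟨I', hI'⟩ := FractionalIdeal.le_one_iff_exists_coeIdeal.1
    (show FractionalIdeal.spanSingleton o.O⁰ (idx I : K) * J ≤ 1 from fun x hx => by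
      obtain ⟨y, hy, rfl⟩ := FractionalIdeal.mem_singleton_mul.1 hx
      exact (FractionalIdeal.mem_one_iff _).2
        ⟨⟨_, (Inv.mem_inv hJ y).1 hy _ (idx_mem I)⟩, mul_comm _ _⟩)
  have h1 : I * I' = Ideal.span {(idx I : o.O)} := by
    refine FractionalIdeal.coeIdeal_injective (K := K) ?_
    show ((I * I' : Ideal o.O) : FractionalIdeal o.O⁰ K) = _
    rw [FractionalIdeal.coeIdeal_mul, hI', mul_left_comm, hJ, mul_one]
    exact (FractionalIdeal.coeIdeal_span_singleton (idx I : o.O)).symm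
  have h2 : I' ≠ ⊥ := Inv.ne_bot (mul_mem_Inv.1 (h1 ▸ span_mem_Inv (invI_cast_ne hN))).2
  have h3 : idx I' * idx I = idx I ^ n := by rw [← invI_idx_mul hI h2, h1, idx_span_nat]
  obtain ⟨b, hb⟩ := exists_zb o
  let s := Ideal.selfBasis b I' h2
  have h4 : (b.det ((↑) ∘ s)).natAbs = idx I' :=
    Submodule.natAbs_det_basis_change b (I'.restrictScalars ℤ) s
  have hm : ∀ α : K, α ∈ dualI I ↔ ∃ x ∈ I', (x : K) = idx I * α := fun α => by
    rw [← Inv.mem_inv hJ]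
    refine Iff.trans ?_ (FractionalIdeal.mem_coeIdeal o.O⁰)
    rw [hI', FractionalIdeal.mem_singleton_mul]
    exact ⟨fun h => ⟨α, h, rfl⟩, fun ⟨y, hy, e⟩ => mul_left_cancel₀ hN' e ▸ hy⟩
  refine ⟨fun j => (idx I : K)⁻¹ * (s j : o.O), fun α => ?_, ?_⟩
  · rw [hm]
    constructor
    · rintro ⟨x, hx, e⟩
      refine ⟨s.repr ⟨x, hx⟩, mul_left_cancel₀ hN' (e.symm.trans ?_)⟩
      have k := congrArg (fun w : I' => ((w : o.O) : K)) (s.sum_repr ⟨x, hx⟩)
      simp only [zsmul_eq_mul, Submodule.coe_sum, SetLike.val_smul_of_tower] at k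
      push_cast at k
      rw [← k, Finset.mul_sum]
      exact Finset.sum_congr rfl fun j _ => by field_simp
    · rintro ⟨k, rfl⟩
      refine ⟨∑ j, (k j : o.O) * s j, I'.sum_mem fun j _ => I'.mul_mem_left _ (s j).2, ?_⟩
      push_cast
      rw [Finset.mul_sum]
      exact Finset.sum_congr rfl fun j _ => by field_simp
  · let P : Matrix (Fin n) (Fin n) ℚ :=
      (idx I : ℚ)⁻¹ • (Int.castRingHom ℚ).mapMatrix (b.toMatrix ((↑) ∘ s))
    have e : (fun j => (idx I : K)⁻¹ * (s j : o.O)) = o.b ᵥ* P.map (algebraMap ℚ K) := by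
      funext j
      have k := congrArg (fun w : o.O => (w : K)) (b.sum_repr (s j))
      simp only [zsmul_eq_mul] at k
      push_cast at k
      rw [← k, Finset.mul_sum]
      refine Finset.sum_congr rfl fun i _ => ?_
      simp [P, hb, Module.Basis.toMatrix_apply]
      ring
    have hP : |P.det| * idx I = 1 := by
      have k : ((idx I' : ℚ) * idx I) = (idx I : ℚ) ^ n := by exact_mod_cast h3
      rw [Matrix.det_smul, ← RingHom.map_det, ← Module.Basis.det_apply, abs_mul, eq_intCast,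
        ← Int.cast_abs, ← Nat.cast_natAbs, h4, Fintype.card_fin, mul_assoc, k, abs_pow, abs_inv,
        Nat.abs_cast, ← mul_pow, inv_mul_cancel₀ (Nat.cast_ne_zero.2 hN), one_pow]
    rw [e, Algebra.discr_of_matrix_vecMul, abs_mul, abs_pow, mul_right_comm, ← mul_pow, hP,
      one_pow, one_mul, Order.disc]
theorem finite_Inv_idx (o : Order K n) (k : ℕ) : {I | I ∈ Inv o ∧ idx I = k}.Finite := by
  rcases eq_or_ne k 0 with rfl | hk
  · exact Set.finite_empty.subset fun I hI => idx_ne_zero (Inv.ne_bot hI.1) hI.2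
  · exact (finite_idx o hk).subset fun I hI => hI.2
theorem rO_zero (o : Order K n) : rO o 0 = 0 := by
  have h : {I | I ∈ Inv o ∧ idx I = 0} = ∅ :=
    Set.eq_empty_of_forall_notMem fun I hI => idx_ne_zero (Inv.ne_bot hI.1) hI.2
  rw [rO, h, Set.ncard_empty]
theorem tsum_Inv (o : Order K n) (F : ℕ → ℝ≥0∞) :
    ∑' I : Inv o, F (idx I.1) = ∑' k : ℕ, (rO o k : ℝ≥0∞) * F k := by
  rw [← ENNReal.tsum_fiberwise _ fun I : Inv o => idx I.1]
  refine tsum_congr fun k => ?_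
  rw [tsum_congr (g := fun _ => F k) fun I => congrArg F I.2, ENNReal.tsum_set_const,
    ← Subtype.val_injective.encard_image, rO, ← ENat.toENNReal_coe,
    (finite_Inv_idx o k).cast_ncard_eq]
  congr 3
  ext I
  simp [and_comm]

end Vale.Agent.P007A
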