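import Vale.Agent.P007A.Defs
import Vale.Agent.Lib.Mertens

/-! A lower bound for the density of a multiplicative function. -/

namespace Vale.Agent.P007A

open Vale.Agent.P007 Matrix MeasureTheory Filter Topology NumberField
open scoped ENNReal nonZeroDivisors Classical

theorem kap_prod {g : ℕ → ℝ} (hmul : ∀ a b : ℕ, a.Coprime b → g (a * b) = g a * g b) (N : ℕ)
    (P : Finset ℕ) (hP : ∀ p ∈ P, p.Prime ∧ N < p) : ∃ T : Finset ℕ,
    (∀ k ∈ T, k ≠ 0 ∧ ∀ q : ℕ, q.Prime → q ∣ k → q ≤ N ∨ q ∈ P) ∧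
    (∑ m ∈ Finset.Icc 1 N, g m) * ∏ p ∈ P, (1 + g p) = ∑ k ∈ T, g k := by
  induction P using Finset.induction_on with
  | empty =>
    refine ⟨Finset.Icc 1 N, fun k hk => ?_, by simp⟩
    have := Finset.mem_Icc.1 hk
    exact ⟨by omega, fun q _ hq => Or.inl ((Nat.le_of_dvd this.1 hq).trans this.2)⟩
  | insert p P hp ih =>
    obtain ⟨T, hT, hs⟩ := ih fun q hq => hP q (Finset.mem_insert_of_mem hq)
    obtain ⟨hpp, hpN⟩ := hP p (Finset.mem_insert_self _ _)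
    have hnd : ∀ k ∈ T, ¬ p ∣ k := fun k hk h => by
      rcases (hT k hk).2 p hpp h with h | h
      · omega
      · exact hp h
    refine ⟨T ∪ T.image (p * ·), fun k hk => ?_, ?_⟩
    · rcases Finset.mem_union.1 hk with hk | hk
      · exact ⟨(hT k hk).1, fun q hq h => ((hT k hk).2 q hq h).imp_right Finset.mem_insert_of_mem⟩
      · obtain ⟨l, hl, rfl⟩ := Finset.mem_image.1 hk
        refine ⟨mul_ne_zero hpp.ne_zero (hT l hl).1, fun q hq h => ?_⟩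
        rcases (Nat.Prime.dvd_mul hq).1 h with h | h
        · rw [(Nat.prime_dvd_prime_iff_eq hq hpp).1 h]
          exact Or.inr (Finset.mem_insert_self _ _)
        · exact ((hT l hl).2 q hq h).imp_right Finset.mem_insert_of_mem
    · rw [Finset.prod_insert hp, Finset.sum_union, Finset.sum_image, mul_left_comm, hs, add_mul,
        one_mul, Finset.mul_sum]
      · congr 1
        exact Finset.sum_congr rfl fun k hk =>
          (hmul p k ((Nat.Prime.coprime_iff_not_dvd hpp).2 (hnd k hk))).symm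
      · exact fun a _ b _ h => Nat.eq_of_mul_eq_mul_left hpp.pos h
      · refine Finset.disjoint_left.2 fun k hk hk' => ?_
        obtain ⟨l, -, rfl⟩ := Finset.mem_image.1 hk'
        exact hnd _ hk (dvd_mul_right _ _)

theorem kap_upper {r : ℕ → ℝ} (h0 : ∀ k, 0 ≤ r k) {κ δ : ℝ} (hκ : 0 ≤ κ) (hδ : 0 < δ) {N₀ : ℕ}
    (hN : 1 ≤ N₀) (hc : ∀ N : ℕ, N₀ ≤ N → ∑ k ∈ Finset.Icc 1 N, r k ≤ κ * N) (T : Finset ℕ)
    (hT : ∀ k ∈ T, k ≠ 0) :
    ∑ k ∈ T, r k * ((k : ℝ)⁻¹ * Real.exp (-(δ * Real.log k))) ≤ κ * N₀ + 2 * κ * (1 + 2 / δ) := by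
  have hl2 : (1 : ℝ) / 2 ≤ Real.log 2 := by linarith [Real.log_two_gt_d9]
  obtain ⟨ρ, hρ⟩ : ∃ ρ, ρ = Real.exp (-(δ * Real.log 2)) := ⟨_, rfl⟩
  have hρ0 : 0 < ρ := hρ ▸ Real.exp_pos _
  have hρ1 : ρ * (1 + δ / 2) ≤ 1 := by
    have h1 := Real.add_one_le_exp (δ * Real.log 2)
    have h2 : ρ * Real.exp (δ * Real.log 2) = 1 := by rw [hρ, ← Real.exp_add]; simp
    rw [← h2]
    exact mul_le_mul_of_nonneg_left (by nlinarith) hρ0.le
  have hg : ∀ k : ℕ, 0 ≤ r k * ((k : ℝ)⁻¹ * Real.exp (-(δ * Real.log k))) := fun k =>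
    mul_nonneg (h0 k) (by positivity)
  have key : ∀ J : ℕ, ∑ k ∈ Finset.Ioc 0 (2 ^ J * N₀),
      r k * ((k : ℝ)⁻¹ * Real.exp (-(δ * Real.log k))) ≤
      κ * N₀ + 2 * κ * ((1 + 2 / δ) * (1 - ρ ^ J)) := by
    intro J
    induction J with
    | zero =>
      simp only [pow_zero, one_mul, sub_self, mul_zero, add_zero]
      refine le_trans (Finset.sum_le_sum fun k hk => ?_) (hc N₀ le_rfl)
      have h1 : (1 : ℝ) ≤ k := by exact_mod_cast (Finset.mem_Ioc.1 hk).1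
      refine mul_le_of_le_one_right (h0 k) (mul_le_one₀ (inv_le_one_of_one_le₀ h1)
        (Real.exp_pos _).le (Real.exp_le_one_iff.2 ?_))
      have := Real.log_natCast_nonneg k
      exact neg_nonpos.2 (by positivity)
    | succ J ih =>
      have hM : 2 ^ J * N₀ ≤ 2 ^ (J + 1) * N₀ := by
        rw [pow_succ]
        nlinarith [Nat.zero_le (2 ^ J * N₀)]
      have hM0 : (0 : ℝ) < (2 ^ J * N₀ : ℕ) := by positivity
      rw [← Finset.sum_Ioc_consecutive _ (Nat.zero_le _) hM]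
      have h1 : ∑ k ∈ Finset.Ioc (2 ^ J * N₀) (2 ^ (J + 1) * N₀),
          r k * ((k : ℝ)⁻¹ * Real.exp (-(δ * Real.log k))) ≤
          ∑ k ∈ Finset.Icc 1 (2 ^ (J + 1) * N₀), r k * (((2 ^ J * N₀ : ℕ) : ℝ)⁻¹ * ρ ^ J) := by
        refine (Finset.sum_le_sum fun k hk => ?_).trans (Finset.sum_le_sum_of_subset_of_nonneg
          (fun k hk => Finset.mem_Icc.2 ⟨Nat.succ_le_of_lt ((Nat.zero_le _).trans_lt
            (Finset.mem_Ioc.1 hk).1), (Finset.mem_Ioc.1 hk).2⟩)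
          fun k _ _ => mul_nonneg (h0 k) (by positivity))
        have a1 : ((2 ^ J * N₀ : ℕ) : ℝ) ≤ k := by exact_mod_cast (Finset.mem_Ioc.1 hk).1.le
        have a2 : (2 : ℝ) ^ J ≤ k := by
          refine le_trans ?_ a1
          exact_mod_cast Nat.le_mul_of_pos_right _ hN
        refine mul_le_mul_of_nonneg_left (mul_le_mul (inv_anti₀ hM0 a1) ?_ (Real.exp_pos _).le
          (by positivity)) (h0 k)
        rw [hρ, ← Real.exp_nat_mul, Real.exp_le_exp]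
        have a3 := Real.log_le_log (by positivity) a2
        rw [Real.log_pow] at a3
        nlinarith
      rw [← Finset.sum_mul] at h1
      have h2 := mul_le_mul_of_nonneg_right (hc (2 ^ (J + 1) * N₀)
        (Nat.le_mul_of_pos_left _ (by positivity)))
        (by positivity : 0 ≤ ((2 ^ J * N₀ : ℕ) : ℝ)⁻¹ * ρ ^ J)
      have h3 : κ * ((2 ^ (J + 1) * N₀ : ℕ) : ℝ) * (((2 ^ J * N₀ : ℕ) : ℝ)⁻¹ * ρ ^ J) =
          2 * κ * ρ ^ J := by
        have : ((2 ^ (J + 1) * N₀ : ℕ) : ℝ) = 2 * ((2 ^ J * N₀ : ℕ) : ℝ) := by push_cast; ring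
        rw [this]
        field_simp
      have h4 : 1 ≤ (1 + 2 / δ) * (1 - ρ) := by
        rw [show 1 + 2 / δ = (1 + δ / 2) / (δ / 2) by field_simp; ring, div_mul_eq_mul_div,
          le_div_iff₀ (by positivity)]
        linarith
      have h5 : 2 * κ * ρ ^ J ≤ 2 * κ * ρ ^ J * ((1 + 2 / δ) * (1 - ρ)) :=
        le_mul_of_one_le_right (by positivity) h4
      have h6 : 2 * κ * ((1 + 2 / δ) * (1 - ρ ^ (J + 1))) = 2 * κ * ((1 + 2 / δ) * (1 - ρ ^ J)) +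
          2 * κ * ρ ^ J * ((1 + 2 / δ) * (1 - ρ)) := by ring
      linarith
  refine le_trans (Finset.sum_le_sum_of_subset_of_nonneg (fun k hk => ?_) fun k _ _ => hg k)
    ((key (T.sup id)).trans ?_)
  · refine Finset.mem_Ioc.2 ⟨Nat.pos_of_ne_zero (hT k hk), ?_⟩
    exact (Finset.le_sup (f := id) hk).trans
      (Nat.lt_two_pow_self.le.trans (Nat.le_mul_of_pos_right _ hN))
  · have : 0 ≤ (1 + 2 / δ) * ρ ^ T.sup id := by positivity
    nlinarith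

theorem kap_exp {x : ℝ} (hx : 0 ≤ x) : Real.exp (x - x ^ 2) ≤ 1 + x := by
  have h1 := Real.add_one_le_exp (-(x - x ^ 2))
  have h2 : Real.exp (x - x ^ 2) * Real.exp (-(x - x ^ 2)) = 1 := by rw [← Real.exp_add]; simp
  have h3 := Real.exp_pos (x - x ^ 2)
  have h4 : 0 < -(x - x ^ 2) + 1 := by nlinarith
  refine le_of_mul_le_mul_right ?_ h4
  nlinarith [mul_le_mul_of_nonneg_left h1 h3.le, pow_nonneg hx 3]

theorem kap (n : ℕ) (C₀ : ℝ) : ∃ C : ℝ, 0 < C ∧ ∀ (B : ℝ) (r a : ℕ → ℝ) (y κ : ℝ), Adm n B r →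
    2 ≤ y → (∀ p : ℕ, p.Prime → y < p → 0 ≤ a p ∧ a p ≤ r p ∧ a p ≤ n) →
    (∀ Y : ℝ, y ≤ Y → Real.log (Real.log Y) - Real.log (Real.log y) - C₀ ≤
      ∑ p ∈ (Finset.Ioc ⌊y⌋₊ ⌊Y⌋₊).filter Nat.Prime, a p / p) →
    (∀ᶠ Y : ℝ in atTop, ∑ k ∈ Finset.Icc 1 ⌊Y⌋₊, r k ≤ κ * Y) →
    lm r y ≤ C * κ * Real.log y := by
  obtain ⟨M, hM⟩ := Vale.Agent.Lib.Mertens.mertens1
  refine ⟨6 * Real.exp (1 + C₀ + n * (1 + |M|) + n ^ 2), by positivity,
    fun B r a y κ hr hy ha hs hc => ?_⟩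
  obtain ⟨Y₀, hY₀⟩ := eventually_atTop.1 hc
  obtain ⟨N₀, hN, hN'⟩ : ∃ N₀ : ℕ, 1 ≤ N₀ ∧ Y₀ ≤ N₀ :=
    ⟨⌈Y₀⌉₊ + 1, by omega, by push_cast; linarith [Nat.le_ceil Y₀]⟩
  have hcN : ∀ N : ℕ, N₀ ≤ N → ∑ k ∈ Finset.Icc 1 N, r k ≤ κ * N := fun N h => by
    simpa using hY₀ N (hN'.trans (by exact_mod_cast h))
  have hκ : 0 ≤ κ := nonneg_of_mul_nonneg_left
    ((Finset.sum_nonneg fun k _ => hr.nonneg k).trans (hcN N₀ le_rfl)) (by exact_mod_cast hN)
  obtain ⟨L, hL2, hLy, hLN⟩ : ∃ L : ℝ, 2 ≤ L ∧ Real.log y ≤ L ∧ N₀ ≤ L :=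
    ⟨max (max 2 (Real.log y)) N₀, le_max_of_le_left (le_max_left _ _),
      le_max_of_le_left (le_max_right _ _), le_max_right _ _⟩
  have hy0 : 0 < y := by linarith
  have hL0 : 0 < L := by linarith
  have hly : 0 < Real.log y := Real.log_pos (by linarith)
  have hyY : y ≤ Real.exp L := (Real.log_le_iff_le_exp hy0).1 hLy
  obtain ⟨P, hP⟩ : ∃ P, P = (Finset.Ioc ⌊y⌋₊ ⌊Real.exp L⌋₊).filter Nat.Prime := ⟨_, rfl⟩
  have hP1 : ∀ p ∈ P, p.Prime ∧ ⌊y⌋₊ < p := fun p hp => by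
    rw [hP] at hp
    exact ⟨(Finset.mem_filter.1 hp).2, (Finset.mem_Ioc.1 (Finset.mem_filter.1 hp).1).1⟩
  have hP2 : ∀ p ∈ P, 0 ≤ a p ∧ a p ≤ r p ∧ a p ≤ n := fun p hp =>
    ha p (hP1 p hp).1 ((Nat.floor_lt hy0.le).1 (hP1 p hp).2)
  obtain ⟨φ, hφ⟩ : ∃ φ : ℕ → ℝ, φ = fun k : ℕ => (k : ℝ)⁻¹ * Real.exp (-(L⁻¹ * Real.log k)) :=
    ⟨_, rfl⟩
  have hφ0 : ∀ k, 0 ≤ φ k := fun k => by rw [hφ]; positivity
  have hφm : ∀ k l, φ (k * l) = φ k * φ l := by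
    intro k l
    rcases eq_or_ne k 0 with rfl | hk
    · simp [hφ]
    rcases eq_or_ne l 0 with rfl | hl
    · simp [hφ]
    simp only [hφ, Nat.cast_mul, Real.log_mul (Nat.cast_ne_zero.2 hk) (Nat.cast_ne_zero.2 hl),
      mul_add, neg_add, Real.exp_add, mul_inv]
    ring
  obtain ⟨T, hT, hsum⟩ := kap_prod (g := fun k => r k * φ k)
    (fun k l h => by rw [hr.mul k l h, hφm]; ring) ⌊y⌋₊ P hP1
  have h1 : ∑ k ∈ T, r k * φ k ≤ κ * N₀ + 2 * κ * (1 + 2 / L⁻¹) := by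
    rw [hφ]
    exact kap_upper hr.nonneg hκ (inv_pos.2 hL0) hN hcN T fun k hk => (hT k hk).1
  have h2 : κ * N₀ + 2 * κ * (1 + 2 / L⁻¹) ≤ 6 * κ * L := by
    rw [div_inv_eq_mul]
    nlinarith [mul_le_mul_of_nonneg_left hLN hκ, mul_le_mul_of_nonneg_left hL2 hκ]
  have h3 : Real.exp (-1) * lm r y ≤ ∑ m ∈ Finset.Icc 1 ⌊y⌋₊, r m * φ m := by
    rw [lm, Finset.mul_sum]
    refine Finset.sum_le_sum fun m hm => ?_
    have a1 : (0 : ℝ) < m := by exact_mod_cast (Finset.mem_Icc.1 hm).1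
    have a2 : (m : ℝ) ≤ y := (Nat.le_floor_iff hy0.le).1 (Finset.mem_Icc.1 hm).2
    have a3 : Real.exp (-1) ≤ Real.exp (-(L⁻¹ * Real.log m)) := by
      rw [Real.exp_le_exp, neg_le_neg_iff, inv_mul_le_iff₀ hL0, mul_one]
      exact (Real.log_le_log a1 a2).trans hLy
    have a4 := mul_le_mul_of_nonneg_left a3 (div_nonneg (hr.nonneg m) a1.le)
    simp only [hφ]
    calc _ = r m / m * Real.exp (-1) := mul_comm _ _
      _ ≤ _ := a4
      _ = _ := by ring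
  have h4 : ∀ p ∈ P, Real.exp (a p / p - n * L⁻¹ * (Real.log p / p) - n ^ 2 * (1 / (p : ℝ)) ^ 2) ≤
      1 + r p * φ p := by
    intro p hp
    obtain ⟨a0, a1, a2⟩ := hP2 p hp
    have p0 : (0 : ℝ) < p := by exact_mod_cast (hP1 p hp).1.pos
    have l0 : 0 ≤ L⁻¹ * Real.log p := mul_nonneg (inv_pos.2 hL0).le (Real.log_natCast_nonneg p)
    have b1 : φ p ≤ 1 / p := by
      rw [hφ, one_div]
      exact mul_le_of_le_one_right (by positivity) (Real.exp_le_one_iff.2 (neg_nonpos.2 l0))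
    have b2 : (p : ℝ)⁻¹ * (-(L⁻¹ * Real.log p) + 1) ≤ φ p := by
      rw [hφ]
      exact mul_le_mul_of_nonneg_left (Real.add_one_le_exp _) (by positivity)
    have b3 : (a p * φ p) ^ 2 ≤ n ^ 2 * (1 / (p : ℝ)) ^ 2 := by
      rw [← mul_pow]
      exact pow_le_pow_left₀ (mul_nonneg a0 (hφ0 p)) (mul_le_mul a2 b1 (hφ0 p) (a0.trans a2)) 2
    have b4 : a p / p - n * L⁻¹ * (Real.log p / p) ≤ a p * φ p := by
      refine le_trans ?_ (mul_le_mul_of_nonneg_left b2 a0)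
      have := mul_le_mul_of_nonneg_right a2 (mul_nonneg l0 (inv_pos.2 p0).le)
      simp only [div_eq_mul_inv]
      nlinarith
    refine le_trans (Real.exp_le_exp.2 (by linarith)) ((kap_exp (mul_nonneg a0 (hφ0 p))).trans ?_)
    have := mul_le_mul_of_nonneg_right a1 (hφ0 p)
    linarith
  have h5 : L / Real.log y * Real.exp (-(C₀ + n * (1 + |M|) + n ^ 2)) ≤
      ∏ p ∈ P, (1 + r p * φ p) := by
    refine le_trans ?_ (Finset.prod_le_prod (fun _ _ => (Real.exp_pos _).le) h4)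
    rw [← Real.exp_sum, ← Real.exp_log (div_pos hL0 hly), ← Real.exp_add, Real.exp_le_exp,
      Real.log_div hL0.ne' hly.ne', Finset.sum_sub_distrib, Finset.sum_sub_distrib,
      ← Finset.mul_sum, ← Finset.mul_sum]
    have b1 := hs _ hyY
    rw [Real.log_exp, ← hP] at b1
    have b2 := Vale.Agent.Lib.Mertens.sum_inv_sq_le P fun p hp => (hP1 p hp).1.two_le
    have b3 := (abs_le.1 (hM (Real.exp L) (by linarith))).2
    rw [Real.log_exp] at b3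
    have b4 : ∑ p ∈ P, Real.log p / p ≤ L + |M| := by
      refine le_trans (Finset.sum_le_sum_of_subset_of_nonneg (fun p hp => ?_) fun p _ _ =>
        div_nonneg (Real.log_natCast_nonneg p) (Nat.cast_nonneg p))
        (by linarith [le_abs_self M] : ∑ p ∈ (Finset.Icc 1 ⌊Real.exp L⌋₊).filter Nat.Prime,
          Real.log p / p ≤ L + |M|)
      rw [hP] at hp
      have := Finset.mem_filter.1 hp
      exact Finset.mem_filter.2 ⟨Finset.mem_Icc.2 ⟨this.2.pos, (Finset.mem_Ioc.1 this.1).2⟩, this.2⟩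
    have b5 : L⁻¹ * (L + |M|) ≤ 1 + |M| := by
      rw [inv_mul_le_iff₀ hL0]
      nlinarith [abs_nonneg M]
    have b6 : n * L⁻¹ * ∑ p ∈ P, Real.log p / p ≤ n * (1 + |M|) := by
      rw [mul_assoc]
      exact mul_le_mul_of_nonneg_left
        ((mul_le_mul_of_nonneg_left b4 (inv_pos.2 hL0).le).trans b5) (Nat.cast_nonneg n)
    have b7 := mul_le_mul_of_nonneg_left b2 (sq_nonneg (n : ℝ))
    linarith
  have h6 := mul_le_mul h3 h5 (by positivity)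
    (Finset.sum_nonneg fun k _ => mul_nonneg (hr.nonneg k) (hφ0 k))
  have h7 := (h6.trans_eq hsum).trans (h1.trans h2)
  have e : Real.exp (-1) * lm r y * (L / Real.log y * Real.exp (-(C₀ + n * (1 + |M|) + n ^ 2))) =
      lm r y / (Real.exp (1 + C₀ + n * (1 + |M|) + n ^ 2) * Real.log y) * L := by
    rw [show 1 + C₀ + n * (1 + |M|) + n ^ 2 = 1 + (C₀ + n * (1 + |M|) + n ^ 2) by ring,
      Real.exp_add 1, Real.exp_neg, Real.exp_neg]
    field_simp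
  rw [e] at h7
  have h8 := le_of_mul_le_mul_right h7 hL0
  rw [div_le_iff₀ (by positivity)] at h8
  linarith

end Vale.Agent.P007A
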