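import Vale.Agent.P007A.Defs

/-! Algebraic properties of the lattice of a point and of the diagonal group. -/

namespace Vale.Agent.P007A

open Vale.Agent.P007 Matrix MeasureTheory Filter Topology NumberField
open scoped ENNReal nonZeroDivisors Classical

variable {n m : ℕ}

theorem lat_mk (g : G n) : lat (mk g) = rows g.1 := Set.ext fun _ => mem_lat

theorem lat_mk_eq {g h : G n} : mk g = mk h ↔ ∃ γ : Matrix.SpecialLinearGroup (Fin n) ℤ,
    g = Matrix.SpecialLinearGroup.map (Int.castRingHom ℝ) γ * h := by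
  constructor
  · intro e
    obtain ⟨⟨_, γ, rfl⟩, rfl⟩ := Quotient.exact e
    exact ⟨γ, rfl⟩
  · rintro ⟨γ, rfl⟩
    exact Quotient.sound ⟨⟨_, γ, rfl⟩, rfl⟩

theorem lat_cast_vecMul (k : Fin n → ℤ) (M : Matrix (Fin n) (Fin n) ℤ) :
    (fun i => ((k ᵥ* M) i : ℝ)) = (fun i => (k i : ℝ)) ᵥ* M.map (Int.castRingHom ℝ) := by
  funext i
  simp [vecMul, dotProduct]

theorem lat_rows_mul (M : Matrix (Fin n) (Fin n) ℤ) (B : Matrix (Fin n) (Fin n) ℝ) :
    rows (M.map (Int.castRingHom ℝ) * B) ⊆ rows B := by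
  rintro _ ⟨k, rfl⟩
  exact ⟨k ᵥ* M, by rw [lat_cast_vecMul, vecMul_vecMul]⟩

theorem lat_rows_sub {A B : Matrix (Fin n) (Fin n) ℝ} (h : rows A ⊆ rows B) :
    ∃ M : Matrix (Fin n) (Fin n) ℤ, A = M.map (Int.castRingHom ℝ) * B := by
  have h1 : ∀ i, A i ∈ rows A := fun i => ⟨Pi.single i 1, by
    funext j
    simp [vecMul, dotProduct, Pi.single_apply]⟩
  choose k hk using fun i => h (h1 i)
  refine ⟨Matrix.of k, ?_⟩
  ext i j
  rw [hk i]
  simp [vecMul, dotProduct, Matrix.mul_apply]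

theorem lat_det_map (M : Matrix (Fin n) (Fin n) ℤ) :
    (M.map (Int.castRingHom ℝ)).det = (M.det : ℝ) := by
  rw [← RingHom.mapMatrix_apply, ← RingHom.map_det]
  rfl

theorem act_act (a b : G n) (x : X n) : act a (act b x) = act (b * a) x := by
  obtain ⟨g, rfl⟩ := mk_open.surjective x
  rw [act_mk, act_mk, act_mk, mul_assoc]

theorem act_one (x : X n) : act 1 x = x := by
  obtain ⟨g, rfl⟩ := mk_open.surjective x
  rw [act_mk, mul_one]

theorem act_cont2 : Continuous fun p : G n × X n => act p.1 p.2 := by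
  have h : IsOpenQuotientMap (Prod.map (id : G n → G n) (mk : G n → X n)) :=
    IsOpenQuotientMap.id.prodMap mk_open
  rw [← h.continuous_comp_iff]
  exact mk_open.continuous.comp (continuous_snd.mul continuous_fst)

theorem lat_act (a : G n) (x : X n) : lat (act a x) = (fun v => v ᵥ* a.1) '' lat x := by
  obtain ⟨g, rfl⟩ := mk_open.surjective x
  rw [act_mk, lat_mk, lat_mk]
  ext v
  constructor
  · rintro ⟨k, rfl⟩
    exact ⟨_, ⟨k, rfl⟩, by simp only [vecMul_vecMul]; rfl⟩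
  · rintro ⟨_, ⟨k, rfl⟩, rfl⟩
    exact ⟨k, by simp only [vecMul_vecMul]; rfl⟩

theorem zero_mem_lat (x : X n) : (0 : Fin n → ℝ) ∈ lat x := by
  obtain ⟨g, rfl⟩ := mk_open.surjective x
  refine mem_lat.2 ⟨0, ?_⟩
  funext j
  simp [vecMul, dotProduct]

theorem add_mem_lat {x : X n} {v w : Fin n → ℝ} (hv : v ∈ lat x) (hw : w ∈ lat x) :
    v + w ∈ lat x := by
  obtain ⟨g, rfl⟩ := mk_open.surjective x
  obtain ⟨k, rfl⟩ := mem_lat.1 hv
  obtain ⟨l, rfl⟩ := mem_lat.1 hw
  refine mem_lat.2 ⟨k + l, ?_⟩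
  rw [← add_vecMul]
  congr 1
  funext i
  simp

theorem zsmul_mem_lat {x : X n} {v : Fin n → ℝ} (hv : v ∈ lat x) (k : ℤ) :
    (k : ℝ) • v ∈ lat x := by
  obtain ⟨g, rfl⟩ := mk_open.surjective x
  obtain ⟨l, rfl⟩ := mem_lat.1 hv
  refine mem_lat.2 ⟨k • l, ?_⟩
  rw [← smul_vecMul]
  congr 1
  funext i
  simp

theorem lat_countable (x : X n) : (lat x).Countable := by
  obtain ⟨g, rfl⟩ := mk_open.surjective x
  refine (Set.countable_range fun k : Fin n → ℤ =>
    (fun i => (k i : ℝ)) ᵥ* (g : Matrix _ _ ℝ)).mono fun v hv => ?_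
  obtain ⟨k, rfl⟩ := mem_lat.1 hv
  exact ⟨k, rfl⟩

theorem lat_finite (x : X n) (T : ℝ) : (lat x ∩ Metric.closedBall 0 T).Finite := by
  obtain ⟨g, rfl⟩ := mk_open.surjective x
  have hc : Continuous fun v : Fin n → ℝ => v ᵥ* (g⁻¹).1 :=
    continuous_id.matrix_vecMul continuous_const
  obtain ⟨C, hC⟩ := ((isCompact_closedBall (0 : Fin n → ℝ) T).image hc).isBounded.exists_norm_le
  have hf : (Set.pi Set.univ fun _ : Fin n => Set.Icc (-⌈C⌉) ⌈C⌉).Finite :=
    Set.Finite.pi fun _ => Set.finite_Icc _ _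
  refine (hf.image fun k => (fun i => (k i : ℝ)) ᵥ* (g : Matrix _ _ ℝ)).subset ?_
  rintro v ⟨hv, hT⟩
  obtain ⟨k, rfl⟩ := mem_lat.1 hv
  refine ⟨k, fun i _ => ?_, rfl⟩
  have h1 := hC _ ⟨_, hT, rfl⟩
  have h2 : g.1 * (g⁻¹).1 = 1 := by
    rw [← Matrix.SpecialLinearGroup.coe_mul, mul_inv_cancel]
    rfl
  simp only [vecMul_vecMul] at h1
  rw [h2, vecMul_one] at h1
  have h3 : |(k i : ℝ)| ≤ ⌈C⌉ :=
    ((norm_le_pi_norm (fun i => (k i : ℝ)) i).trans h1).trans (Int.le_ceil C)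
  have h4 : |k i| ≤ ⌈C⌉ := by exact_mod_cast h3
  exact abs_le.1 h4

theorem lat_inj {x y : X n} (h : lat x = lat y) : x = y := by
  obtain ⟨g, rfl⟩ := mk_open.surjective x
  obtain ⟨g', rfl⟩ := mk_open.surjective y
  rw [lat_mk, lat_mk] at h
  obtain ⟨M, hM⟩ := lat_rows_sub h.le
  have h1 := congrArg Matrix.det hM
  rw [det_mul, lat_det_map, g.2, g'.2, mul_one] at h1
  have h2 : M.det = 1 := by exact_mod_cast h1.symm
  exact lat_mk_eq.2 ⟨⟨M, h2⟩, Subtype.ext hM⟩

theorem exists_lat {B : Matrix (Fin (m + 1)) (Fin (m + 1)) ℝ} (h : |B.det| = 1) :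
    ∃ x : X (m + 1), lat x = rows B := by
  rcases (abs_eq zero_le_one).1 h with h | h
  · exact ⟨mk ⟨B, h⟩, lat_mk _⟩
  · obtain ⟨D, hD, hD2⟩ : ∃ D : Matrix (Fin (m + 1)) (Fin (m + 1)) ℤ, D.det = -1 ∧ D * D = 1 := by
      refine ⟨diagonal (Function.update 1 0 (-1)), ?_, ?_⟩
      · rw [det_diagonal, Finset.prod_update_of_mem (Finset.mem_univ _)]
        simp
      · rw [diagonal_mul_diagonal, ← diagonal_one]
        congr 1
        funext i
        by_cases hi : i = 0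
        · simp [hi]
        · simp [Function.update_of_ne hi]
    have h1 : (D.map (Int.castRingHom ℝ) * B).det = 1 := by
      rw [det_mul, lat_det_map, hD, h]
      simp
    refine ⟨mk ⟨_, h1⟩, (lat_mk _).trans ((lat_rows_mul D B).antisymm ?_)⟩
    have h2 : B = D.map (Int.castRingHom ℝ) * (D.map (Int.castRingHom ℝ) * B) := by
      rw [← mul_assoc, ← Matrix.map_mul, hD2]
      simp
    conv_lhs => rw [h2]
    exact lat_rows_mul D _

theorem abs_det_of_rows {B : Matrix (Fin n) (Fin n) ℝ} {x : X n} (h : lat x = rows B) :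
    |B.det| = 1 := by
  obtain ⟨g, rfl⟩ := mk_open.surjective x
  rw [lat_mk] at h
  obtain ⟨M, hM⟩ := lat_rows_sub h.le
  obtain ⟨M', hM'⟩ := lat_rows_sub h.ge
  have h1 := congrArg Matrix.det hM
  have h2 := congrArg Matrix.det hM'
  rw [det_mul, lat_det_map, g.2] at h1 h2
  rw [mul_one] at h2
  rw [h2] at h1 ⊢
  have h3 : M'.det * M.det = 1 := by
    rw [mul_comm]
    exact_mod_cast h1.symm
  rcases Int.eq_one_or_neg_one_of_mul_eq_one h3 with h4 | h4 <;> simp [h4]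

theorem mk_locally_inj (g : G n) : ∃ U ∈ 𝓝 g, Set.InjOn (mk : G n → X n) U := by
  have hc0 : Continuous fun p : G n × G n => p.1 * p.2⁻¹ := continuous_fst.mul continuous_snd.inv
  have hc1 : Continuous fun p : G n × G n => (p.1 * p.2⁻¹).1 :=
    Matrix.SpecialLinearGroup.isClosedEmbedding_val.continuous.comp hc0
  have hc : ∀ i j, Continuous fun p : G n × G n => (p.1 * p.2⁻¹).1 i j := fun i j =>
    hc1.matrix_elem i j
  have h1 : ∀ᶠ p : G n × G n in 𝓝 (g, g), ∀ i j,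
      |(p.1 * p.2⁻¹).1 i j - (1 : Matrix (Fin n) (Fin n) ℝ) i j| < 1 := by
    refine eventually_all.2 fun i => eventually_all.2 fun j => ?_
    have h2 : Continuous fun p : G n × G n =>
        |(p.1 * p.2⁻¹).1 i j - (1 : Matrix (Fin n) (Fin n) ℝ) i j| :=
      ((hc i j).sub continuous_const).abs
    refine h2.continuousAt.eventually (gt_mem_nhds ?_)
    simp
  rw [nhds_prod_eq] at h1
  obtain ⟨U, hU, h2⟩ := mem_prod_self_iff.1 h1
  refine ⟨U, hU, fun a ha b hb e => ?_⟩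
  obtain ⟨γ, rfl⟩ := lat_mk_eq.1 e
  have h3 := h2 (Set.mk_mem_prod ha hb)
  have h4 : γ = 1 := by
    ext i j
    have h5 := h3 i j
    simp only [mul_inv_cancel_right] at h5
    have h6 : (1 : Matrix (Fin n) (Fin n) ℝ) i j = ((1 : Matrix (Fin n) (Fin n) ℤ) i j : ℝ) := by
      by_cases hij : i = j <;> simp [Matrix.one_apply, hij]
    rw [h6] at h5
    replace h5 : |(γ.1 i j : ℝ) - ((1 : Matrix (Fin n) (Fin n) ℤ) i j : ℝ)| < 1 := h5
    have h7 : |γ.1 i j - (1 : Matrix (Fin n) (Fin n) ℤ) i j| < 1 := by exact_mod_cast h5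
    exact sub_eq_zero.1 (Int.abs_lt_one_iff.1 h7)
  rw [h4, map_one, one_mul]

theorem ex_pos (u : Fin m → ℝ) (j : Fin (m + 1)) : 0 < ex u j := Real.exp_pos _

theorem ex_castSucc (u : Fin m → ℝ) (i : Fin m) : ex u i.castSucc = Real.exp (u i) := by
  simp [ex]

theorem ex_last (u : Fin m → ℝ) : ex u (Fin.last m) = Real.exp (-∑ i, u i) := by
  simp [ex]

theorem ex_zero : ex (0 : Fin m → ℝ) = 1 := by
  funext j
  refine Fin.lastCases ?_ (fun i => ?_) j
  · simp [ex_last]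
  · simp [ex_castSucc]

theorem ex_add (u v : Fin m → ℝ) : ex (u + v) = ex u * ex v := by
  funext j
  refine Fin.lastCases ?_ (fun i => ?_) j
  · simp only [Pi.mul_apply, ex_last, Pi.add_apply, Finset.sum_add_distrib, neg_add,
      Real.exp_add]
  · simp only [Pi.mul_apply, ex_castSucc, Pi.add_apply, Real.exp_add]

theorem prod_ex (u : Fin m → ℝ) : ∏ j, ex u j = 1 := by
  rw [Fin.prod_univ_castSucc, ex_last]
  simp only [ex_castSucc]
  rw [← Real.exp_sum, ← Real.exp_add, add_neg_cancel, Real.exp_zero]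

theorem ex_inj : Function.Injective (ex : (Fin m → ℝ) → Fin (m + 1) → ℝ) := fun u v h => by
  funext i
  have := congrFun h i.castSucc
  rwa [ex_castSucc, ex_castSucc, Real.exp_eq_exp] at this

theorem ex_cont : Continuous (ex : (Fin m → ℝ) → Fin (m + 1) → ℝ) := by
  refine continuous_pi fun j => ?_
  refine Fin.lastCases ?_ (fun i => ?_) j
  · simp only [ex_last]
    fun_prop
  · simp only [ex_castSucc]
    fun_prop

theorem exists_ex {a : Fin (m + 1) → ℝ} (h : ∀ j, 0 < a j) (h1 : ∏ j, a j = 1) :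
    ∃ u : Fin m → ℝ, ex u = a := by
  refine ⟨fun i => Real.log (a i.castSucc), funext fun j => ?_⟩
  refine Fin.lastCases ?_ (fun i => ?_) j
  · rw [ex_last, Real.exp_neg, Real.exp_sum]
    simp only [Real.exp_log (h _)]
    rw [Fin.prod_univ_castSucc] at h1
    exact (eq_inv_of_mul_eq_one_right h1).symm
  · rw [ex_castSucc, Real.exp_log (h _)]

theorem lat_tor_val (u : Fin m → ℝ) : (tor u).1 = diagonal (ex u) := rfl

theorem tor_zero : tor (0 : Fin m → ℝ) = 1 := by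
  refine Subtype.ext ?_
  rw [lat_tor_val, ex_zero]
  exact diagonal_one

theorem tor_add (u v : Fin m → ℝ) : tor (u + v) = tor u * tor v := by
  refine Subtype.ext ?_
  rw [Matrix.SpecialLinearGroup.coe_mul, lat_tor_val, lat_tor_val, lat_tor_val, ex_add,
    diagonal_mul_diagonal]
  rfl

theorem tor_inj : Function.Injective (tor : (Fin m → ℝ) → G (m + 1)) := fun u v h =>
  ex_inj (diagonal_injective ((lat_tor_val u).symm.trans
    ((congrArg Subtype.val h).trans (lat_tor_val v))))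

theorem vecMul_tor (u : Fin m → ℝ) (v : Fin (m + 1) → ℝ) : v ᵥ* (tor u).1 = v * ex u := by
  funext j
  rw [lat_tor_val, vecMul_diagonal]
  rfl

theorem lat_tor (u : Fin m → ℝ) (x : X (m + 1)) :
    lat (act (tor u) x) = (fun v => v * ex u) '' lat x := by
  rw [lat_act]
  simp only [vecMul_tor]

theorem act_tor_add (u v : Fin m → ℝ) (x : X (m + 1)) :
    act (tor (u + v)) x = act (tor v) (act (tor u) x) := by
  rw [act_act, tor_add]

theorem orb_cont (x : X (m + 1)) : Continuous fun u : Fin m → ℝ => act (tor u) x :=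
  act_cont2.comp (tor_cont.prodMk continuous_const)

theorem orb_locally_inj (x : X (m + 1)) (u : Fin m → ℝ) :
    ∃ U ∈ 𝓝 u, Set.InjOn (fun u : Fin m → ℝ => act (tor u) x) U := by
  obtain ⟨g, rfl⟩ := mk_open.surjective x
  obtain ⟨U, hU, h⟩ := mk_locally_inj (g * tor u)
  have hc : Continuous fun v : Fin m → ℝ => g * tor v := continuous_const.mul tor_cont
  exact ⟨_, hc.continuousAt hU, fun a ha b hb e => tor_inj (mul_left_cancel (h ha hb e))⟩

theorem stab_countable (x : X (m + 1)) : {u : Fin m → ℝ | act (tor u) x = x}.Countable := by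
  obtain ⟨g, rfl⟩ := mk_open.surjective x
  have : Countable (Matrix (Fin (m + 1)) (Fin (m + 1)) ℤ) :=
    inferInstanceAs (Countable (Fin (m + 1) → Fin (m + 1) → ℤ))
  have : Countable (Matrix.SpecialLinearGroup (Fin (m + 1)) ℤ) :=
    inferInstanceAs (Countable {A : Matrix (Fin (m + 1)) (Fin (m + 1)) ℤ // A.det = 1})
  refine (Set.countable_iUnion fun γ : Matrix.SpecialLinearGroup (Fin (m + 1)) ℤ =>
    Set.Subsingleton.countable (s := {u : Fin m → ℝ |
      g * tor u = Matrix.SpecialLinearGroup.map (Int.castRingHom ℝ) γ * g}) ?_).mono ?_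
  · exact fun a ha b hb => tor_inj (mul_left_cancel (ha.trans hb.symm))
  · exact fun u hu => Set.mem_iUnion.2 (lat_mk_eq.1 hu)

theorem pt_mul_ex (s : Fin (m + 1) → ℤˣ) (t : ℝ) (u v : Fin m → ℝ) :
    pt s t u * ex v = pt s t (u + v) := by
  funext j
  simp only [pt, ex_add, Pi.mul_apply, mul_assoc]

theorem lat_abs_unit (s : ℤˣ) : |((s : ℤ) : ℝ)| = 1 := by
  rcases Int.units_eq_one_or s with h | h <;> simp [h]

theorem lat_abs_pt (s : Fin (m + 1) → ℤˣ) {t : ℝ} (ht : 0 ≤ t) (u : Fin m → ℝ)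
    (j : Fin (m + 1)) : |pt s t u j| = t ^ (((m : ℝ) + 1)⁻¹) * ex u j := by
  rw [pt, abs_mul, abs_mul, lat_abs_unit, one_mul, abs_of_nonneg (Real.rpow_nonneg ht _),
    abs_of_pos (ex_pos u j)]

theorem lat_rpow_pow {t : ℝ} (ht : 0 ≤ t) : (t ^ (((m : ℝ) + 1)⁻¹)) ^ (m + 1) = t := by
  have h := Real.rpow_inv_natCast_pow ht (Nat.succ_ne_zero m)
  rwa [Nat.cast_succ] at h

theorem prod_pt (s : Fin (m + 1) → ℤˣ) {t : ℝ} (ht : 0 ≤ t) (u : Fin m → ℝ) :
    ∏ j, |pt s t u j| = t := by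
  simp only [lat_abs_pt s ht]
  rw [Finset.prod_mul_distrib, prod_ex, mul_one, Finset.prod_const, Finset.card_univ,
    Fintype.card_fin, lat_rpow_pow ht]

theorem exists_pt {w : Fin (m + 1) → ℝ} (hw : 0 < ∏ j, |w j|) :
    ∃ s u, w = pt s (∏ j, |w j|) u := by
  have h0 : ∀ j, w j ≠ 0 := fun j =>
    abs_ne_zero.1 (Finset.prod_ne_zero_iff.1 hw.ne' j (Finset.mem_univ j))
  have hc : 0 < (∏ j, |w j|) ^ (((m : ℝ) + 1)⁻¹) := Real.rpow_pos_of_pos hw _
  have hp := lat_rpow_pow (m := m) hw.le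
  obtain ⟨u, hu⟩ := exists_ex (a := fun j => |w j| / (∏ j, |w j|) ^ (((m : ℝ) + 1)⁻¹))
    (fun j => div_pos (abs_pos.2 (h0 j)) hc) (by
      rw [Finset.prod_div_distrib, Finset.prod_const, Finset.card_univ, Fintype.card_fin, hp,
        div_self hw.ne'])
  refine ⟨fun j => if 0 < w j then 1 else -1, u, funext fun j => ?_⟩
  rw [pt, hu, mul_assoc, mul_div_cancel₀ _ hc.ne']
  by_cases hj : 0 < w j
  · simp [hj, abs_of_pos hj]
  · simp [hj, abs_of_nonpos (not_lt.1 hj)]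

theorem pt_inj {s s' : Fin (m + 1) → ℤˣ} {t : ℝ} (ht : 0 < t) {u u' : Fin m → ℝ}
    (h : pt s t u = pt s' t u') : s = s' ∧ u = u' := by
  have hc : 0 < t ^ (((m : ℝ) + 1)⁻¹) := Real.rpow_pos_of_pos ht _
  have h1 : u = u' := ex_inj (funext fun j => by
    have h2 := congrArg (fun w : Fin (m + 1) → ℝ => |w j|) h
    simp only [lat_abs_pt _ ht.le] at h2
    exact mul_left_cancel₀ hc.ne' h2)
  subst h1
  refine ⟨funext fun j => ?_, rfl⟩
  have h2 := congrFun h j
  simp only [pt] at h2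
  have h3 := mul_right_cancel₀ hc.ne' (mul_right_cancel₀ (ex_pos u j).ne' h2)
  exact Units.ext (by exact_mod_cast h3)

end Vale.Agent.P007A
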