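import Vale.Agent.P007A.InvI

/-! Multiplicativity of the ideal counting function. -/

namespace Vale.Agent.P007A

open Vale.Agent.P007 Matrix MeasureTheory Filter Topology NumberField
open scoped ENNReal nonZeroDivisors Classical

variable {K : Type} [Field K] [NumberField K] {n m : ℕ} (o : Order K n)

theorem rO_one : rO o 1 = 1 := by
  have : {I | I ∈ Inv o ∧ idx I = 1} = {(⊤ : Ideal o.O)} := by
    ext I
    exact ⟨fun h => eq_top_of_idx h.2, fun h => by
      rw [show I = ⊤ from h]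
      exact ⟨top_mem_Inv, idx_top⟩⟩
  rw [rO, this, Set.ncard_singleton]

theorem mult_bez {R : Type*} [CommRing R] {a b : ℕ} (h : a.Coprime b) :
    ∃ u v : R, u * a + v * b = 1 := by
  obtain ⟨u, v, huv⟩ := (Nat.isCoprime_iff_coprime.2 h).map (Int.castRingHom R)
  exact ⟨u, v, by simpa using huv⟩

theorem mult_cop {R : Type*} [CommRing R] {a b : ℕ} (h : a.Coprime b) {I J : Ideal R}
    (ha : (a : R) ∈ I) (hb : (b : R) ∈ J) : IsCoprime I J := by
  obtain ⟨u, v, huv⟩ := mult_bez (R := R) h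
  exact Ideal.isCoprime_iff_exists.2 ⟨_, I.mul_mem_left u ha, _, J.mul_mem_left v hb, huv⟩

theorem mult_sup {R : Type*} [CommRing R] {a b : ℕ} (h : a.Coprime b) {I J : Ideal R}
    (ha : (a : R) ∈ I) (hb : (b : R) ∈ J) : I * J ⊔ Ideal.span {(a : R)} = I := by
  obtain ⟨u, v, huv⟩ := mult_bez (R := R) h
  refine le_antisymm (sup_le Ideal.mul_le_left ((Ideal.span_singleton_le_iff_mem _).2 ha))
    fun x hx => ?_
  have : x = x * (v * b) + x * u * a := by linear_combination -x * huv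
  rw [this]
  exact add_mem (Ideal.mem_sup_left (Ideal.mul_mem_mul hx (J.mul_mem_left v hb)))
    (Ideal.mem_sup_right (Ideal.mul_mem_left _ _ (Ideal.mem_span_singleton_self _)))

theorem mult_split {R : Type*} [CommRing R] {a b : ℕ} (h : a.Coprime b) {C : Ideal R}
    (hC : ((a * b : ℕ) : R) ∈ C) :
    (C ⊔ Ideal.span {(a : R)}) * (C ⊔ Ideal.span {(b : R)}) = C := by
  obtain ⟨u, v, huv⟩ := mult_bez (R := R) h
  refine le_antisymm ?_ fun x hx => ?_
  · rw [Ideal.sup_mul, Ideal.mul_sup (Ideal.span _), Ideal.span_singleton_mul_span_singleton]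
    refine sup_le Ideal.mul_le_left (sup_le Ideal.mul_le_right ?_)
    rw [Ideal.span_singleton_le_iff_mem]
    simpa using hC
  · have : x = u * (a * x) + v * (x * b) := by linear_combination -x * huv
    rw [this]
    exact add_mem
      (Ideal.mul_mem_left _ _ (Ideal.mul_mem_mul
        (Ideal.mem_sup_right (Ideal.mem_span_singleton_self _)) (Ideal.mem_sup_left hx)))
      (Ideal.mul_mem_left _ _ (Ideal.mul_mem_mul (Ideal.mem_sup_left hx)
        (Ideal.mem_sup_right (Ideal.mem_span_singleton_self _))))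

theorem rO_mul {a b : ℕ} (h : a.Coprime b) : rO o (a * b) = rO o a * rO o b := by
  rcases Nat.eq_zero_or_pos a with rfl | ha
  · simp [rO_zero]
  rcases Nat.eq_zero_or_pos b with rfl | hb
  · simp [rO_zero]
  have hm : ∀ {c : ℕ} {I : Ideal o.O}, idx I = c → (c : o.O) ∈ I := fun h => h ▸ idx_mem _
  rw [rO, rO, rO, ← Set.ncard_prod]
  refine (Set.ncard_congr (fun p _ => p.1 * p.2) ?_ ?_ ?_).symm
  · rintro ⟨I, J⟩ ⟨hI, hJ⟩
    refine ⟨mul_mem_Inv.2 ⟨hI.1, hJ.1⟩, ?_⟩
    rw [idx_mul_of_coprime (mult_cop h (hm hI.2) (hm hJ.2)), hI.2, hJ.2]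
  · rintro ⟨I, J⟩ ⟨I', J'⟩ ⟨hI, hJ⟩ ⟨hI', hJ'⟩ e
    have e : I * J = I' * J' := e
    refine Prod.ext ?_ ?_
    · show I = I'
      rw [← mult_sup h (I := I) (J := J) (hm hI.2) (hm hJ.2), e,
        mult_sup h (I := I') (J := J') (hm hI'.2) (hm hJ'.2)]
    · show J = J'
      rw [← mult_sup h.symm (I := J) (J := I) (hm hJ.2) (hm hI.2), mul_comm J, e, mul_comm I',
        mult_sup h.symm (I := J') (J := I') (hm hJ'.2) (hm hI'.2)]
  · rintro C ⟨hC, hi⟩
    have e := mult_split h (hm hi)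
    have hinv := mul_mem_Inv.1 (e.symm ▸ hC :
      (C ⊔ Ideal.span {(a : o.O)}) * (C ⊔ Ideal.span {(b : o.O)}) ∈ Inv o)
    have h1 := idx_mul_of_coprime (mult_cop h
      (Ideal.mem_sup_right (S := C) (Ideal.mem_span_singleton_self (a : o.O)))
      (Ideal.mem_sup_right (S := C) (Ideal.mem_span_singleton_self (b : o.O))))
    rw [e, hi] at h1
    have h2 : ∀ c : ℕ, idx (C ⊔ Ideal.span {(c : o.O)}) ∣ c ^ n := fun c =>
      idx_span_nat (o := o) c ▸ idx_dvd le_sup_right
    have h3 : idx (C ⊔ Ideal.span {(a : o.O)}) ∣ a :=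
      ((h.pow_left n).coprime_dvd_left (h2 a)).dvd_of_dvd_mul_right (Dvd.intro _ h1.symm)
    have h4 : idx (C ⊔ Ideal.span {(b : o.O)}) ∣ b :=
      ((h.symm.pow_left n).coprime_dvd_left (h2 b)).dvd_of_dvd_mul_left
        (Dvd.intro_left _ h1.symm)
    have h5 := Nat.le_of_dvd ha h3
    have h6 := Nat.le_of_dvd hb h4
    refine ⟨(_, _), ⟨⟨hinv.1, ?_⟩, ⟨hinv.2, ?_⟩⟩, e⟩
    · show idx (C ⊔ Ideal.span {(a : o.O)}) = a
      nlinarith
    · show idx (C ⊔ Ideal.span {(b : o.O)}) = b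
      nlinarith

/-- The inclusion of an order in the maximal order. -/
def multInc : o.O →+* 𝓞 K where
  toFun x := ⟨x, isIntegral_O o x.2⟩
  map_one' := rfl
  map_mul' _ _ := rfl
  map_zero' := rfl
  map_add' _ _ := rfl

theorem multInc_inj : Function.Injective (multInc o) := fun _ _ h =>
  Subtype.ext (congrArg (fun z : 𝓞 K => (z : K)) h)

theorem multInc_cond {f : ℕ} (hf : ∀ x : K, IsIntegral ℤ x → (f : K) * x ∈ o.O) (y : 𝓞 K) :
    ∃ x : o.O, multInc o x = f * y :=
  ⟨⟨_, hf y y.isIntegral_coe⟩, RingOfIntegers.ext (by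
    show (f : K) * y = ((f * y : 𝓞 K) : K)
    simp)⟩

theorem multInc_inv {f p : ℕ} (hf : ∀ x : K, IsIntegral ℤ x → (f : K) * x ∈ o.O) (hp : p ≠ 0)
    (hpf : p.Coprime f) {P : Ideal (𝓞 K)} (hP : (p : 𝓞 K) ∈ P) : P.comap (multInc o) ∈ Inv o := by
  obtain ⟨Q, hQ⟩ : P ∣ Ideal.span {(p : 𝓞 K)} :=
    Ideal.dvd_iff_le.2 ((Ideal.span_singleton_le_iff_mem _).2 hP)
  have hpQ : (p : 𝓞 K) ∈ P * Q := hQ ▸ Ideal.mem_span_singleton_self _
  have key : P.comap (multInc o) * Q.comap (multInc o) = Ideal.span {(p : o.O)} := by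
    refine le_antisymm ((Ideal.le_comap_mul _).trans fun x hx => ?_) ?_
    · rw [Ideal.mem_comap, ← hQ, Ideal.mem_span_singleton'] at hx
      obtain ⟨y, hy⟩ := hx
      obtain ⟨z, hz⟩ := multInc_cond o hf y
      obtain ⟨u, v, huv⟩ := mult_bez (R := o.O) hpf
      refine Ideal.mem_span_singleton'.2 ⟨u * x + v * z, multInc_inj o ?_⟩
      have h1 := congrArg (multInc o) huv
      simp only [map_add, map_mul, map_natCast, map_one] at h1 ⊢
      rw [hz, ← hy]
      linear_combination y * p * h1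
    · have h1 : ∀ z ∈ P * Q, ∃ w ∈ P.comap (multInc o) * Q.comap (multInc o),
          multInc o w = f ^ 2 * z := by
        intro z hz
        refine Submodule.mul_induction_on hz (fun a ha b hb => ?_) ?_
        · obtain ⟨a', ha'⟩ := multInc_cond o hf a
          obtain ⟨b', hb'⟩ := multInc_cond o hf b
          refine ⟨a' * b', Ideal.mul_mem_mul ?_ ?_, ?_⟩
          · rw [Ideal.mem_comap, ha']
            exact P.mul_mem_left _ ha
          · rw [Ideal.mem_comap, hb']
            exact Q.mul_mem_left _ hb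
          · rw [map_mul, ha', hb']
            ring
        · rintro x y ⟨x', hx, ex⟩ ⟨y', hy, ey⟩
          exact ⟨x' + y', add_mem hx hy, by rw [map_add, ex, ey, mul_add]⟩
      obtain ⟨w, hw, ew⟩ := h1 _ hpQ
      have h2 : w = f ^ 2 * p := multInc_inj o (by simpa using ew)
      have h3 : (p : o.O) * p ∈ P.comap (multInc o) * Q.comap (multInc o) :=
        Ideal.mul_mem_mul (by simpa using hP) (by simpa using Ideal.mul_le_right hpQ)
      obtain ⟨u, v, huv⟩ := mult_bez (R := o.O) (hpf.pow_right 2)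
      rw [Ideal.span_singleton_le_iff_mem]
      have h4 : (p : o.O) = u * (p * p) + v * w := by
        rw [h2]
        push_cast at huv
        linear_combination -p * huv
      rw [h4]
      exact add_mem (Ideal.mul_mem_left _ _ h3) (Ideal.mul_mem_left _ _ hw)
  exact (mul_mem_Inv.1 (key ▸ span_mem_Inv (Nat.cast_ne_zero.2 hp))).1

theorem aF_le_rO {f p : ℕ} (hf : ∀ x : K, IsIntegral ℤ x → (f : K) * x ∈ o.O) (hp : p.Prime)
    (hpf : ¬ p ∣ f) : aF K p ≤ rO o p := by
  have := Fact.mk hp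
  have hfin : Finite {I | I ∈ Inv o ∧ idx I = p} := (finite_Inv_idx o p).to_subtype
  rw [aF, rO, ← Nat.card_coe_set_eq]
  refine Nat.card_le_card_of_injective
    (fun φ => ⟨RingHom.ker (φ.comp (multInc o)), ?_, ?_⟩) fun φ ψ h => ?_
  · rw [← RingHom.comap_ker]
    exact multInc_inv o hf hp.ne_zero (hp.coprime_iff_not_dvd.2 hpf) (by simp [RingHom.mem_ker])
  · rw [idx, Nat.card_congr
      (RingHom.quotientKerEquivOfSurjective (ZMod.ringHom_surjective _)).toEquiv, Nat.card_zmod]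
  · have h1 := ZMod.ringHom_eq_of_ker_eq _ _ (congrArg Subtype.val h)
    ext y
    obtain ⟨x, hx⟩ := multInc_cond o hf y
    have h2 : φ (multInc o x) = ψ (multInc o x) := congrArg (fun g => g x) h1
    rw [hx, map_mul, map_mul, map_natCast, map_natCast] at h2
    exact mul_left_cancel₀ (mt (ZMod.natCast_eq_zero_iff f p).1 hpf) h2

end Vale.Agent.P007A
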