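import Vale.Agent.P007A.Sg

/-! Integration over one torus orbit. -/

namespace Vale.Agent.P007A

open Vale.Agent.P007 Matrix MeasureTheory Filter Topology NumberField
open scoped ENNReal nonZeroDivisors Classical

variable {n m : ℕ}

/-- The stabiliser of a point in the diagonal group. -/
def orbStab (x : X (m + 1)) : AddSubgroup (Fin m → ℝ) where
  carrier := {u | act (tor u) x = x}
  zero_mem' := by
    show act (tor 0) x = x
    rw [tor_zero, act_one]
  add_mem' := by
    intro u v hu hv
    show act (tor (u + v)) x = x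
    rw [act_tor_add, show act (tor u) x = x from hu]
    exact hv
  neg_mem' := by
    intro u hu
    show act (tor (-u)) x = x
    have h := act_tor_add u (-u) x
    rw [add_neg_cancel, tor_zero, act_one, show act (tor u) x = x from hu] at h
    exact h.symm

theorem orbStab_countable (x : X (m + 1)) : Countable (orbStab x) :=
  (stab_countable x).to_subtype

theorem orbStab_add (x : X (m + 1)) (g : orbStab x) (u : Fin m → ℝ) :
    act (tor (g.1 + u)) x = act (tor u) x := by
  rw [act_tor_add, show act (tor g.1) x = x from g.2]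

theorem orbStab_sub {x : X (m + 1)} {u v : Fin m → ℝ} (h : act (tor u) x = act (tor v) x) :
    u - v ∈ orbStab x := by
  show act (tor (u - v)) x = x
  rw [sub_eq_add_neg, act_tor_add, h, ← act_tor_add, add_neg_cancel, tor_zero, act_one]

theorem orbStab_unique {x : X (m + 1)} {D : Set (Fin m → ℝ)}
    (hb : Set.BijOn (fun u => act (tor u) x) D (Set.range fun u => act (tor u) x))
    (u : Fin m → ℝ) : ∃! g : orbStab x, g.1 + u ∈ D := by
  obtain ⟨d, hd, h⟩ := hb.surjOn ⟨u, rfl⟩
  refine ⟨⟨d - u, orbStab_sub h⟩, by simpa using hd, fun g hg => Subtype.ext ?_⟩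
  have : g.1 + u = d := hb.injOn hg hd ((orbStab_add x g u).trans h.symm)
  exact eq_sub_of_add_eq this

theorem orbStab_fd {x : X (m + 1)} {D : Set (Fin m → ℝ)} (hD : MeasurableSet D)
    (hb : Set.BijOn (fun u => act (tor u) x) D (Set.range fun u => act (tor u) x))
    (v : Fin m → ℝ) :
    IsAddFundamentalDomain (orbStab x) ((fun u => u + v) ⁻¹' D) volume := by
  refine IsAddFundamentalDomain.mk' (hD.preimage (by fun_prop)).nullMeasurableSet fun u => ?_
  have h := orbStab_unique hb (u + v)
  simp only [← add_assoc] at h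
  exact h

theorem orbStab_fd0 {x : X (m + 1)} {D : Set (Fin m → ℝ)} (hD : MeasurableSet D)
    (hb : Set.BijOn (fun u => act (tor u) x) D (Set.range fun u => act (tor u) x)) :
    IsAddFundamentalDomain (orbStab x) D volume :=
  IsAddFundamentalDomain.mk' hD.nullMeasurableSet (orbStab_unique hb)

theorem orb_inv {x : X (m + 1)} {D : Set (Fin m → ℝ)} (hD : MeasurableSet D)
    (hb : Set.BijOn (fun u => act (tor u) x) D (Set.range fun u => act (tor u) x)) :
    AInv ((volume.restrict D).map fun u => act (tor u) x) := by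
  intro v
  have := orbStab_countable x
  have hπ : Measurable fun u : Fin m → ℝ => act (tor u) x := (orb_cont x).measurable
  have ha : Measurable (act (tor v) : X (m + 1) → X (m + 1)) := (act_cont _).measurable
  ext A hA
  rw [Measure.map_apply ha hA, Measure.map_apply hπ (ha hA), Measure.map_apply hπ hA,
    Measure.restrict_apply (hπ (ha hA)), Measure.restrict_apply (hπ hA)]
  have hE : ∀ g : orbStab x, (fun u => g +ᵥ u) ⁻¹' ((fun u => act (tor u) x) ⁻¹' A) =
      (fun u => act (tor u) x) ⁻¹' A := by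
    intro g
    ext u
    show act (tor (g.1 + u)) x ∈ A ↔ act (tor u) x ∈ A
    rw [orbStab_add]
  rw [(orbStab_fd0 hD hb).measure_set_eq (orbStab_fd hD hb (-v)) (hπ hA) hE,
    ← measure_preimage_add_right volume v ((fun u => act (tor u) x) ⁻¹' A ∩ _)]
  refine congrArg volume ?_
  ext u
  simp only [Set.mem_inter_iff, Set.mem_preimage, add_neg_cancel_right, act_tor_add]

theorem orb_pos {x : X (m + 1)} {D : Set (Fin m → ℝ)} (hD : MeasurableSet D)
    (hb : Set.BijOn (fun u => act (tor u) x) D (Set.range fun u => act (tor u) x)) :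
    volume D ≠ 0 := by
  have := orbStab_countable x
  exact (orbStab_fd0 hD hb).measure_ne_zero (NeZero.ne _)

theorem orb_unfold {x : X (m + 1)} {D : Set (Fin m → ℝ)} (hD : MeasurableSet D)
    (hb : Set.BijOn (fun u => act (tor u) x) D (Set.range fun u => act (tor u) x))
    {ι : Type} (t : ι → Fin (m + 1) → ℝ) (ht : ∀ i, t i ∈ lat x ∧ t i ≠ 0)
    (hu : ∀ w ∈ lat x, w ≠ 0 →
      ∃! p : ι × (Fin m → ℝ), act (tor p.2) x = x ∧ w = t p.1 * ex p.2)
    {f : (Fin (m + 1) → ℝ) → ℝ≥0∞} (hf : Measurable f) :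
    ∫⁻ u in D, sg f (act (tor u) x) = ∑' i, ∫⁻ u : Fin m → ℝ, f (t i * ex u) := by
  have := orbStab_countable x
  have hmem : ∀ p : ι × orbStab x, t p.1 * ex p.2.1 ∈ lat x \ {0} := by
    rintro ⟨i, g⟩
    refine ⟨?_, fun h => (ht i).2 ?_⟩
    · have h := lat_tor g.1 x
      rw [show act (tor g.1) x = x from g.2] at h
      rw [h]
      exact ⟨t i, (ht i).1, rfl⟩
    · funext j
      have h1 : t i j * ex g.1 j = 0 := congrFun h j
      exact (mul_eq_zero.1 h1).resolve_right (ex_pos _ j).ne'
  let e : ι × orbStab x → (lat x \ {0} : Set (Fin (m + 1) → ℝ)) := fun p => ⟨_, hmem p⟩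
  have he : Function.Bijective e := by
    constructor
    · intro p q h
      have h1 : t p.1 * ex p.2.1 = t q.1 * ex q.2.1 := congrArg Subtype.val h
      have h2 := (hu _ (hmem p).1 (hmem p).2).unique (y₁ := (p.1, p.2.1)) (y₂ := (q.1, q.2.1))
        ⟨p.2.2, rfl⟩ ⟨q.2.2, h1⟩
      exact Prod.ext (Prod.ext_iff.1 h2).1 (Subtype.ext (Prod.ext_iff.1 h2).2)
    · rintro ⟨w, hw, hw0⟩
      obtain ⟨p, ⟨h1, h2⟩, -⟩ := hu w hw hw0
      exact ⟨(p.1, ⟨p.2, h1⟩), Subtype.ext h2.symm⟩
  have hc : Countable (lat x \ {0} : Set (Fin (m + 1) → ℝ)) :=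
    ((lat_countable x).mono Set.sdiff_subset).to_subtype
  have hc2 : Countable (ι × orbStab x) := he.1.countable
  have hc3 : Countable ι :=
    (show Function.Injective fun i : ι => (i, (0 : orbStab x)) from
      fun i j h => congrArg Prod.fst h).countable
  have hm : ∀ i, Measurable fun u : Fin m → ℝ => f (t i * ex u) := fun i =>
    hf.comp (continuous_const.mul ex_cont).measurable
  have h1 : ∀ u, sg f (act (tor u) x) = ∑' i, ∑' g : orbStab x, f (t i * ex (g.1 + u)) := by
    intro u
    rw [sg_act, sg, ← (Equiv.ofBijective e he).tsum_eq, ← ENNReal.tsum_prod]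
    refine tsum_congr fun p => ?_
    rw [vecMul_tor, ex_add, ← mul_assoc]
    rfl
  have hm2 : ∀ i (g : orbStab x), Measurable fun u : Fin m → ℝ => f (t i * ex (g.1 + u)) :=
    fun i g => (hm i).comp (measurable_const_add _)
  simp_rw [h1]
  rw [lintegral_tsum fun i => (Measurable.tsum (hm2 i)).aemeasurable]
  refine tsum_congr fun i => ?_
  rw [lintegral_tsum fun g => (hm2 i g).aemeasurable, (orbStab_fd0 hD hb).lintegral_eq_tsum'']
  rfl

end Vale.Agent.P007A
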