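import Vale.Agent.P007A.Defs

/-! Basic properties of orders and of the index of ideals. -/

namespace Vale.Agent.P007A

open Vale.Agent.P007 Matrix MeasureTheory Filter Topology NumberField
open scoped ENNReal nonZeroDivisors Classical

variable {K : Type} [Field K] [NumberField K] {n m : ℕ} (o : Order K n)

theorem ord_mem {x : K} : x ∈ o.O ↔ x ∈ Submodule.span ℤ (Set.range o.b) := by
  rw [← SetLike.mem_coe, o.span_eq, SetLike.mem_coe]

theorem ord_b_mem (i : Fin n) : o.b i ∈ o.O := (ord_mem o).2 (Submodule.subset_span ⟨i, rfl⟩)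

theorem exists_zb : ∃ b : Module.Basis (Fin n) ℤ o.O, ∀ i, (b i : K) = o.b i := by
  have hl : LinearIndependent ℤ o.b :=
    o.b.linearIndependent.restrict_scalars' ℤ
  let v : Fin n → o.O := fun i => ⟨o.b i, ord_b_mem o i⟩
  have h1 : LinearIndependent ℤ v :=
    LinearIndependent.of_comp o.O.subtype.toAddMonoidHom.toIntLinearMap hl
  have h2 : ⊤ ≤ Submodule.span ℤ (Set.range v) := by
    rintro ⟨x, hx⟩ -
    obtain ⟨c, hc⟩ := (Submodule.mem_span_range_iff_exists_fun ℤ).1 ((ord_mem o).1 hx)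
    refine (Submodule.mem_span_range_iff_exists_fun ℤ).2 ⟨c, Subtype.ext ?_⟩
    simpa [v] using hc
  exact ⟨Module.Basis.mk h1 h2, fun i => by simp [v]⟩

theorem free_O : Module.Free ℤ o.O := by
  obtain ⟨b, -⟩ := exists_zb o
  exact Module.Free.of_basis b

theorem finite_O : Module.Finite ℤ o.O := by
  obtain ⟨b, -⟩ := exists_zb o
  exact Module.Finite.of_basis b

theorem finrank_O : Module.finrank ℤ o.O = n := by
  obtain ⟨b, -⟩ := exists_zb o
  rw [Module.finrank_eq_card_basis b, Fintype.card_fin]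

include o in
theorem finrank_K : Module.finrank ℚ K = n := by
  rw [Module.finrank_eq_card_basis o.b, Fintype.card_fin]

include o in
theorem one_le_n : 1 ≤ n := by
  rw [← finrank_K o]
  exact Module.finrank_pos

theorem exists_nat_mul (x : K) : ∃ d : ℕ, d ≠ 0 ∧ (d : K) * x ∈ o.O := by
  refine ⟨∏ i, (o.b.repr x i).den, Finset.prod_ne_zero_iff.2 fun i _ => Rat.den_ne_zero _, ?_⟩
  conv => enter [2, 2]; rw [← o.b.sum_repr x]
  rw [Finset.mul_sum]
  refine sum_mem fun i _ => ?_
  obtain ⟨c, hc⟩ := Finset.dvd_prod_of_mem (fun i => (o.b.repr x i).den) (Finset.mem_univ i)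
  have h1 : ((o.b.repr x i).den : K) * (o.b.repr x i • o.b i) =
      ((o.b.repr x i).num : K) * o.b i := by
    rw [Rat.smul_def, ← mul_assoc]
    congr 1
    have h2 := congrArg (Rat.cast : ℚ → K) (Rat.den_mul_eq_num (o.b.repr x i))
    rwa [Rat.cast_mul, Rat.cast_natCast, Rat.cast_intCast] at h2
  rw [hc, Nat.cast_mul, mul_comm ((o.b.repr x i).den : K), mul_assoc, h1]
  exact mul_mem (natCast_mem _ _) (mul_mem (intCast_mem _ _) (ord_b_mem o i))

theorem isFrac : IsFractionRing o.O K := by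
  refine IsFractionRing.of_field o.O K fun x => ?_
  obtain ⟨d, hd, h⟩ := exists_nat_mul o x
  refine ⟨⟨_, h⟩, d, ?_⟩
  have hd' : (d : K) ≠ 0 := Nat.cast_ne_zero.2 hd
  rw [map_natCast, eq_div_iff hd', mul_comm]
  rfl

theorem isIntegral_O {x : K} (hx : x ∈ o.O) : IsIntegral ℤ x := by
  have := finite_O o
  exact (IsIntegral.of_finite ℤ (⟨x, hx⟩ : o.O)).map o.O.subtype.toIntAlgHom

theorem ord_cond : ∃ t : ℤ, t ≠ 0 ∧ o.disc = ((t ^ 2 * discr K : ℤ) : ℚ) ∧
    ∀ x : K, IsIntegral ℤ x → (t : K) * x ∈ o.O := by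
  let f := (integralBasis K).indexEquiv o.b
  let b := (RingOfIntegers.basis K).reindex f
  let e' : Fin n → 𝓞 K := fun i => ⟨o.b i, isIntegral_O o (ord_b_mem o i)⟩
  let T := b.toMatrix e'
  have hT : ∀ j, e' j = ∑ i, T i j • b i := fun j => (b.sum_toMatrix_smul_self e' j).symm
  have h2 : Algebra.discr ℚ o.b = ((T.det ^ 2 * discr K : ℤ) : ℚ) := by
    have := Algebra.discr_of_matrix_vecMul (integralBasis K ∘ f.symm) (T.map (Int.castRingHom ℚ))
    rw [Algebra.discr_reindex, ← coe_discr, ← RingHom.mapMatrix_apply (Int.castRingHom ℚ),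
      ← RingHom.map_det] at this
    rw [Int.cast_mul, Int.cast_pow, ← eq_intCast (Int.castRingHom ℚ), ← this]
    congr 1
    funext j
    refine (congrArg (algebraMap (𝓞 K) K) (hT j)).trans ?_
    simp [b, Matrix.vecMul, dotProduct, mul_comm]
  have h3 : T.det ^ 2 * discr K ≠ 0 := fun h =>
    Algebra.discr_not_zero_of_basis ℚ o.b (by rw [h2, h, Int.cast_zero])
  have h4 : ∀ j, T.det • b j = ∑ i, T.adjugate i j • e' i := fun j => by
    simp_rw [hT, Finset.smul_sum, smul_smul, mul_comm (T.adjugate _ _)]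
    rw [Finset.sum_comm]
    simp_rw [← Finset.sum_smul, ← Matrix.mul_apply, Matrix.mul_adjugate]
    simp [Matrix.one_apply]
  refine ⟨T.det, fun h => h3 (by rw [h]; ring), h2, fun x hx => ?_⟩
  have h5 : ∀ y : 𝓞 K, T.det • y ∈ Submodule.span ℤ (Set.range e') := fun y => by
    rw [← b.sum_repr y, Finset.smul_sum]
    refine sum_mem fun j _ => ?_
    rw [smul_comm, h4]
    exact Submodule.smul_mem _ _ (sum_mem fun i _ =>
      Submodule.smul_mem _ _ (Submodule.subset_span ⟨i, rfl⟩))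
  have h6 := Submodule.mem_map_of_mem (f := (algebraMap (𝓞 K) K).toIntAlgHom.toLinearMap)
    (h5 ⟨x, hx⟩)
  rw [Submodule.map_span, ← Set.range_comp] at h6
  replace h6 : T.det • x ∈ Submodule.span ℤ (Set.range o.b) := h6
  rw [← zsmul_eq_mul]
  exact (ord_mem o).2 h6

theorem rtD_sq : rtD o ^ 2 = |(o.disc : ℝ)| := Real.sq_sqrt (abs_nonneg _)

theorem exists_cond : ∃ f : ℕ, 1 ≤ f ∧ (f : ℝ) ≤ rtD o ∧
    ((NumberField.discr K).natAbs : ℝ) ≤ rtD o ^ 2 ∧
    ∀ x : K, IsIntegral ℤ x → (f : K) * x ∈ o.O := by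
  obtain ⟨t, ht, hd, h⟩ := ord_cond o
  have h1 : |(o.disc : ℝ)| = |(t : ℝ)| ^ 2 * |(discr K : ℝ)| := by
    rw [hd]
    push_cast
    rw [abs_mul, abs_pow]
  have h2 : (1 : ℝ) ≤ |(t : ℝ)| := by exact_mod_cast Int.one_le_abs ht
  have h3 : (1 : ℝ) ≤ |(discr K : ℝ)| := by exact_mod_cast Int.one_le_abs (discr_ne_zero K)
  refine ⟨t.natAbs, Int.natAbs_pos.2 ht, ?_, ?_, fun x hx => ?_⟩
  · rw [Nat.cast_natAbs, Int.cast_abs, rtD, h1]
    refine Real.le_sqrt_of_sq_le ?_
    nlinarith
  · rw [Nat.cast_natAbs, Int.cast_abs, rtD_sq, h1]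
    exact le_mul_of_one_le_left (abs_nonneg _) (one_le_pow₀ h2)
  · rw [Nat.cast_natAbs]
    rcases abs_choice t with h4 | h4 <;> rw [h4]
    · exact h x hx
    · rw [Int.cast_neg, neg_mul]
      exact neg_mem (h x hx)

theorem one_le_rtD : 1 ≤ rtD o := by
  obtain ⟨f, h1, h2, -⟩ := exists_cond o
  exact le_trans (by exact_mod_cast h1) h2

variable {o}

theorem idx_ne_zero {I : Ideal o.O} (hI : I ≠ ⊥) : idx I ≠ 0 := by
  have := free_O o
  have := finite_O o
  have := I.finiteQuotientOfFreeOfNeBot hI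
  exact Nat.card_pos.ne'

theorem idx_eq_index (I : Ideal o.O) : idx I = I.toAddSubgroup.index := rfl

theorem idx_top : idx (⊤ : Ideal o.O) = 1 := by
  rw [idx_eq_index]
  exact AddSubgroup.index_top

theorem eq_top_of_idx {I : Ideal o.O} (h : idx I = 1) : I = ⊤ := by
  rw [idx_eq_index, AddSubgroup.index_eq_one] at h
  exact Submodule.toAddSubgroup_injective h

theorem idx_mem (I : Ideal o.O) : (idx I : o.O) ∈ I := by
  rw [← Ideal.Quotient.eq_zero_iff_mem, map_natCast, ← nsmul_one]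
  exact card_nsmul_eq_zero'

theorem idx_dvd {I J : Ideal o.O} (h : I ≤ J) : idx J ∣ idx I :=
  AddSubgroup.index_dvd_of_le (H := I.toAddSubgroup) (K := J.toAddSubgroup) h

theorem idx_span (α : o.O) : idx (Ideal.span {α}) = (Algebra.norm ℤ α).natAbs := by
  have := free_O o
  have := finite_O o
  by_cases hr : α = 0
  · rw [hr, Algebra.norm_zero, Ideal.span_singleton_zero, idx_eq_index]
    exact AddSubgroup.index_bot.trans Nat.card_eq_zero_of_infinite
  · let b := Module.Free.chooseBasis ℤ o.O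
    have h := Submodule.natAbs_det_basis_change b ((Ideal.span {α}).restrictScalars ℤ)
      (Ideal.basisSpanSingleton b hr)
    refine h.symm.trans (congrArg Int.natAbs ?_)
    rw [Algebra.norm_apply, ← mul_one (LinearMap.det _), ← b.det_self, ← Module.Basis.det_comp]
    refine congrArg b.det (funext fun i => ?_)
    exact Ideal.basisSpanSingleton_apply b hr i

theorem idx_span_nat (q : ℕ) : idx (Ideal.span {(q : o.O)}) = q ^ n := by
  have := free_O o
  have := finite_O o
  rw [idx_span, Algebra.norm_natCast, finrank_O]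
  simp

theorem idx_mul_of_coprime {I J : Ideal o.O} (h : IsCoprime I J) :
    idx (I * J) = idx I * idx J := by
  rw [idx, idx, idx, Nat.card_congr (Ideal.quotientMulEquivQuotientProd I J h).toEquiv,
    Nat.card_prod]

theorem finite_idx (o : Order K n) {k : ℕ} (hk : k ≠ 0) :
    {I : Ideal o.O | idx I = k}.Finite := by
  have hf : Finite (o.O ⧸ Ideal.span {(k : o.O)}) :=
    Nat.finite_of_card_ne_zero ((idx_span_nat k).trans_ne (pow_ne_zero _ hk))
  have hf2 : Finite (Ideal (o.O ⧸ Ideal.span {(k : o.O)})) :=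
    Finite.of_injective _ SetLike.coe_injective
  have hle : ∀ I : Ideal o.O, idx I = k → Ideal.span {(k : o.O)} ≤ I := fun I hI =>
    (Ideal.span_singleton_le_iff_mem _).2 (hI ▸ idx_mem I)
  refine Set.Finite.of_finite_image
    (f := fun I : Ideal o.O => I.map (Ideal.Quotient.mk (Ideal.span {(k : o.O)})))
    (Set.toFinite _) fun I hI J hJ h => ?_
  rw [← Ideal.comap_map_mk (hle I hI), ← Ideal.comap_map_mk (hle J hJ)]
  exact congrArg _ h

end Vale.Agent.P007A
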