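import Vale.Agent.P007A.Mult

/-! The number of invertible ideals of prime power index. -/

namespace Vale.Agent.P007A

open Vale.Agent.P007 Matrix MeasureTheory Filter Topology NumberField
open scoped ENNReal nonZeroDivisors Classical

variable {K : Type} [Field K] [NumberField K] {n m : ℕ}

theorem pp_dvd {p a b : ℤ} (hp : Prime p) {e i : ℕ} (h : p ^ e ∣ a * b)
    (ha : ¬ p ^ (i + 1) ∣ a) : p ^ (e - i) ∣ b := by
  have ha0 : a ≠ 0 := fun h0 => ha (h0 ▸ dvd_zero _)
  obtain ⟨l, a', h1, rfl⟩ := WfDvdMonoid.max_power_factor ha0 hp.irreducible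
  have hl : l ≤ i := by
    by_contra hc
    exact ha (Dvd.dvd.mul_right (pow_dvd_pow p (by omega)) a')
  rcases le_or_gt e l with h2 | h2
  · rw [Nat.sub_eq_zero_of_le (h2.trans hl), pow_zero]
    exact one_dvd _
  · have h3 : p ^ l * p ^ (e - l) ∣ p ^ l * (a' * b) := by
      rw [← pow_add, Nat.add_sub_cancel' h2.le, ← mul_assoc]
      exact h
    have h4 := (mul_dvd_mul_iff_left (pow_ne_zero l hp.ne_zero)).1 h3
    exact (pow_dvd_pow p (by omega)).trans (hp.pow_dvd_of_dvd_mul_left _ h1 h4)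

open Polynomial in
theorem pp_sep {p : ℤ} (hp : Prime p) (i d : ℕ) : ∀ (P : ℤ[X]) (e : ℕ) (S : Finset ℤ), P.Monic →
    P.natDegree = d → (∀ s ∈ S, ∀ t ∈ S, s ≠ t → ¬ p ^ (i + 1) ∣ s - t) →
    (∀ t ∈ S, p ^ e ∣ P.eval t) → d * i < e → S.card ≤ d := by
  induction d with
  | zero =>
    intro P e S hP hd _ h he
    rw [Nat.le_zero, Finset.card_eq_zero, Finset.eq_empty_iff_forall_notMem]
    intro t ht
    have h1 := h t ht
    rw [hP.natDegree_eq_zero.1 hd, eval_one] at h1
    exact hp.not_dvd_one ((dvd_pow_self p (by omega)).trans h1)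
  | succ d ih =>
    intro P e S hP hd hS h he
    rcases S.eq_empty_or_nonempty with rfl | ⟨t₀, ht₀⟩
    · simp
    have hm := monic_X_sub_C t₀
    have hQd : (P /ₘ (Polynomial.X - C t₀)).natDegree = d := by
      rw [natDegree_divByMonic P hm, hd, natDegree_X_sub_C]
      rfl
    have hQm : (P /ₘ (Polynomial.X - C t₀)).Monic := by
      have h1 := leadingCoeff_divByMonic_X_sub_C P (by
        rw [degree_eq_natDegree hP.ne_zero, hd]
        exact_mod_cast Nat.succ_ne_zero d) t₀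
      exact h1.trans hP
    have hev : ∀ t, P.eval t = P.eval t₀ + (t - t₀) * (P /ₘ (Polynomial.X - C t₀)).eval t := fun t => by
      conv_lhs => rw [← modByMonic_add_div P (Polynomial.X - C t₀), modByMonic_X_sub_C_eq_C_eval]
      simp
    have h1 := ih (P /ₘ (Polynomial.X - C t₀)) (e - i) (S.erase t₀) hQm hQd
      (fun s hs t ht => hS s (Finset.mem_of_mem_erase hs) t (Finset.mem_of_mem_erase ht))
      (fun t ht => by
        have h2 := h t (Finset.mem_of_mem_erase ht)
        rw [hev t] at h2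
        exact pp_dvd hp ((dvd_add_right (h t₀ ht₀)).1 h2)
          (hS t (Finset.mem_of_mem_erase ht) t₀ ht₀ (Finset.ne_of_mem_erase ht)))
      (by rw [Nat.succ_mul] at he; omega)
    rw [Finset.card_erase_of_mem ht₀] at h1
    omega

theorem pp_ceil_le (hn : 1 ≤ n) (k : ℕ) : (k + n - 1) / n ≤ k := by
  rcases Nat.eq_zero_or_pos k with rfl | hk
  · rw [Nat.div_eq_of_lt (by omega)]
  · refine Nat.div_le_of_le_mul ?_
    obtain ⟨a, rfl⟩ := Nat.exists_eq_add_of_le hn
    obtain ⟨c, rfl⟩ := Nat.exists_eq_add_of_le (show 1 ≤ k from hk)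
    have : 1 + c + (1 + a) - 1 = 1 + c + a := by omega
    rw [this]
    nlinarith

theorem roots_le {P : Polynomial ℤ} (hP : P.Monic) (hd : P.natDegree = n) (hn : 1 ≤ n) {p : ℕ}
    (hp : p.Prime) (k : ℕ) :
    ((Finset.range (p ^ k)).filter fun t : ℕ => (p : ℤ) ^ k ∣ P.eval (t : ℤ)).card ≤
      n * p ^ (k - (k + n - 1) / n) := by
  rcases Nat.eq_zero_or_pos k with rfl | hk
  · refine (Finset.card_filter_le _ _).trans ?_
    simpa using hn
  have hj := pp_ceil_le hn k
  obtain ⟨i, hi⟩ : ∃ i, (k + n - 1) / n = i + 1 :=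
    Nat.exists_eq_succ_of_ne_zero (Nat.div_pos (by omega) hn).ne'
  have hik : n * i < k := by
    have h1 := Nat.mul_div_le (k + n - 1) n
    rw [hi, Nat.mul_succ] at h1
    omega
  rw [hi] at hj ⊢
  set T := (Finset.range (p ^ k)).filter fun t : ℕ => (p : ℤ) ^ k ∣ P.eval (t : ℤ) with hT
  have h1 : T.card ≤ p ^ (k - (i + 1)) * (T.image (· % p ^ (i + 1))).card := by
    refine Finset.card_le_mul_card_image T _ fun a _ => ?_
    rw [← Finset.card_range (p ^ (k - (i + 1)))]
    refine Finset.card_le_card_of_injOn (· / p ^ (i + 1)) (fun x hx => ?_) fun x hx y hy hxy => ?_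
    · have h2 := Finset.mem_range.1 (Finset.mem_filter.1 (Finset.mem_filter.1 hx).1).1
      simp only [Finset.coe_range, Set.mem_Iio]
      refine Nat.div_lt_of_lt_mul ?_
      rwa [← pow_add, Nat.add_sub_cancel' hj]
    · have h2 := (Finset.mem_filter.1 hx).2
      have h3 := (Finset.mem_filter.1 hy).2
      have h4 : x / p ^ (i + 1) = y / p ^ (i + 1) := hxy
      rw [← Nat.div_add_mod x (p ^ (i + 1)), ← Nat.div_add_mod y (p ^ (i + 1)), h2, h3, h4]
  obtain ⟨u, hu1, hu2, hu3⟩ := Finset.exists_subset_injOn_image_eq_of_surjOn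
    (f := (· % p ^ (i + 1))) (T : Set ℕ) (T.image (· % p ^ (i + 1)))
    (by rw [Finset.coe_image]; exact Set.surjOn_image _ _)
  have h2 : (u.image (Nat.cast : ℕ → ℤ)).card ≤ n := by
    refine pp_sep (Nat.prime_iff_prime_int.1 hp) i n P k _ hP hd ?_ ?_ hik
    · intro s hs t ht hst hdvd
      obtain ⟨s, hs', rfl⟩ := Finset.mem_image.1 hs
      obtain ⟨t, ht', rfl⟩ := Finset.mem_image.1 ht
      refine hst (congrArg _ (hu2 hs' ht' ?_))
      have h3 : t ≡ s [MOD p ^ (i + 1)] := Nat.modEq_iff_dvd.2 (by exact_mod_cast hdvd)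
      exact h3.symm
    · intro t ht
      obtain ⟨t, ht', rfl⟩ := Finset.mem_image.1 ht
      exact (Finset.mem_filter.1 (hu1 ht')).2
  rw [Finset.card_image_of_injective _ Nat.cast_injective] at h2
  have h3 : (T.image (· % p ^ (i + 1))).card ≤ n := by
    rw [← hu3]
    exact Finset.card_image_le.trans h2
  rw [mul_comm]
  exact h1.trans (Nat.mul_le_mul_left _ h3)

theorem pp_norm_congr (o : Order K n) {q : ℕ} {α β : o.O}
    (h : α - β ∈ Ideal.span {(q : o.O)}) : (q : ℤ) ∣ Algebra.norm ℤ α - Algebra.norm ℤ β := by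
  obtain ⟨b, -⟩ := exists_zb o
  obtain ⟨γ, hγ⟩ := Ideal.mem_span_singleton'.1 h
  have e : α = β + (q : ℤ) • γ := by
    rw [zsmul_eq_mul, Int.cast_natCast, mul_comm, hγ]
    ring
  rw [← ZMod.intCast_zmod_eq_zero_iff_dvd, Int.cast_sub, sub_eq_zero,
    Algebra.norm_eq_matrix_det b, Algebra.norm_eq_matrix_det b]
  change Int.castRingHom (ZMod q) _ = Int.castRingHom (ZMod q) _
  rw [RingHom.map_det, RingHom.map_det, e, map_add (Algebra.leftMulMatrix b), map_smul]
  congr 1
  ext i j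
  rw [RingHom.mapMatrix_apply, RingHom.mapMatrix_apply, Matrix.map_apply, Matrix.map_apply,
    Matrix.add_apply, Matrix.smul_apply, map_add, smul_eq_mul, map_mul]
  simp

theorem pp_poly (o : Order K n) (α : o.O) : ∃ P : Polynomial ℤ, P.Monic ∧ P.natDegree = n ∧
    ∀ t : ℕ, P.eval (t : ℤ) = Algebra.norm ℤ (α + t) := by
  obtain ⟨b, -⟩ := exists_zb o
  refine ⟨(-Algebra.leftMulMatrix b α).charpoly, Matrix.charpoly_monic _, by simp, fun t => ?_⟩
  rw [Matrix.eval_charpoly, Algebra.norm_eq_matrix_det b, map_add, map_natCast, map_natCast,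
    sub_neg_eq_add, add_comm]

/-- Classes whose norm is divisible by `d`. -/
def ppBad (o : Order K n) (q d : ℕ) (a : o.O ⧸ Ideal.span {(q : o.O)}) : Prop :=
  ∃ α : o.O, Ideal.Quotient.mk _ α = a ∧ (d : ℤ) ∣ Algebra.norm ℤ α

theorem pp_bad_iff {o : Order K n} {q d : ℕ} (hd : d ∣ q) (α : o.O) :
    ppBad o q d (Ideal.Quotient.mk _ α) ↔ (d : ℤ) ∣ Algebra.norm ℤ α := by
  refine ⟨?_, fun h => ⟨α, rfl, h⟩⟩
  rintro ⟨β, h1, h2⟩
  have h3 := (Int.natCast_dvd_natCast.2 hd).trans (pp_norm_congr o (Ideal.Quotient.eq.1 h1))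
  exact (dvd_sub_right h2).1 h3

theorem pp_count (o : Order K n) {p : ℕ} (hp : p.Prime) {k e : ℕ} (he : e ≤ k)
    [Fintype (o.O ⧸ Ideal.span {((p ^ k : ℕ) : o.O)})] :
    p ^ e * (Finset.univ.filter (ppBad o (p ^ k) (p ^ e))).card ≤
      (p ^ k) ^ n * (n * p ^ (e - (e + n - 1) / n)) := by
  have hcard : Fintype.card (o.O ⧸ Ideal.span {((p ^ k : ℕ) : o.O)}) = (p ^ k) ^ n := by
    rw [← Nat.card_eq_fintype_card]
    exact idx_span_nat (o := o) (p ^ k)
  have h1 : ∑ t ∈ Finset.range (p ^ e),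
      (Finset.univ.filter fun a => ppBad o (p ^ k) (p ^ e) (a + (t : ℕ))).card =
      ∑ a : o.O ⧸ Ideal.span {((p ^ k : ℕ) : o.O)},
        ((Finset.range (p ^ e)).filter fun t : ℕ => ppBad o (p ^ k) (p ^ e) (a + t)).card := by
    simp only [Finset.card_filter]
    exact Finset.sum_comm
  have h2 : ∀ t : ℕ, (Finset.univ.filter fun a => ppBad o (p ^ k) (p ^ e) (a + (t : ℕ))).card =
      (Finset.univ.filter (ppBad o (p ^ k) (p ^ e))).card := fun t =>
    Finset.card_equiv (Equiv.addRight (t : o.O ⧸ Ideal.span {((p ^ k : ℕ) : o.O)})) (by simp)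
  simp only [h2, Finset.sum_const, Finset.card_range, smul_eq_mul] at h1
  rw [h1, ← hcard, ← Finset.card_univ, ← smul_eq_mul]
  refine Finset.sum_le_card_nsmul _ _ _ fun a _ => ?_
  obtain ⟨α, rfl⟩ := Ideal.Quotient.mk_surjective a
  obtain ⟨P, hP, hd, hev⟩ := pp_poly o α
  refine le_trans (le_of_eq ?_) (roots_le hP hd (one_le_n o) hp e)
  congr 1
  refine Finset.filter_congr fun t _ => ?_
  rw [hev, ← map_natCast (Ideal.Quotient.mk (Ideal.span {((p ^ k : ℕ) : o.O)})), ← map_add,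
    pp_bad_iff (pow_dvd_pow p he), Nat.cast_pow]

theorem pp_unit {o : Order K n} {p : ℕ} (hp : p.Prime) (k : ℕ) {α : o.O}
    (h : ¬ (p : ℤ) ∣ Algebra.norm ℤ α) :
    IsUnit (Ideal.Quotient.mk (Ideal.span {((p ^ k : ℕ) : o.O)}) α) := by
  have h1 := idx_mem (Ideal.span {α})
  rw [idx_span] at h1
  obtain ⟨β, hβ⟩ := Ideal.mem_span_singleton'.1 h1
  have h2 : Nat.Coprime (Algebra.norm ℤ α).natAbs (p ^ k) :=
    Nat.Coprime.pow_right k ((Nat.Prime.coprime_iff_not_dvd hp).2 fun hh =>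
      h (Int.natCast_dvd.2 hh)).symm
  obtain ⟨u, v, huv⟩ := Nat.Coprime.cast (R := o.O ⧸ Ideal.span {((p ^ k : ℕ) : o.O)}) h2
  have h3 : ((p ^ k : ℕ) : o.O ⧸ Ideal.span {((p ^ k : ℕ) : o.O)}) = 0 := by
    rw [← map_natCast (Ideal.Quotient.mk (Ideal.span {((p ^ k : ℕ) : o.O)})),
      Ideal.Quotient.eq_zero_iff_mem]
    exact Ideal.mem_span_singleton_self _
  rw [h3, mul_zero, add_zero, ← map_natCast (Ideal.Quotient.mk (Ideal.span {((p ^ k : ℕ) : o.O)})),
    ← hβ, map_mul, ← mul_assoc] at huv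
  exact IsUnit.of_mul_eq_one_right _ huv

theorem pp_card_map {R : Type} [CommRing R] {Q I : Ideal R} (h : Q ≤ I) :
    Nat.card (R ⧸ Q) = Nat.card (I.map (Ideal.Quotient.mk Q)) * Nat.card (R ⧸ I) := by
  rw [Submodule.card_eq_card_quotient_mul_card (I.map (Ideal.Quotient.mk Q)),
    ← Nat.card_congr (DoubleQuot.quotQuotEquivQuotOfLE h).toEquiv]

theorem pp_ker {A : Type} [CommRing A] [Fintype A] (a : A) :
    (Finset.univ.filter fun x => a * x = 0).card = Nat.card (A ⧸ Ideal.span {a}) := by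
  have h1 := Submodule.card_eq_card_quotient_mul_card (LinearMap.ker (LinearMap.toSpanSingleton A A a))
  rw [Nat.card_congr (LinearMap.quotKerEquivRange _).toEquiv, LinearMap.range_toSpanSingleton] at h1
  have h2 := Submodule.card_eq_card_quotient_mul_card (Ideal.span {a})
  have h3 : Nat.card (LinearMap.ker (LinearMap.toSpanSingleton A A a)) =
      (Finset.univ.filter fun x => a * x = 0).card := by
    rw [← Nat.subtype_card (p := fun x => x ∈ LinearMap.ker (LinearMap.toSpanSingleton A A a))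
      (Finset.univ.filter fun x => a * x = 0) fun x => by simp [mul_comm]]
  rw [h3, mul_comm] at h1
  exact Nat.eq_of_mul_eq_mul_left (Nat.card_pos (α := Ideal.span {a})) (h1.symm.trans h2)

theorem pp_units (o : Order K n) {p : ℕ} (hp : p.Prime) {k : ℕ} (hk : 1 ≤ k)
    [Fintype (o.O ⧸ Ideal.span {((p ^ k : ℕ) : o.O)})] :
    (p ^ k) ^ n ≤ (2 * n) ^ n *
      (Finset.univ.filter fun a : o.O ⧸ Ideal.span {((p ^ k : ℕ) : o.O)} => IsUnit a).card := by
  have hn := one_le_n o
  have hcard : Nat.card (o.O ⧸ Ideal.span {((p ^ k : ℕ) : o.O)}) = (p ^ k) ^ n :=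
    idx_span_nat (o := o) (p ^ k)
  rcases le_or_gt (2 * n) p with h | h
  · have h1 := pp_count o hp hk
    have e1 : 1 - (1 + n - 1) / n = 0 := by
      rw [Nat.add_sub_cancel_left, Nat.div_self hn]
    rw [e1, pow_zero, mul_one] at h1
    have h2 := Finset.card_filter_add_card_filter_not (s := Finset.univ)
      (ppBad o (p ^ k) (p ^ 1))
    rw [Finset.card_univ, ← Nat.card_eq_fintype_card, hcard] at h2
    have h3 : (Finset.univ.filter fun a => ¬ ppBad o (p ^ k) (p ^ 1) a).card ≤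
        (Finset.univ.filter fun a : o.O ⧸ Ideal.span {((p ^ k : ℕ) : o.O)} => IsUnit a).card := by
      refine Finset.card_le_card fun a ha => ?_
      obtain ⟨α, rfl⟩ := Ideal.Quotient.mk_surjective a
      rw [Finset.mem_filter, pp_bad_iff (pow_dvd_pow p hk), pow_one] at ha
      exact Finset.mem_filter.2 ⟨Finset.mem_univ _, pp_unit hp k ha.2⟩
    have h4 : 2 ≤ (2 * n) ^ n := le_trans (by omega) (Nat.le_self_pow (by omega) (2 * n))
    generalize (Finset.univ.filter (ppBad o (p ^ k) (p ^ 1))).card = B at h1 h2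
    rw [pow_one p] at h1
    have h5 : n * (2 * B) ≤ n * (p ^ k) ^ n := by nlinarith
    have h6 := Nat.le_of_mul_le_mul_left h5 hn
    refine le_trans ?_ (Nat.mul_le_mul_right _ h4)
    omega
  · have hle : Ideal.span {((p ^ k : ℕ) : o.O)} ≤ Ideal.span {(p : o.O)} := by
      rw [Ideal.span_singleton_le_span_singleton, Nat.cast_pow]
      exact dvd_pow_self _ (by omega)
    have h1 := pp_card_map hle
    have h2 : Nat.card (o.O ⧸ Ideal.span {(p : o.O)}) = p ^ n := idx_span_nat (o := o) p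
    rw [hcard, h2] at h1
    rw [h1, mul_comm]
    refine Nat.mul_le_mul (Nat.pow_le_pow_left h.le n) ?_
    rw [← Nat.subtype_card (p := fun a : o.O ⧸ Ideal.span {((p ^ k : ℕ) : o.O)} => IsUnit a) _
      fun x => by simp]
    refine Nat.card_le_card_of_injective (fun x => ⟨1 + x.1, ?_⟩) fun x y hxy => ?_
    · refine IsNilpotent.isUnit_one_add ⟨k, ?_⟩
      obtain ⟨x, h3⟩ := x
      change x ^ k = 0
      rw [Ideal.map_span, Set.image_singleton] at h3
      obtain ⟨c, hc⟩ := Ideal.mem_span_singleton'.1 h3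
      rw [← hc, mul_pow, ← map_pow, ← Nat.cast_pow, Ideal.Quotient.eq_zero_iff_mem.2
        (Ideal.mem_span_singleton_self _), mul_zero]
    · exact Subtype.ext (add_left_cancel (congrArg Subtype.val hxy))

theorem rO_pp (o : Order K n) {p : ℕ} (hp : p.Prime) {k : ℕ} (hk : 1 ≤ k) :
    rO o (p ^ k) ≤ n * (2 * n) ^ n * p ^ (k - (k + n - 1) / n) := by
  have hq : p ^ k ≠ 0 := pow_ne_zero k hp.ne_zero
  set Q : Ideal o.O := Ideal.span {((p ^ k : ℕ) : o.O)} with hQ
  have hcard : Nat.card (o.O ⧸ Q) = (p ^ k) ^ n := idx_span_nat (o := o) (p ^ k)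
  have hfin : Finite (o.O ⧸ Q) := Nat.finite_of_card_ne_zero (by rw [hcard]; positivity)
  let _ : Fintype (o.O ⧸ Q) := Fintype.ofFinite _
  have hgen : ∀ I : Ideal o.O, ∃ α : o.O, I ∈ Inv o → α ∈ I ∧ Ideal.span {α} ⊔ Q * I = I :=
    fun I => by
      by_cases hI : I ∈ Inv o
      · obtain ⟨α, h1, h2⟩ := Inv.exists_gen hI hq
        exact ⟨α, fun _ => ⟨h1, h2⟩⟩
      · exact ⟨0, fun h => absurd h hI⟩
  choose g hg using hgen
  set T := (finite_Inv_idx o (p ^ k)).toFinset with hT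
  have hTm : ∀ I ∈ T, I ∈ Inv o ∧ idx I = p ^ k := fun I hI =>
    (finite_Inv_idx o (p ^ k)).mem_toFinset.1 hI
  have hQI : ∀ I ∈ T, Q ≤ I := fun I hI => by
    rw [hQ, Ideal.span_singleton_le_iff_mem, ← (hTm I hI).2]
    exact idx_mem I
  have hmap : ∀ I ∈ T, I.map (Ideal.Quotient.mk Q) = Ideal.span {Ideal.Quotient.mk Q (g I)} :=
    fun I hI => by
      conv_lhs => rw [← (hg I (hTm I hI).1).2]
      rw [Ideal.map_sup, Ideal.map_mul, Ideal.map_quotient_self, Ideal.bot_mul, sup_bot_eq,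
        Ideal.map_span, Set.image_singleton]
  set U := Finset.univ.filter fun a : o.O ⧸ Q => IsUnit a with hU
  have h1 : (T ×ˢ U).card ≤ p ^ k * (Finset.univ.filter (ppBad o (p ^ k) (p ^ k))).card := by
    refine Finset.card_le_mul_card_image_of_maps_to
      (f := fun z => Ideal.Quotient.mk Q (g z.1) * z.2) (fun z hz => ?_) _ fun a _ => ?_
    · obtain ⟨hI, -⟩ := Finset.mem_product.1 hz
      obtain ⟨ε, hε⟩ := Ideal.Quotient.mk_surjective z.2
      refine Finset.mem_filter.2 ⟨Finset.mem_univ _, g z.1 * ε, by rw [map_mul, hε], ?_⟩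
      have h2 : Ideal.span {g z.1 * ε} ≤ z.1 :=
        (Ideal.span_singleton_le_iff_mem _).2 (z.1.mul_mem_right ε (hg z.1 (hTm _ hI).1).1)
      have h3 := idx_dvd h2
      rw [(hTm _ hI).2, idx_span] at h3
      exact Int.natCast_dvd.2 h3
    · have hdet : ∀ z ∈ (T ×ˢ U).filter fun z => Ideal.Quotient.mk Q (g z.1) * z.2 = a,
          z.1 = (Ideal.span {a}).comap (Ideal.Quotient.mk Q) := fun z hz => by
        obtain ⟨hz1, hz2⟩ := Finset.mem_filter.1 hz
        obtain ⟨hI, hu⟩ := Finset.mem_product.1 hz1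
        rw [← hz2, Ideal.span_singleton_mul_right_unit (Finset.mem_filter.1 hu).2, ← hmap _ hI,
          Ideal.comap_map_of_surjective _ Ideal.Quotient.mk_surjective, ← RingHom.ker_eq_comap_bot,
          Ideal.mk_ker, sup_eq_left.2 (hQI _ hI)]
      rcases ((T ×ˢ U).filter fun z => Ideal.Quotient.mk Q (g z.1) * z.2 = a).eq_empty_or_nonempty
        with h0 | ⟨z₀, hz₀⟩
      · rw [h0]
        simp
      have hI₀ := (Finset.mem_product.1 (Finset.mem_filter.1 hz₀).1).1
      have h2 := pp_ker (Ideal.Quotient.mk Q (g z₀.1))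
      rw [← hmap _ hI₀, Nat.card_congr (DoubleQuot.quotQuotEquivQuotOfLE (hQI _ hI₀)).toEquiv] at h2
      have h3 : Nat.card (o.O ⧸ z₀.1) = p ^ k := (hTm _ hI₀).2
      rw [← h3, ← h2]
      refine Finset.card_le_card_of_injOn (fun z => z.2 - z₀.2) (fun z hz => ?_)
        fun z hz w hw hzw => ?_
      · have h4 := (hdet z hz).trans (hdet z₀ hz₀).symm
        have h5 := (Finset.mem_filter.1 hz).2
        have h6 := (Finset.mem_filter.1 hz₀).2
        rw [h4] at h5
        simp only [Finset.coe_filter, Finset.mem_univ, true_and, Set.mem_ofPred_eq]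
        rw [mul_sub, h5, h6, sub_self]
      · exact Prod.ext ((hdet z hz).trans (hdet w hw).symm) (sub_left_injective hzw)
  have h2 := h1.trans (pp_count o hp le_rfl)
  have h3 := pp_units o hp hk
  rw [Finset.card_product] at h2
  have h4 : rO o (p ^ k) = T.card := Set.ncard_eq_toFinset_card _ _
  rw [h4]
  refine Nat.le_of_mul_le_mul_left (c := (p ^ k) ^ n) ?_ (by positivity)
  calc (p ^ k) ^ n * T.card ≤ (2 * n) ^ n * U.card * T.card := Nat.mul_le_mul_right _ h3
    _ = (2 * n) ^ n * (T.card * U.card) := by ring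
    _ ≤ (2 * n) ^ n * ((p ^ k) ^ n * (n * p ^ (k - (k + n - 1) / n))) := Nat.mul_le_mul_left _ h2
    _ = _ := by ring

theorem adm (o : Order K n) : Adm n (n * (2 * n) ^ n) fun k => (rO o k : ℝ) where
  nonneg := fun _ => Nat.cast_nonneg _
  one := by simp [rO_one]
  mul := fun a b h => by simp [rO_mul o h]
  pp := fun p k hp hk => by
    have h1 : (rO o (p ^ k) : ℝ) ≤ ((n * (2 * n) ^ n * p ^ (k - (k + n - 1) / n) : ℕ) : ℝ) := by
      exact_mod_cast rO_pp o hp hk
    have hp0 : (p : ℝ) ≠ 0 := by exact_mod_cast hp.ne_zero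
    refine h1.trans (le_of_eq ?_)
    push_cast
    rw [pow_sub₀ _ hp0 (pp_ceil_le (one_le_n o) k), div_eq_mul_inv, mul_assoc _ ((p : ℝ) ^ k)]

end Vale.Agent.P007A
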