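import Vale.Agent.P007A.Lat

/-! Bounds for the hypersurface integrals. -/

namespace Vale.Agent.P007A

open Vale.Agent.P007 Matrix MeasureTheory Filter Topology NumberField
open scoped ENNReal nonZeroDivisors Classical

variable {n m : ℕ}

theorem isOpen_slab (T ε : ℝ) : IsOpen (slab T ε : Set (Fin n → ℝ)) := by
  have h1 : IsOpen {v : Fin n → ℝ | ∀ j, |v j| < T} := by
    rw [Set.setOf_forall]
    exact isOpen_iInter_of_finite fun j =>
      isOpen_lt (continuous_apply j).abs continuous_const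
  have h2 : IsOpen {v : Fin n → ℝ | ∏ j, |v j| < ε} :=
    isOpen_lt (continuous_finsetProd _ fun j _ => (continuous_apply j).abs) continuous_const
  exact h1.inter h2

theorem Phi_mono {f f' : (Fin (m + 1) → ℝ) → ℝ≥0∞} (h : f ≤ f') (t : ℝ) :
    Phi f t ≤ Phi f' t := Finset.sum_le_sum fun _ _ => lintegral_mono fun _ => h _

theorem Phi_eq_zero {B : Set (Fin (m + 1) → ℝ)} {t : ℝ} (ht : 0 ≤ t)
    (h : ∀ v ∈ B, ∏ j, |v j| ≠ t) : Phi (B.indicator 1) t = 0 := by
  refine Finset.sum_eq_zero fun s _ => ?_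
  have : ∀ u : Fin m → ℝ, B.indicator (1 : (Fin (m + 1) → ℝ) → ℝ≥0∞) (pt s t u) = 0 := fun u =>
    Set.indicator_of_notMem (fun hu => h _ hu (prod_pt s ht u)) _
  simp only [this, lintegral_zero]

theorem phiB_box {l : ℝ} {u : Fin m → ℝ} (h : ∀ j, ex u j < Real.exp l) :
    0 ≤ l ∧ u ∈ Set.univ.pi fun _ : Fin m => Set.Ioo (-(m * l)) l := by
  have h1 : ∀ i, u i < l := fun i => by
    have := h i.castSucc
    rwa [ex_castSucc, Real.exp_lt_exp] at this
  have h2 : -∑ i, u i < l := by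
    have := h (Fin.last m)
    rwa [ex_last, Real.exp_lt_exp] at this
  have h3 : ∑ i, (l - u i) = m * l - ∑ i, u i := by
    rw [Finset.sum_sub_distrib]; simp
  have h4 : 0 ≤ ∑ i, (l - u i) := Finset.sum_nonneg fun i _ => sub_nonneg.2 (h1 i).le
  refine ⟨?_, fun i _ => ⟨?_, h1 i⟩⟩
  · by_contra hl
    have hm : (0 : ℝ) ≤ m := Nat.cast_nonneg m
    have := mul_nonneg hm (neg_nonneg.2 (not_le.1 hl).le)
    linarith [not_le.1 hl]
  · have h5 : l - u i ≤ ∑ i, (l - u i) :=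
      Finset.single_le_sum (f := fun i => l - u i) (fun i _ => sub_nonneg.2 (h1 i).le)
        (Finset.mem_univ i)
    linarith

theorem phiB_pow (m : ℕ) {x : ℝ} (hx : 0 ≤ x) :
    x ^ m ≤ 2 ^ m * (m.factorial : ℝ) * √(Real.exp x) := by
  have h := Real.pow_div_factorial_le_exp (x / 2) (by positivity) m
  have hf : (0 : ℝ) < m.factorial := by exact_mod_cast m.factorial_pos
  rw [div_le_iff₀ hf, div_pow, div_le_iff₀ (by positivity), Real.exp_half] at h
  linarith

theorem phiB_one (m : ℕ) (s : Fin (m + 1) → ℤˣ) {T t : ℝ} (ε : ℝ) (hT : 0 < T) (ht : 0 < t) :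
    ∫⁻ u : Fin m → ℝ, (slab T ε : Set (Fin (m + 1) → ℝ)).indicator 1 (pt s t u) ≤
      ENNReal.ofReal (2 ^ m * (m.factorial : ℝ) * √(T ^ (m + 1) / t)) := by
  have hτ : 0 < t ^ (((m : ℝ) + 1)⁻¹) := Real.rpow_pos_of_pos ht _
  have hp := lat_rpow_pow (m := m) ht.le
  have ha := fun u j => lat_abs_pt s ht.le u j
  generalize t ^ (((m : ℝ) + 1)⁻¹) = τ at hτ hp ha
  obtain ⟨l, hl⟩ : ∃ l, Real.exp l = T / τ := ⟨_, Real.exp_log (div_pos hT hτ)⟩
  have hb : ∀ u : Fin m → ℝ, pt s t u ∈ (slab T ε : Set (Fin (m + 1) → ℝ)) →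
      0 ≤ l ∧ u ∈ Set.univ.pi fun _ : Fin m => Set.Ioo (-(m * l)) l := fun u hu =>
    phiB_box fun j => by
      have := hu.1 j
      rw [ha] at this
      rw [hl, lt_div_iff₀ hτ, mul_comm]
      exact this
  by_cases h0 : 0 ≤ l
  · have hle : ∀ u : Fin m → ℝ, (slab T ε : Set (Fin (m + 1) → ℝ)).indicator
        (1 : (Fin (m + 1) → ℝ) → ℝ≥0∞) (pt s t u) ≤
        (Set.univ.pi fun _ : Fin m => Set.Ioo (-(m * l)) l).indicator 1 u := fun u => by
      by_cases hu : pt s t u ∈ (slab T ε : Set (Fin (m + 1) → ℝ))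
      · rw [Set.indicator_of_mem hu, Set.indicator_of_mem (hb u hu).2]
        exact le_rfl
      · rw [Set.indicator_of_notMem hu]; exact zero_le
    refine (lintegral_mono hle).trans ?_
    rw [lintegral_indicator_one (MeasurableSet.univ_pi fun _ => measurableSet_Ioo),
      Real.volume_pi_Ioo, Finset.prod_const, Finset.card_univ, Fintype.card_fin]
    have hx : 0 ≤ l - -(m * l) := by
      have := mul_nonneg (Nat.cast_nonneg (α := ℝ) m) h0
      linarith
    rw [← ENNReal.ofReal_pow hx]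
    refine ENNReal.ofReal_le_ofReal ((phiB_pow m hx).trans (le_of_eq ?_))
    have e : l - -(m * l) = ((m + 1 : ℕ) : ℝ) * l := by push_cast; ring
    rw [e, Real.exp_nat_mul, hl, div_pow, hp]
  · have : ∀ u : Fin m → ℝ, (slab T ε : Set (Fin (m + 1) → ℝ)).indicator
        (1 : (Fin (m + 1) → ℝ) → ℝ≥0∞) (pt s t u) = 0 := fun u =>
      Set.indicator_of_notMem (fun hu => h0 (hb u hu).1) _
    simp only [this, lintegral_zero]
    exact zero_le

theorem Phi_slab (m : ℕ) : ∃ C : ℝ, 0 < C ∧ ∀ T ε t : ℝ, 0 < T → 0 < t →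
    Phi ((slab T ε : Set (Fin (m + 1) → ℝ)).indicator 1) t ≤
      if t < ε then ENNReal.ofReal (C * √(T ^ (m + 1) / t)) else 0 := by
  have hc : (0 : ℝ) < Fintype.card (Fin (m + 1) → ℤˣ) := by exact_mod_cast Fintype.card_pos
  have hf : (0 : ℝ) < m.factorial := by exact_mod_cast m.factorial_pos
  refine ⟨Fintype.card (Fin (m + 1) → ℤˣ) * (2 ^ m * (m.factorial : ℝ)), by positivity,
    fun T ε t hT ht => ?_⟩
  split_ifs with h
  · refine (Finset.sum_le_sum fun s _ => phiB_one m s ε hT ht).trans ?_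
    rw [Finset.sum_const, Finset.card_univ, nsmul_eq_mul,
      mul_assoc (Fintype.card (Fin (m + 1) → ℤˣ) : ℝ), ENNReal.ofReal_mul hc.le,
      ENNReal.ofReal_natCast]
  · exact (Phi_eq_zero ht.le fun v hv => (hv.2.trans_le (not_lt.1 h)).ne).le

theorem phiB_ex_le {u : Fin m → ℝ} (hu : ‖u‖ ≤ ((m : ℝ) + 1)⁻¹) (j : Fin (m + 1)) :
    ex u j ≤ Real.exp 1 := by
  have hm : (0 : ℝ) ≤ m := Nat.cast_nonneg m
  have h1 : ∀ i, |u i| ≤ ((m : ℝ) + 1)⁻¹ := fun i => (norm_le_pi_norm u i).trans hu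
  refine Fin.lastCases ?_ (fun i => ?_) j
  · rw [ex_last, Real.exp_le_exp]
    have h2 : |∑ i, u i| ≤ m * ((m : ℝ) + 1)⁻¹ := by
      refine (Finset.abs_sum_le_sum_abs _ _).trans ((Finset.sum_le_sum fun i _ => h1 i).trans ?_)
      simp
    have h3 : m * ((m : ℝ) + 1)⁻¹ ≤ 1 := by
      rw [← div_eq_mul_inv, div_le_one (by positivity)]; linarith
    linarith [neg_le_abs (∑ i, u i)]
  · rw [ex_castSucc, Real.exp_le_exp]
    have h3 : ((m : ℝ) + 1)⁻¹ ≤ 1 := inv_le_one_of_one_le₀ (by linarith)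
    linarith [le_abs_self (u i), h1 i]

theorem Phi_ball_ge (m : ℕ) : ∃ c : ℝ, 0 < c ∧ ∀ T t : ℝ, 0 < T → 0 < t → t ≤ c * T ^ (m + 1) →
    ENNReal.ofReal c ≤ Phi ((Metric.ball (0 : Fin (m + 1) → ℝ) T).indicator 1) t := by
  have hr : (0 : ℝ) ≤ ((m : ℝ) + 1)⁻¹ := by positivity
  refine ⟨min (Real.exp (-1) ^ (m + 1) / 2) ((2 * ((m : ℝ) + 1)⁻¹) ^ m), by positivity,
    fun T t hT ht h => ?_⟩
  have hτ : t ^ (((m : ℝ) + 1)⁻¹) < Real.exp (-1) * T := by
    refine lt_of_pow_lt_pow_left₀ (m + 1) (by positivity) ?_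
    rw [lat_rpow_pow ht.le, mul_pow]
    refine h.trans_lt (mul_lt_mul_of_pos_right ((min_le_left _ _).trans_lt ?_) (by positivity))
    exact half_lt_self (by positivity)
  refine le_trans ?_ (Finset.single_le_sum (f := fun s : Fin (m + 1) → ℤˣ =>
    ∫⁻ u : Fin m → ℝ, (Metric.ball (0 : Fin (m + 1) → ℝ) T).indicator 1 (pt s t u))
      (fun _ _ => zero_le) (Finset.mem_univ 1))
  have hle : ∀ u : Fin m → ℝ, (Metric.closedBall (0 : Fin m → ℝ) ((m : ℝ) + 1)⁻¹).indicator 1 u ≤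
      (Metric.ball (0 : Fin (m + 1) → ℝ) T).indicator
        (1 : (Fin (m + 1) → ℝ) → ℝ≥0∞) (pt 1 t u) := fun u => by
    by_cases hu : u ∈ Metric.closedBall (0 : Fin m → ℝ) ((m : ℝ) + 1)⁻¹
    · have hb : pt 1 t u ∈ Metric.ball (0 : Fin (m + 1) → ℝ) T := by
        rw [mem_ball_zero_iff, pi_norm_lt_iff hT]
        intro j
        rw [Real.norm_eq_abs, lat_abs_pt _ ht.le]
        have h1 := phiB_ex_le (mem_closedBall_zero_iff.1 hu) j
        calc t ^ (((m : ℝ) + 1)⁻¹) * ex u j < Real.exp (-1) * T * ex u j :=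
              mul_lt_mul_of_pos_right hτ (ex_pos u j)
          _ ≤ Real.exp (-1) * T * Real.exp 1 := mul_le_mul_of_nonneg_left h1 (by positivity)
          _ = T := by rw [mul_right_comm, ← Real.exp_add]; simp
      rw [Set.indicator_of_mem hu, Set.indicator_of_mem hb]
      exact le_rfl
    · rw [Set.indicator_of_notMem hu]; exact zero_le
  refine le_trans ?_ (lintegral_mono hle)
  rw [lintegral_indicator_one Metric.isClosed_closedBall.measurableSet,
    Real.volume_pi_closedBall _ hr, Fintype.card_fin]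
  exact ENNReal.ofReal_le_ofReal (min_le_right _ _)

end Vale.Agent.P007A
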