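import Vale.Agent.P007A.InvI
import Vale.Agent.P007A.Lat

/-! The points of a packet. -/

namespace Vale.Agent.P007A

open Vale.Agent.P007 Matrix MeasureTheory Filter Topology NumberField
open scoped ENNReal nonZeroDivisors Classical

variable {K : Type} [Field K] [NumberField K] {n m : ℕ}
  {o : Order K (m + 1)} {σ : Fin (m + 1) ≃ (K →+* ℝ)}

theorem pk_trace (o : Order K n) (σ : Fin n ≃ (K →+* ℝ)) (x : K) :
    ((Algebra.trace ℚ K x : ℚ) : ℝ) = ∑ j, σ j x := by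
  have h := trace_eq_sum_embeddings ℂ (K := ℚ) (L := K) (x := x)
  let f : Fin n → (K →ₐ[ℚ] ℂ) := fun j => (Complex.ofRealHom.comp (σ j)).toRatAlgHom
  have hf : Function.Bijective f := by
    rw [Fintype.bijective_iff_injective_and_card]
    refine ⟨fun i j e => σ.injective (RingHom.ext fun y => ?_), ?_⟩
    · have := congrArg (fun φ : K →ₐ[ℚ] ℂ => φ y) e
      exact Complex.ofReal_injective this
    · rw [AlgHom.card, finrank_K o, Fintype.card_fin]
  rw [← hf.sum_comp (fun φ : K →ₐ[ℚ] ℂ => φ x)] at h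
  apply Complex.ofReal_injective
  rw [Complex.ofReal_sum, Complex.ofReal_ratCast]
  exact h

theorem det_sq (o : Order K n) (σ : Fin n ≃ (K →+* ℝ)) (e : Fin n → K) :
    (Matrix.of fun i j => σ j (e i)).det ^ 2 = (Algebra.discr ℚ e : ℝ) := by
  have h1 : ((Algebra.discr ℚ e : ℚ) : ℝ) =
      ((Rat.castHom ℝ).mapMatrix (Algebra.traceMatrix ℚ e)).det := by
    rw [Algebra.discr_def, ← RingHom.map_det]
    rfl
  have h2 : (Rat.castHom ℝ).mapMatrix (Algebra.traceMatrix ℚ e) =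
      (Matrix.of fun i j => σ j (e i)) * (Matrix.of fun i j => σ j (e i))ᵀ := by
    ext i j
    rw [RingHom.mapMatrix_apply, Matrix.map_apply, Algebra.traceMatrix_apply,
      Algebra.traceForm_apply, Matrix.mul_apply, Rat.coe_castHom, pk_trace o σ]
    simp only [map_mul, Matrix.of_apply, Matrix.transpose_apply]
  rw [h1, h2, det_mul, det_transpose, sq]

theorem latOf_self (σ : Fin (m + 1) ≃ (K →+* ℝ)) (w : Fin (m + 1) → ℝ) (I : Ideal o.O) :
    w ∈ latOf σ w I :=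
  ⟨1, fun β _ => by rw [one_mul]; exact β.2, by funext j; rw [map_one, mul_one]⟩

theorem latOf_mul (σ : Fin (m + 1) ≃ (K →+* ℝ)) (w a : Fin (m + 1) → ℝ) (I : Ideal o.O) :
    latOf σ (w * a) I = (fun v => v * a) '' latOf σ w I := by
  ext v
  constructor
  · rintro ⟨α, hα, rfl⟩
    refine ⟨_, ⟨α, hα, rfl⟩, ?_⟩
    funext j
    simp only [Pi.mul_apply]
    ring
  · rintro ⟨_, ⟨α, hα, rfl⟩, rfl⟩
    refine ⟨α, hα, ?_⟩
    funext j
    simp only [Pi.mul_apply]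
    ring

theorem pk_rtD_pos (o : Order K n) : 0 < rtD o := zero_lt_one.trans_le (one_le_rtD o)

theorem pk_rows (σ : Fin (m + 1) ≃ (K →+* ℝ)) {I : Ideal o.O} (hI : I ∈ Inv o) :
    ∃ A : Matrix (Fin (m + 1)) (Fin (m + 1)) ℝ, |A.det| * idx I = rtD o ∧
      ∀ w, latOf σ w I = rows (A * diagonal w) := by
  obtain ⟨e, he, hd⟩ := Inv.exists_basis hI
  refine ⟨Matrix.of fun i j => σ j (e i), ?_, fun w => ?_⟩
  · have h1 := det_sq o σ e
    have h2 : |(Algebra.discr ℚ e : ℝ)| * (idx I : ℝ) ^ 2 = |(o.disc : ℝ)| := by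
      exact_mod_cast hd
    refine (sq_eq_sq₀ (by positivity) (pk_rtD_pos o).le).1 ?_
    rw [rtD_sq, ← h2, ← h1, mul_pow, sq_abs, abs_of_nonneg (sq_nonneg _)]
  · have key : ∀ k : Fin (m + 1) → ℤ,
        (fun i => (k i : ℝ)) ᵥ* ((Matrix.of fun i j => σ j (e i)) * diagonal w) =
          fun j => w j * σ j (∑ i, (k i : K) * e i) := fun k => by
      funext j
      simp only [vecMul, dotProduct, mul_diagonal, of_apply, map_sum, map_mul, map_intCast,
        Finset.mul_sum]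
      exact Finset.sum_congr rfl fun i _ => by ring
    ext v
    constructor
    · rintro ⟨α, hα, rfl⟩
      obtain ⟨k, rfl⟩ := (he α).1 hα
      exact ⟨k, (key k).symm⟩
    · rintro ⟨k, rfl⟩
      exact ⟨_, (he _).2 ⟨k, rfl⟩, key k⟩

theorem pk_idx_pos {I : Ideal o.O} (hI : I ∈ Inv o) : (1 : ℝ) ≤ idx I := by
  exact_mod_cast Nat.one_le_iff_ne_zero.2 (idx_ne_zero (Inv.ne_bot hI))

theorem pk_sum_snoc (u : Fin m → ℝ) :
    ∑ j : Fin (m + 1), Fin.snoc (α := fun _ => ℝ) u (-∑ i, u i) j = 0 := by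
  rw [Fin.sum_univ_castSucc]
  simp

theorem pk_proper {I J : FractionalIdeal o.O⁰ K} (h : I * J = 1) :
    {α : K | ∀ β ∈ J, α * β ∈ J} = o.O := by
  ext α
  constructor
  · intro hα
    have key : ∀ x ∈ I * J, α * x ∈ I * J := fun x hx => by
      refine FractionalIdeal.mul_induction_on (C := fun x => α * x ∈ I * J) hx ?_ ?_
      · intro i hi j hj
        rw [mul_left_comm]
        exact FractionalIdeal.mul_mem_mul hi (hα j hj)
      · intro x y hx hy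
        rw [mul_add]
        exact (I * J).coeToSubmodule.add_mem hx hy
    have h1 := key 1 (by rw [h]; exact FractionalIdeal.one_mem_one _)
    rw [h, mul_one, FractionalIdeal.mem_one_iff] at h1
    obtain ⟨y, hy⟩ := h1
    exact hy ▸ y.2
  · intro hα β hβ
    exact J.coeToSubmodule.smul_mem (⟨α, hα⟩ : o.O) hβ

theorem pk1 (σ : Fin (m + 1) ≃ (K →+* ℝ)) {I : Ideal o.O} (hI : I ∈ Inv o)
    {w : Fin (m + 1) → ℝ} (hw : ∏ j, |w j| = idx I / rtD o) :
    ∃ y ∈ packet o σ, lat y = latOf σ w I := by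
  obtain ⟨A, hA, hr⟩ := pk_rows σ hI
  have hD := pk_rtD_pos o
  have hi := pk_idx_pos hI
  have hdet : |(A * diagonal w).det| = 1 := by
    rw [det_mul, det_diagonal, abs_mul, Finset.abs_prod, hw, ← mul_div_assoc, hA]
    exact div_self hD.ne'
  obtain ⟨y, hy⟩ := exists_lat hdet
  rw [← hr] at hy
  refine ⟨y, ?_, hy⟩
  obtain ⟨J, hJ⟩ := hI
  have ht : 0 < ∏ j, |w j| := by rw [hw]; positivity
  obtain ⟨s, u, hsu⟩ := exists_pt ht
  refine ⟨J, pk_proper hJ, ⟨I, (mul_comm _ _).trans hJ⟩,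
    (∏ j, |w j|) ^ (((m : ℝ) + 1)⁻¹), fun j => ((s j : ℤ) : ℝ),
    Fin.snoc (α := fun _ => ℝ) u (-∑ i, u i), Real.rpow_pos_of_pos ht _, fun j => ?_,
    pk_sum_snoc u, ?_⟩
  · rcases Int.units_eq_one_or (s j) with h | h <;> simp [h]
  · rw [hy]
    have key : ∀ α : K, (fun j => w j * σ j α) = fun j =>
        (∏ j, |w j|) ^ (((m : ℝ) + 1)⁻¹) * σ j α * ((s j : ℤ) : ℝ) *
          Real.exp (Fin.snoc (α := fun _ => ℝ) u (-∑ i, u i) j) := fun α => by
      funext j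
      have h1 : w j = ((s j : ℤ) : ℝ) * (∏ j, |w j|) ^ (((m : ℝ) + 1)⁻¹) *
          Real.exp (Fin.snoc (α := fun _ => ℝ) u (-∑ i, u i) j) := congrFun hsu j
      generalize (∏ j, |w j|) ^ (((m : ℝ) + 1)⁻¹) = c at h1 ⊢
      rw [h1]
      ring
    ext v
    constructor
    · rintro ⟨α, hα, rfl⟩
      exact ⟨α, (Inv.mem_inv hJ α).2 hα, key α⟩
    · rintro ⟨α, hα, rfl⟩
      exact ⟨α, (Inv.mem_inv hJ α).1 hα, (key α).symm⟩

theorem pk2 {y : X (m + 1)} (hy : y ∈ packet o σ) {w : Fin (m + 1) → ℝ} (hw : w ∈ lat y)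
    (h0 : w ≠ 0) : ∃ I ∈ Inv o, ∏ j, |w j| = idx I / rtD o ∧ lat y = latOf σ w I := by
  have := isFrac o
  obtain ⟨J0, -, ⟨J1, hJ⟩, c, s, u, -, -, -, hl⟩ := hy
  have hw' := hw
  rw [hl] at hw'
  obtain ⟨α, hα, hwα⟩ := hw'
  have hα0 : α ≠ 0 := by
    rintro rfl
    refine h0 ?_
    rw [hwα]
    funext j
    simp
  have hle : FractionalIdeal.spanSingleton o.O⁰ α * J1 ≤ 1 := by
    rw [← hJ]
    intro x hx
    obtain ⟨β, hβ, rfl⟩ := FractionalIdeal.mem_singleton_mul.1 hx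
    exact FractionalIdeal.mul_mem_mul hα hβ
  obtain ⟨I, hI⟩ := FractionalIdeal.le_one_iff_exists_coeIdeal.1 hle
  have hIJ : (I : FractionalIdeal o.O⁰ K) * (FractionalIdeal.spanSingleton o.O⁰ α⁻¹ * J0) = 1 := by
    rw [hI, mul_mul_mul_comm, FractionalIdeal.spanSingleton_mul_spanSingleton,
      mul_inv_cancel₀ hα0, FractionalIdeal.spanSingleton_one, one_mul, mul_comm, hJ]
  have hInv : I ∈ Inv o := ⟨_, hIJ⟩
  have key : ∀ γ : K, (fun j => c * σ j γ * s j * Real.exp (u j)) =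
      fun j => w j * σ j (α⁻¹ * γ) := fun γ => by
    funext j
    have h1 : σ j α ≠ 0 := (map_ne_zero _).2 hα0
    rw [hwα, map_mul, map_inv₀]
    field_simp
  have hlat : lat y = latOf σ w I := by
    rw [hl]
    ext v
    constructor
    · rintro ⟨γ, hγ, rfl⟩
      exact ⟨α⁻¹ * γ, (Inv.mem_inv hIJ _).1 (FractionalIdeal.mem_singleton_mul.2 ⟨γ, hγ, rfl⟩),
        key γ⟩
    · rintro ⟨β, hβ, rfl⟩
      obtain ⟨γ, hγ, rfl⟩ := FractionalIdeal.mem_singleton_mul.1 ((Inv.mem_inv hIJ _).2 hβ)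
      exact ⟨γ, hγ, (key γ).symm⟩
  refine ⟨I, hInv, ?_, hlat⟩
  obtain ⟨A, hA, hr⟩ := pk_rows σ hInv
  have hdet := abs_det_of_rows (hlat.trans (hr w))
  rw [det_mul, det_diagonal, abs_mul, Finset.abs_prod] at hdet
  rw [eq_div_iff (pk_rtD_pos o).ne', ← hA, ← mul_assoc, mul_comm _ |A.det|, hdet, one_mul]

theorem pk3 {I J : Ideal o.O} (hI : I ∈ Inv o) (hJ : J ∈ Inv o) {w : Fin (m + 1) → ℝ}
    (hw : ∀ j, w j ≠ 0) (h : latOf σ w I = latOf σ w J) : I = J := by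
  have := isFrac o
  have key : ∀ {I J : Ideal o.O}, latOf σ w I ⊆ latOf σ w J → dualI I ⊆ dualI J := by
    intro I J h α hα
    obtain ⟨β, hβ, e⟩ := h ⟨α, hα, rfl⟩
    have h1 : α = β := (σ 0).injective (mul_left_cancel₀ (hw 0) (congrFun e 0))
    exact h1 ▸ hβ
  obtain ⟨I', hI'⟩ := hI
  obtain ⟨J', hJ'⟩ := hJ
  have h1 : I' = J' := by
    ext α
    rw [Inv.mem_inv hI', Inv.mem_inv hJ']
    exact ⟨fun hα => key h.subset hα, fun hα => key h.superset hα⟩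
  subst h1
  have h2 : (I : FractionalIdeal o.O⁰ K) = J := by
    calc (I : FractionalIdeal o.O⁰ K) = I * (J * I') := by rw [hJ', mul_one]
      _ = J * (I * I') := mul_left_comm _ _ _
      _ = J := by rw [hI', mul_one]
  exact FractionalIdeal.coeIdeal_injective h2

theorem packet_act {y : X (m + 1)} (hy : y ∈ packet o σ) (u : Fin m → ℝ) :
    act (tor u) y ∈ packet o σ := by
  obtain ⟨I, h1, h2, c, s, u0, hc, hs, hu, hl⟩ := hy
  refine ⟨I, h1, h2, c, s, u0 + Fin.snoc (α := fun _ => ℝ) u (-∑ i, u i), hc, hs, ?_, ?_⟩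
  · simp only [Pi.add_apply]
    rw [Finset.sum_add_distrib, hu, pk_sum_snoc, add_zero]
  · rw [lat_tor, hl]
    have key : ∀ α : K, (fun j => c * σ j α * s j * Real.exp (u0 j)) * ex u = fun j =>
        c * σ j α * s j * Real.exp ((u0 + Fin.snoc (α := fun _ => ℝ) u (-∑ i, u i)) j) := by
      intro α
      funext j
      simp only [Pi.mul_apply, Pi.add_apply, Real.exp_add, ex]
      ring
    ext v
    constructor
    · rintro ⟨_, ⟨α, hα, rfl⟩, rfl⟩
      exact ⟨α, hα, key α⟩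
    · rintro ⟨α, hα, rfl⟩
      exact ⟨_, ⟨α, hα, rfl⟩, key α⟩

theorem packet_lb {y : X (m + 1)} (hy : y ∈ packet o σ) {w : Fin (m + 1) → ℝ} (hw : w ∈ lat y)
    (h0 : w ≠ 0) : (rtD o)⁻¹ ≤ ‖w‖ := by
  obtain ⟨I, hI, hp, -⟩ := pk2 hy hw h0
  have hD := pk_rtD_pos o
  by_contra hlt
  rw [not_le] at hlt
  have h1 : ‖w‖ ≤ 1 := hlt.le.trans (inv_le_one_of_one_le₀ (one_le_rtD o))
  have h2 : ∏ j, |w j| ≤ ‖w‖ ^ (m + 1) := by
    calc ∏ j, |w j| ≤ ∏ _j : Fin (m + 1), ‖w‖ :=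
          Finset.prod_le_prod (fun j _ => abs_nonneg _) fun j _ => norm_le_pi_norm w j
      _ = ‖w‖ ^ (m + 1) := by rw [Finset.prod_const, Finset.card_univ, Fintype.card_fin]
  have h3 : ‖w‖ ^ (m + 1) ≤ ‖w‖ := pow_le_of_le_one (norm_nonneg _) h1 (Nat.succ_ne_zero m)
  have h4 : (rtD o)⁻¹ ≤ idx I / rtD o := by
    rw [inv_eq_one_div]
    exact div_le_div_of_nonneg_right (pk_idx_pos hI) hD.le
  linarith

end Vale.Agent.P007A
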