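import Vale.Agent.P007A.Defs

/-! Quadratic extensions of a number field. -/

namespace Vale.Agent.P007A

open Vale.Agent.P007 Matrix MeasureTheory Filter Topology NumberField
open scoped ENNReal nonZeroDivisors Classical

theorem quad_card {R S k : Type} [CommRing R] [CommRing S] [Field k] (f : R →+* S) {t : S}
    {c d : ℤ} (ht : t ^ 2 = c) (hex : ∀ z : S, ∃ U V : R, d * z = f U + f V * t)
    (hun : ∀ U V : R, f U + f V * t = 0 → U = 0 ∧ V = 0) (hd : (d : k) ≠ 0) :
    Nat.card (S →+* k) = Nat.card (R →+* k) * Nat.card {ρ : k // ρ ^ 2 = c} := by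
  rw [← Nat.card_prod]
  choose U V hUV using hex
  have un : ∀ a b a' b' : R, f a + f b * t = f a' + f b' * t → a = a' ∧ b = b' :=
    fun a b a' b' h => by
      have h1 := hun (a - a') (b - b') (by rw [map_sub, map_sub]; linear_combination h)
      exact ⟨sub_eq_zero.1 h1.1, sub_eq_zero.1 h1.2⟩
  refine Nat.card_congr (Equiv.ofBijective
    (fun Ψ : S →+* k => (Ψ.comp f, (⟨Ψ t, by rw [← map_pow, ht, map_intCast]⟩ :
      {ρ : k // ρ ^ 2 = c}))) ⟨fun Ψ Ψ' h => ?_, ?_⟩)
  · have h1 : ∀ r, Ψ (f r) = Ψ' (f r) := fun r => DFunLike.congr_fun (congrArg Prod.fst h) r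
    have h2 : Ψ t = Ψ' t := congrArg Subtype.val (congrArg Prod.snd h)
    ext z
    have h3 := congrArg Ψ (hUV z)
    have h4 := congrArg Ψ' (hUV z)
    simp only [map_mul, map_add, map_intCast] at h3 h4
    rw [h1, h1, h2, ← h4] at h3
    exact mul_left_cancel₀ hd h3
  · rintro ⟨φ, ρ, hρ⟩
    have ha : ∀ z w, U (z + w) = U z + U w ∧ V (z + w) = V z + V w := fun z w =>
      un _ _ _ _ (by rw [map_add, map_add, ← hUV]; linear_combination hUV z + hUV w)
    have hm : ∀ z w, d * U (z * w) = U z * U w + c * (V z * V w) ∧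
        d * V (z * w) = U z * V w + V z * U w := fun z w =>
      un _ _ _ _ (by
        simp only [map_add, map_mul, map_intCast]
        linear_combination (-(d : S)) * hUV (z * w) + (d * w) * hUV z +
          (f (U z) + f (V z) * t) * hUV w + (f (V z) * f (V w)) * ht)
    have hf : ∀ r, U (f r) = d * r ∧ V (f r) = 0 := fun r =>
      un _ _ _ _ (by rw [← hUV]; simp)
    have hθ : U t = 0 ∧ V t = d := un _ _ _ _ (by rw [← hUV]; simp)
    let Φ : S →+* k :=
      { toFun := fun z => (φ (U z) + φ (V z) * ρ) / d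
        map_one' := by
          have h1 := hf 1
          rw [map_one] at h1
          simp [h1.1, h1.2, hd]
        map_zero' := by
          have h1 := hf 0
          rw [map_zero] at h1
          simp [h1.1, h1.2]
        map_add' := fun z w => by
          rw [(ha z w).1, (ha z w).2, map_add, map_add]
          ring
        map_mul' := fun z w => by
          have h1 := congrArg φ (hm z w).1
          have h2 := congrArg φ (hm z w).2
          simp only [map_add, map_mul, map_intCast] at h1 h2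
          field_simp
          linear_combination h1 + ρ * h2 - (φ (V z) * φ (V w)) * hρ }
    refine ⟨Φ, Prod.ext ?_ (Subtype.ext ?_)⟩
    · ext r
      change (φ (U (f r)) + φ (V (f r)) * ρ) / d = φ r
      rw [(hf r).1, (hf r).2]
      simp [hd]
    · change (φ (U t) + φ (V t) * ρ) / d = ρ
      rw [hθ.1, hθ.2]
      simp [hd]

theorem quad_main {F E : Type} [Field F] [NumberField F] [Field E] [NumberField E] [Algebra F E]
    {c : ℤ} {θ : E} (hsq : θ ^ 2 = c)
    (hex : ∀ z : E, ∃ u v : F, z = algebraMap F E u + algebraMap F E v * θ)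
    (hun : ∀ u v : F, algebraMap F E u + algebraMap F E v * θ = 0 → u = 0 ∧ v = 0)
    (σ : E →+* E) (hσ : ∀ u, σ (algebraMap F E u) = algebraMap F E u) (hσθ : σ θ = -θ)
    (hrank : Module.finrank F E = 2) :
    Module.finrank ℚ E = 2 * Module.finrank ℚ F ∧
      (NumberField.discr E).natAbs ≤
        (4 * c.natAbs) ^ Module.finrank ℚ F * (NumberField.discr F).natAbs ^ 2 ∧
      ∀ p : ℕ, p.Prime → ¬ (p : ℤ) ∣ 2 * c →
        (aF E p : ℤ) = aF F p * (1 + jacobiSym c p) := by
  have hr : Module.finrank ℚ E = 2 * Module.finrank ℚ F := by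
    rw [← Module.finrank_mul_finrank ℚ F E, hrank, mul_comm]
  have hθi : IsIntegral ℤ θ := IsIntegral.of_pow two_pos (by
    rw [hsq]
    exact isIntegral_algebraMap (R := ℤ) (x := c))
  have hinj := (algebraMap F E).injective
  let t : 𝓞 E := ⟨θ, hθi⟩
  have ht : t ^ 2 = c := by
    apply RingOfIntegers.coe_injective
    rw [map_pow, map_intCast]
    exact hsq
  have hun' : ∀ U V : 𝓞 F, algebraMap (𝓞 F) (𝓞 E) U + algebraMap (𝓞 F) (𝓞 E) V * t = 0 →
      U = 0 ∧ V = 0 := fun U V h => by
    have h1 := congrArg (algebraMap (𝓞 E) E) h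
    rw [map_add, map_mul, map_zero] at h1
    have h2 := hun U V h1
    exact ⟨RingOfIntegers.coe_eq_zero_iff.1 h2.1, RingOfIntegers.coe_eq_zero_iff.1 h2.2⟩
  have hex' : ∀ z : 𝓞 E, ∃ U V : 𝓞 F,
      ((2 * c : ℤ) : 𝓞 E) * z = algebraMap (𝓞 F) (𝓞 E) U + algebraMap (𝓞 F) (𝓞 E) V * t := by
    intro z
    obtain ⟨u, v, huv⟩ := hex z
    have h1 : IsIntegral ℤ (z : E) := z.isIntegral_coe
    have h2 : IsIntegral ℤ (σ z) := map_isIntegral_int σ h1
    have h3 : σ z = algebraMap F E u - algebraMap F E v * θ := by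
      rw [huv, map_add, map_mul, hσ, hσ, hσθ]
      ring
    have hc : IsIntegral ℤ (c : E) := isIntegral_algebraMap (R := ℤ) (x := c)
    have h4 : IsIntegral ℤ (2 * c * u : F) := by
      rw [← isIntegral_algebraMap_iff hinj]
      have e : algebraMap F E (2 * c * u) = c * (z + σ z) := by
        rw [h3, huv, map_mul, map_mul, map_intCast, map_ofNat]
        ring
      rw [e]
      exact hc.mul (h1.add h2)
    have h5 : IsIntegral ℤ (2 * c * v : F) := by
      rw [← isIntegral_algebraMap_iff hinj]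
      have e : algebraMap F E (2 * c * v) = (z - σ z) * θ := by
        rw [h3, huv, map_mul, map_mul, map_intCast, map_ofNat]
        linear_combination (-2 * algebraMap F E v) * hsq
      rw [e]
      exact (h1.sub h2).mul hθi
    refine ⟨⟨_, h4⟩, ⟨_, h5⟩, ?_⟩
    apply RingOfIntegers.coe_injective
    rw [map_add, map_mul, map_mul, map_intCast]
    change ((2 * c : ℤ) : E) * (z : E) =
      algebraMap F E (2 * c * u) + algebraMap F E (2 * c * v) * θ
    rw [huv]
    simp only [map_mul, map_intCast, map_ofNat]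
    push_cast
    ring
  refine ⟨hr, ?_, fun p hp hpc => ?_⟩
  · have hmin : (Polynomial.X ^ 2 - Polynomial.C (c : 𝓞 F)) = minpoly (𝓞 F) t := by
      refine minpoly.unique' _ _ (Polynomial.monic_X_pow_sub_C _ two_ne_zero) (by simp [ht])
        fun q hq => ?_
      rw [Polynomial.degree_X_pow_sub_C two_pos] at hq
      have h1 : q.degree ≤ 1 := Order.le_of_lt_succ hq
      by_cases h2 : Polynomial.aeval t q = 0
      · left
        have h3 := Polynomial.eq_X_add_C_of_degree_le_one h1
        rw [h3, map_add, map_mul, Polynomial.aeval_C, Polynomial.aeval_C, Polynomial.aeval_X,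
          add_comm] at h2
        obtain ⟨h4, h5⟩ := hun' _ _ h2
        rw [h3, h4, h5]
        simp
      · exact Or.inr h2
    have hadj : Algebra.adjoin F {algebraMap (𝓞 E) E t} = ⊤ := by
      rw [eq_top_iff]
      intro z _
      obtain ⟨u, v, rfl⟩ := hex z
      exact add_mem (Subalgebra.algebraMap_mem _ u)
        (mul_mem (Subalgebra.algebraMap_mem _ v) (Algebra.self_mem_adjoin_singleton F _))
    have h1 := aeval_derivative_mem_differentIdeal (𝓞 F) F E t hadj
    have e : Polynomial.aeval t (Polynomial.derivative (minpoly (𝓞 F) t)) = 2 * t := by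
      rw [← hmin]
      simp [one_add_one_eq_two, map_ofNat]
    rw [e] at h1
    have h2 := Ideal.absNorm_dvd_norm_of_mem h1
    have hc0 : c ≠ 0 := by
      rintro rfl
      have h3 : θ = 0 := by simpa using hsq
      exact one_ne_zero (hun 0 1 (by simp [h3])).2
    have h3 : (Algebra.norm ℤ (2 * t)).natAbs = (4 * c.natAbs) ^ Module.finrank ℚ F := by
      have h4 : (2 * t) ^ 2 = algebraMap ℤ (𝓞 E) (4 * c) := by
        rw [mul_pow, ht]
        simp only [eq_intCast]
        push_cast
        ring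
      have h5 := congrArg (fun x => (Algebra.norm ℤ x).natAbs) h4
      simp only [map_pow, Algebra.norm_algebraMap, Int.natAbs_pow, RingOfIntegers.rank, hr,
        Int.natAbs_mul] at h5
      rw [mul_comm 2 (Module.finrank ℚ F), pow_mul] at h5
      exact Nat.pow_left_injective two_ne_zero h5
    rw [natAbs_discr_eq_absNorm_differentIdeal_mul_natAbs_discr_pow F (𝓞 F) E (𝓞 E), hrank]
    refine Nat.mul_le_mul_right _ ?_
    rw [← h3]
    refine Nat.le_of_dvd ?_ (Int.natCast_dvd.1 h2)
    rw [h3]
    have := Int.natAbs_pos.2 hc0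
    positivity
  · have : Fact p.Prime := ⟨hp⟩
    have hd : ((2 * c : ℤ) : ZMod p) ≠ 0 := fun h =>
      hpc ((ZMod.intCast_zmod_eq_zero_iff_dvd _ _).1 h)
    have hp2 : p ≠ 2 := by
      rintro rfl
      exact hpc (Dvd.intro c rfl)
    have h1 := quad_card (algebraMap (𝓞 F) (𝓞 E)) ht hex' hun' hd
    have h2 := legendreSym.card_sqrts p hp2 c
    rw [← Set.ncard_eq_toFinset_card', ← Nat.card_coe_set_eq] at h2
    unfold aF
    rw [h1, Nat.cast_mul, ← jacobiSym.legendreSym.to_jacobiSym, add_comm, ← h2]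
    rfl

theorem exists_quad (F : Type) [Field F] [NumberField F] {c : ℤ} (hc : ¬ IsSquare (c : F)) :
    ∃ (E : Type) (_ : Field E) (_ : NumberField E) (ι : F →+* E) (θ : E), θ ^ 2 = c ∧
      (∀ z : E, ∃ u v : F, z = ι u + ι v * θ) ∧
      Module.finrank ℚ E = 2 * Module.finrank ℚ F ∧
      (NumberField.discr E).natAbs ≤
        (4 * c.natAbs) ^ Module.finrank ℚ F * (NumberField.discr F).natAbs ^ 2 ∧
      ∀ p : ℕ, p.Prime → ¬ (p : ℤ) ∣ 2 * c →
        (aF E p : ℤ) = aF F p * (1 + jacobiSym c p) := by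
  have : Fact (∀ r : F, r ^ 2 ≠ (c : F) + 0 * r) := ⟨fun r h => hc ⟨r, by
    rw [zero_mul, add_zero] at h
    rw [← h, sq]⟩⟩
  have hnf : NumberField (QuadraticAlgebra F (c : F) 0) := NumberField.of_module_finite F _
  have hsq : (QuadraticAlgebra.omega : QuadraticAlgebra F (c : F) 0) ^ 2 = c := by
    ext <;> simp [sq]
  have hex : ∀ z : QuadraticAlgebra F (c : F) 0, ∃ u v : F,
      z = algebraMap F _ u + algebraMap F _ v * QuadraticAlgebra.omega := fun z =>
    ⟨z.re, z.im, by ext <;> simp⟩
  refine ⟨QuadraticAlgebra F (c : F) 0, inferInstance, hnf, algebraMap F _,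
    QuadraticAlgebra.omega, hsq, hex, ?_⟩
  refine quad_main hsq hex (fun u v h => ?_) (starRingEnd _) (fun u => ?_) ?_
    (QuadraticAlgebra.finrank_eq_two _ _)
  · have h1 := congrArg QuadraticAlgebra.re h
    have h2 := congrArg QuadraticAlgebra.im h
    simp at h1 h2
    exact ⟨h1, h2⟩
  · ext <;> simp [starRingEnd_apply]
  · ext <;> simp [starRingEnd_apply]

end Vale.Agent.P007A
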