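import Vale.Agent.P007A.Pk
import Vale.Agent.P007A.Orb
import Vale.Agent.P007A.PhiB

/-! The unfolding identity for packet measures. -/

namespace Vale.Agent.P007A

open Vale.Agent.P007 Matrix MeasureTheory Filter Topology NumberField
open scoped ENNReal nonZeroDivisors Classical

variable {K : Type} [Field K] [NumberField K] {n m : ℕ}
  {o : Order K (m + 1)} {σ : Fin (m + 1) ≃ (K →+* ℝ)}

theorem unf_pos {I : Ideal o.O} (hI : I ∈ Inv o) : 0 < (idx I : ℝ) / rtD o :=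
  div_pos (Nat.cast_pos.2 (Nat.pos_of_ne_zero (idx_ne_zero (Inv.ne_bot hI))))
    (one_pos.trans_le (one_le_rtD o))

theorem unf_ne {s : Fin (m + 1) → ℤˣ} {t : ℝ} (ht : 0 < t) (u : Fin m → ℝ) (j : Fin (m + 1)) :
    pt s t u j ≠ 0 := by
  have h := prod_pt s ht.le u
  exact abs_ne_zero.1 (Finset.prod_ne_zero_iff.1 (h ▸ ht.ne') j (Finset.mem_univ j))

theorem unf_shift {x : X (m + 1)} {I : Ideal o.O} {s : Fin (m + 1) → ℤˣ} {t : ℝ}
    {a : Fin m → ℝ} (h : lat x = latOf σ (pt s t a) I) (u : Fin m → ℝ) :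
    lat (act (tor u) x) = latOf σ (pt s t (a + u)) I := by
  rw [lat_tor, h, ← latOf_mul, pt_mul_ex]

theorem unf_mem {R : Finset (X (m + 1))}
    (h1 : packet o σ = ⋃ x ∈ R, Set.range fun u => act (tor u) x) {x : X (m + 1)} (hx : x ∈ R)
    (u : Fin m → ℝ) : act (tor u) x ∈ packet o σ := by
  rw [h1]
  exact Set.mem_iUnion₂.2 ⟨x, hx, u, rfl⟩

theorem unf_rep {R : Finset (X (m + 1))}
    (h1 : packet o σ = ⋃ x ∈ R, Set.range fun u => act (tor u) x)
    (z : (Fin (m + 1) → ℤˣ) × Inv o) : ∃ x ∈ R, ∃ a : Fin m → ℝ,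
      lat x = latOf σ (pt z.1 (idx z.2.1 / rtD o) a) z.2.1 := by
  obtain ⟨y, hy, hl⟩ := pk1 σ z.2.2 (prod_pt z.1 (unf_pos z.2.2).le 0)
  rw [h1] at hy
  obtain ⟨x, hx, u, rfl⟩ := Set.mem_iUnion₂.1 hy
  refine ⟨x, hx, 0 + -u, ?_⟩
  rw [← unf_shift hl (-u), ← act_tor_add, add_neg_cancel, tor_zero, act_one]

theorem unf_raw {R : Finset (X (m + 1))} {D : X (m + 1) → Set (Fin m → ℝ)}
    (h1 : packet o σ = ⋃ x ∈ R, Set.range fun u => act (tor u) x)
    (h2 : ∀ x ∈ R, ∀ y ∈ R, (∃ u, act (tor u) x = y) → x = y)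
    (h3 : ∀ x ∈ R, MeasurableSet (D x) ∧
      Set.BijOn (fun u => act (tor u) x) (D x) (Set.range fun u => act (tor u) x))
    {f : (Fin (m + 1) → ℝ) → ℝ≥0∞} (hf : Measurable f) :
    ∑ x ∈ R, ∫⁻ u in D x, sg f (act (tor u) x) =
      ∑' k : ℕ, (rO o k : ℝ≥0∞) * Phi f (k / rtD o) := by
  choose xx hxx a ha using unf_rep h1
  obtain ⟨H, hH⟩ : ∃ H : (Fin (m + 1) → ℤˣ) × Inv o → ℝ≥0∞,
      H = fun z => ∫⁻ u : Fin m → ℝ, f (pt z.1 (idx z.2.1 / rtD o) u) := ⟨_, rfl⟩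
  have key : ∀ x ∈ R, ∫⁻ u in D x, sg f (act (tor u) x) = ∑' i : xx ⁻¹' {x}, H i := by
    intro x hx
    have hax : ∀ i : xx ⁻¹' {x},
        lat x = latOf σ (pt i.1.1 (idx i.1.2.1 / rtD o) (a i.1)) i.1.2.1 := fun i => by
      have e : xx i.1 = x := i.2
      rw [← ha, e]
    rw [orb_unfold (h3 x hx).1 (h3 x hx).2
      (fun i : xx ⁻¹' {x} => pt i.1.1 (idx i.1.2.1 / rtD o) (a i.1)) ?_ ?_ hf]
    · refine tsum_congr fun i => ?_
      simp only [pt_mul_ex, hH]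
      exact lintegral_add_left_eq_self (fun u => f (pt i.1.1 (idx i.1.2.1 / rtD o) u)) (a i.1)
    · intro i
      refine ⟨?_, fun h => unf_ne (unf_pos i.1.2.2) _ 0 (congrFun h 0)⟩
      rw [hax i]
      exact latOf_self _ _ _
    · intro w hw h0
      refine existsUnique_of_exists_of_unique ?_ ?_
      · have hp : x ∈ packet o σ := by
          simpa [tor_zero, act_one] using unf_mem h1 hx 0
        obtain ⟨I, hI, e1, e2⟩ := pk2 hp hw h0
        obtain ⟨s, u, e3⟩ := exists_pt (w := w) (e1 ▸ unf_pos hI)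
        rw [e1] at e3
        have e4 : act (tor (u - a (s, ⟨I, hI⟩))) (xx (s, ⟨I, hI⟩)) = x := by
          refine lat_inj ?_
          rw [unf_shift (ha (s, ⟨I, hI⟩)), add_sub_cancel, e2, e3]
        have e5 : xx (s, ⟨I, hI⟩) = x := h2 _ (hxx _) _ hx ⟨_, e4⟩
        refine ⟨(⟨(s, ⟨I, hI⟩), e5⟩, u - a (s, ⟨I, hI⟩)), by rwa [e5] at e4, ?_⟩
        simp only [pt_mul_ex, add_sub_cancel]
        exact e3
      · rintro ⟨⟨⟨s, I, hI⟩, hz⟩, u⟩ ⟨⟨⟨s', I', hI'⟩, hz'⟩, u'⟩ ⟨e1, e2⟩ ⟨e1', e2'⟩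
        simp only [pt_mul_ex] at e1 e2 e1' e2'
        have l1 := unf_shift (hax ⟨_, hz⟩) u
        have l2 := unf_shift (hax ⟨_, hz'⟩) u'
        simp only at l1 l2
        rw [e1, ← e2] at l1
        rw [e1', ← e2', l1] at l2
        have e3 : I = I' := pk3 hI hI' (fun j => e2 ▸ unf_ne (unf_pos hI) _ j) l2
        subst e3
        obtain ⟨e4, e5⟩ := pt_inj (unf_pos hI) (e2.symm.trans e2')
        subst e4
        rw [add_left_cancel e5]
  rw [Finset.sum_congr rfl key, ← tsum_Inv o fun k => Phi f (k / rtD o),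
    ← tsum_eq_sum (L := SummationFilter.unconditional _) (s := R)
      (f := fun x => ∑' i : xx ⁻¹' {x}, H i), ENNReal.tsum_fiberwise H xx,
    ENNReal.tsum_prod', ENNReal.tsum_comm]
  · refine tsum_congr fun I => ?_
    rw [tsum_fintype, hH]
    rfl
  · intro x hx
    refine ENNReal.tsum_eq_zero.2 fun i => (hx ?_).elim
    have e : xx i.1 = x := i.2
    exact e ▸ hxx i.1

theorem unf_lint {R : Finset (X (m + 1))} {D : X (m + 1) → Set (Fin m → ℝ)} (c : ℝ≥0∞)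
    {F : X (m + 1) → ℝ≥0∞} (hF : Measurable F) :
    ∫⁻ x, F x ∂(c • ∑ x ∈ R, (volume.restrict (D x)).map fun u => act (tor u) x) =
      c * ∑ x ∈ R, ∫⁻ u in D x, F (act (tor u) x) := by
  rw [lintegral_smul_measure, lintegral_finsetSum_measure, smul_eq_mul]
  congr 1
  exact Finset.sum_congr rfl fun x _ => lintegral_map hF (orb_cont x).measurable

theorem unf_fin (o : Order K (m + 1)) : ∑' k : ℕ, (rO o k : ℝ≥0∞) *
    Phi ((slab 2 2 : Set (Fin (m + 1) → ℝ)).indicator 1) (k / rtD o) ≠ ⊤ := by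
  obtain ⟨C, -, hC⟩ := Phi_slab m
  have h0 : 0 < rtD o := one_pos.trans_le (one_le_rtD o)
  have hk : ∀ k : ℕ, k ≠ 0 → (0 : ℝ) < k / rtD o := fun k hk =>
    div_pos (Nat.cast_pos.2 (Nat.pos_of_ne_zero hk)) h0
  rw [tsum_eq_sum (s := Finset.range ⌈2 * rtD o⌉₊)]
  · refine ENNReal.sum_ne_top.2 fun k _ => ?_
    rcases eq_or_ne k 0 with rfl | h
    · simp [rO_zero]
    · refine ENNReal.mul_ne_top (ENNReal.natCast_ne_top _)
        (ne_top_of_le_ne_top ?_ (hC 2 2 _ two_pos (hk k h)))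
      split_ifs <;> simp
  · intro k hk'
    rcases eq_or_ne k 0 with rfl | h
    · simp [rO_zero]
    · have h1 := hC 2 2 _ two_pos (hk k h)
      rw [if_neg] at h1
      · rw [le_zero_iff.1 h1, mul_zero]
      · rw [Finset.mem_range, not_lt, Nat.ceil_le] at hk'
        rw [not_lt, le_div_iff₀ h0]
        exact hk'

theorem unfold {μ : Measure (X (m + 1))} (hμ : IsPacketMeasure o σ μ) :
    IsProbabilityMeasure μ ∧ AInv μ ∧ ∃ V : ℝ, Unf o μ V := by
  obtain ⟨R, D, h1, h2, h3, rfl⟩ := hμ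
  have v0 : ∑ x ∈ R, volume (D x) ≠ 0 := by
    obtain ⟨y, hy⟩ := packet_nonempty o σ
    rw [h1] at hy
    obtain ⟨x, hx, -⟩ := Set.mem_iUnion₂.1 hy
    intro h
    exact orb_pos (h3 x hx).1 (h3 x hx).2 (Finset.sum_eq_zero_iff.1 h x hx)
  have v1 : ∑ x ∈ R, volume (D x) ≠ ⊤ := by
    refine ne_top_of_le_ne_top (unf_fin o) ?_
    rw [← unf_raw h1 h2 h3 (measurable_one.indicator (isOpen_slab 2 2).measurableSet)]
    refine Finset.sum_le_sum fun x _ => ?_
    rw [← setLIntegral_one]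
    refine lintegral_mono fun u => ?_
    obtain ⟨v, hv, h0, hn⟩ := minkowski (act (tor u) x)
    have hj : ∀ j, |v j| ≤ 1 := fun j => (norm_le_pi_norm v j).trans hn
    exact one_le_cnt hv h0 ⟨fun j => (hj j).trans_lt one_lt_two,
      (Finset.prod_le_one (fun j _ => abs_nonneg _) fun j _ => hj j).trans_lt one_lt_two⟩
  refine ⟨⟨?_⟩, fun a => ?_, (∑ x ∈ R, volume (D x)).toReal, ENNReal.toReal_pos v0 v1,
    fun f hf => ?_⟩
  · rw [← lintegral_one, unf_lint _ measurable_const]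
    simp only [setLIntegral_one]
    exact ENNReal.inv_mul_cancel v0 v1
  · have hm : Measurable (act (tor a) : X (m + 1) → X (m + 1)) := (act_cont _).measurable
    rw [Measure.map_smul, ← Measure.mapₗ_apply_of_measurable hm, map_sum]
    congr 1
    refine Finset.sum_congr rfl fun x hx => ?_
    rw [Measure.mapₗ_apply_of_measurable hm]
    exact orb_inv (h3 x hx).1 (h3 x hx).2 a
  · rw [unf_lint _ (measurable_sg hf), ENNReal.ofReal_toReal v1, ← mul_assoc,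
      ENNReal.mul_inv_cancel v0 v1, one_mul, unf_raw h1 h2 h3 hf]

theorem pm_le {μ : Measure (X (m + 1))} (hμ : IsPacketMeasure o σ μ) {F : X (m + 1) → ℝ≥0∞}
    (hF : Measurable F) {c : ℝ≥0∞} (h : ∀ x ∈ packet o σ, F x ≤ c) : ∫⁻ x, F x ∂μ ≤ c := by
  have hp := (unfold hμ).1
  have hc : ∫⁻ _, c ∂μ = c := by rw [lintegral_const, measure_univ, mul_one]
  refine le_of_le_of_eq ?_ hc
  obtain ⟨R, D, h1, -, -, rfl⟩ := hμ
  rw [unf_lint _ hF, unf_lint _ measurable_const]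
  gcongr with x hx u
  exact h _ (unf_mem h1 hx u)

end Vale.Agent.P007A
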